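import Mathlib
import Vale.Agent.Lib.P170.Numeric

/-!
Positivity of the threshold, by Hall's theorem and a first moment bound: with at most `n / 8`
random proper `k`-clauses, `k ≥ 3`, the formula is satisfiable with probability at least `6 / 7`.
-/

set_option linter.unusedSectionVars false

open Finset

namespace Vale.Agent.Lib.P170

namespace DeathSmall

/-- The variables of a clause. -/
def vars {V : Type} [DecidableEq V] {k : ℕ} (C : ProperClause V k) : Finset V :=
  C.1.image Prod.fst

lemma formulaSat_of_sdr {n k m : ℕ} (F : Fin m → ProperClause (Fin n) k) (f : Fin m → Fin n)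
    (hf : Function.Injective f) (hfm : ∀ i, f i ∈ vars (F i)) : FormulaSat F := by
  classical
  have h0 : ∀ i, ∃ l ∈ (F i).1, l.1 = f i := fun i => by
    have := hfm i
    unfold vars at this
    simpa using (Finset.mem_image.1 this)
  choose l hl hl1 using h0
  refine ⟨fun v => if h : ∃ i, f i = v then (l h.choose).2 else false, fun i => ⟨l i, hl i, ?_⟩⟩
  have h : ∃ i', f i' = (l i).1 := ⟨i, (hl1 i).symm⟩
  simp only [dif_pos h]
  have h2 : h.choose = i := by
    apply hf
    rw [h.choose_spec, hl1]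
  rw [h2]

lemma exists_bad {n k m : ℕ} (hmn : m ≤ n) (F : Fin m → ProperClause (Fin n) k)
    (hF : ¬ FormulaSat F) :
    ∃ s : Finset (Fin m), s.Nonempty ∧ ∃ U : Finset (Fin n), U.card = s.card ∧
      ∀ i ∈ s, vars (F i) ⊆ U := by
  classical
  by_contra hcon
  push Not at hcon
  apply hF
  have hall : ∀ s : Finset (Fin m), s.card ≤ (s.biUnion (fun i => vars (F i))).card := by
    intro s
    by_contra hlt
    push Not at hlt
    have hs : s.Nonempty := by
      rw [← Finset.card_pos]
      omega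
    have hsn : s.card ≤ Fintype.card (Fin n) := by
      simp only [Fintype.card_fin]
      have := Finset.card_le_univ s
      simp only [Fintype.card_fin] at this
      omega
    obtain ⟨U, hU, hUc⟩ := Finset.exists_superset_card_eq hlt.le hsn
    obtain ⟨i, hi, hin⟩ := hcon s hs U hUc
    apply hin
    intro v hv
    exact hU (Finset.mem_biUnion.2 ⟨i, hi, hv⟩)
  obtain ⟨f, hf, hfm⟩ := (Finset.all_card_le_biUnion_card_iff_exists_injective _).1 hall
  exact formulaSat_of_sdr F f hf hfm

/-- Counting tuples with prescribed coordinates in `A`. -/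
lemma card_tuples {X : Type} [Fintype X] [DecidableEq X] {m : ℕ} (s : Finset (Fin m))
    (A : Finset X) :
    (univ.filter (fun F : Fin m → X => ∀ i ∈ s, F i ∈ A)).card =
      A.card ^ s.card * (Fintype.card X) ^ (m - s.card) := by
  classical
  have h : univ.filter (fun F : Fin m → X => ∀ i ∈ s, F i ∈ A) =
      Fintype.piFinset (fun i => if i ∈ s then A else (univ : Finset X)) := by
    ext F
    simp only [mem_filter, mem_univ, true_and, Fintype.mem_piFinset]
    constructor
    · intro h i
      by_cases hi : i ∈ s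
      · simp [hi, h i hi]
      · simp [hi]
    · intro h i hi
      have := h i
      simpa [hi] using this
  rw [h, Fintype.card_piFinset]
  have h2 : ∀ i, (if i ∈ s then A else (univ : Finset X)).card =
      if i ∈ s then A.card else Fintype.card X := by
    intro i
    by_cases hi : i ∈ s <;> simp [hi]
  simp only [h2]
  rw [Finset.prod_ite]
  simp only [Finset.prod_const]
  have h3 : (univ.filter (fun i => i ∈ s)) = s := by ext i; simp
  have h4 : (univ.filter (fun i => i ∉ s)).card = m - s.card := by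
    rw [Finset.filter_not, Finset.card_sdiff_of_subset (Finset.subset_univ _), h3]
    simp
  rw [h3, h4]

/-- The clauses with all variables in `U`. -/
lemma card_clauses_in {W : Type} [Fintype W] [DecidableEq W] {k : ℕ} (U : Finset W) :
    (univ.filter (fun C : ProperClause W k => vars C ⊆ U)).card = 2 ^ k * U.card.choose k := by
  classical
  have h1 : (univ.filter (fun C : ProperClause W k => vars C ⊆ U)).card =
      ∑ C : ProperClause W k, if vars C ⊆ U then 1 else 0 := by
    rw [Finset.card_filter]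
  rw [h1]
  rw [← Equiv.sum_comp (clauseEquiv (W := W) (k := k)).symm, Fintype.sum_sigma]
  have h2 : ∀ (s : {s : Finset W // s.card = k}) (b : s.1 → Bool),
      vars ((clauseEquiv (W := W) (k := k)).symm ⟨s, b⟩) = s.1 := by
    intro s b
    have h0 : ((clauseEquiv (W := W) (k := k)).symm ⟨s, b⟩).1 =
        s.1.attach.image (fun v => (v.1, b v)) := rfl
    unfold vars
    rw [h0]
    ext v
    simp only [Finset.mem_image, Finset.mem_attach, true_and, Subtype.exists]
    constructor
    · rintro ⟨l, ⟨a, ha, rfl⟩, rfl⟩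
      exact ha
    · intro hv
      exact ⟨(v, b ⟨v, hv⟩), ⟨v, hv, rfl⟩, rfl⟩
  simp only [h2]
  have h3 : ∀ s : {s : Finset W // s.card = k},
      (∑ _b : s.1 → Bool, if s.1 ⊆ U then 1 else 0) = 2 ^ k * (if s.1 ⊆ U then 1 else 0) := by
    intro s
    rw [Finset.sum_const, Finset.card_univ, Fintype.card_fun, Fintype.card_bool, Fintype.card_coe,
      s.2, smul_eq_mul]
  simp only [h3]
  rw [← Finset.mul_sum, ← Finset.card_filter]
  congr 1
  rw [← Finset.card_powersetCard]
  apply Finset.card_bij (fun s _ => s.1)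
  · intro s hs
    simp only [mem_filter, mem_univ, true_and] at hs
    rw [Finset.mem_powersetCard]
    exact ⟨hs, s.2⟩
  · intro s _ s' _ h
    exact Subtype.ext h
  · intro D hD
    rw [Finset.mem_powersetCard] at hD
    exact ⟨⟨D, hD.2⟩, Finset.mem_filter.2 ⟨Finset.mem_univ _, hD.1⟩, rfl⟩

/-- Numerical term. -/
lemma term_le {n k m t : ℕ} (hk : 3 ≤ k) (hkn : k ≤ n) (hn : 0 < n) (hm : 8 * m ≤ n) (ht : t ≤ m) :
    (m.choose t : ℝ) * ((n.choose t : ℝ) * (((t.choose k : ℝ) / (n.choose k : ℝ)) ^ t)) ≤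
      (1 / 8 : ℝ) ^ t := by
  have hnR : (0 : ℝ) < n := by exact_mod_cast hn
  have htn : t ≤ n := by omega
  have h1 : (t.choose k : ℝ) / (n.choose k : ℝ) ≤ ((t : ℝ) / n) ^ k := by
    have h2 := kappa_le_pow (k := k) htn hkn hn
    unfold kappa at h2
    have hc : (0 : ℝ) < (n.choose k : ℝ) := by exact_mod_cast Nat.choose_pos hkn
    have h2k : (0 : ℝ) < 2 ^ k := by positivity
    have h3 : (t.choose k : ℝ) / (2 ^ k * (n.choose k : ℝ)) =
        ((t.choose k : ℝ) / (n.choose k : ℝ)) / 2 ^ k := by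
      field_simp
    rw [h3] at h2
    exact (div_le_div_iff_of_pos_right h2k).1 h2
  have hx0 : (0 : ℝ) ≤ (t : ℝ) / n := by positivity
  have hx1 : (t : ℝ) / n ≤ 1 := by
    rw [div_le_one hnR]
    exact_mod_cast htn
  have h2 : (t.choose k : ℝ) / (n.choose k : ℝ) ≤ ((t : ℝ) / n) ^ 3 :=
    h1.trans (pow_le_pow_of_le_one hx0 hx1 hk)
  have h20 : (0 : ℝ) ≤ (t.choose k : ℝ) / (n.choose k : ℝ) := by positivity
  have h3 : ((t.choose k : ℝ) / (n.choose k : ℝ)) ^ t ≤ (((t : ℝ) / n) ^ 3) ^ t :=
    pow_le_pow_left₀ h20 h2 t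
  have hcm : (m.choose t : ℝ) ≤ (m : ℝ) ^ t / t.factorial := Nat.choose_le_pow_div t m
  have hcn : (n.choose t : ℝ) ≤ (n : ℝ) ^ t / t.factorial := Nat.choose_le_pow_div t n
  have hfac : (t : ℝ) ^ t / t.factorial ≤ Real.exp t :=
    Real.pow_div_factorial_le_exp _ (by positivity) _
  have hfac0 : (0 : ℝ) ≤ (t : ℝ) ^ t / t.factorial := by positivity
  have he : Real.exp 1 * Real.exp 1 ≤ 8 := by
    have := Real.exp_one_lt_d9
    have h0 := Real.exp_pos 1
    nlinarith
  have hmain : (m.choose t : ℝ) * ((n.choose t : ℝ) * (((t.choose k : ℝ) / (n.choose k : ℝ)) ^ t)) ≤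
      ((m : ℝ) ^ t / t.factorial) * (((n : ℝ) ^ t / t.factorial) * ((((t : ℝ) / n) ^ 3) ^ t)) := by
    apply mul_le_mul hcm _ (by positivity) (by positivity)
    apply mul_le_mul hcn h3 (by positivity) (by positivity)
  refine hmain.trans ?_
  have hid : ((m : ℝ) ^ t / t.factorial) * (((n : ℝ) ^ t / t.factorial) * ((((t : ℝ) / n) ^ 3) ^ t)) =
      ((t : ℝ) ^ t / t.factorial) * ((t : ℝ) ^ t / t.factorial) *
        (((m : ℝ) / n) * ((t : ℝ) / n)) ^ t := by
    have hn0 : (n : ℝ) ≠ 0 := hnR.ne'
    have hf0 : (t.factorial : ℝ) ≠ 0 := by positivity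
    have hnt : (n : ℝ) ^ t ≠ 0 := pow_ne_zero _ hn0
    have e1 : (((t : ℝ) / n) ^ 3) ^ t = ((t : ℝ) ^ t * (t : ℝ) ^ t * (t : ℝ) ^ t) /
        ((n : ℝ) ^ t * (n : ℝ) ^ t * (n : ℝ) ^ t) := by
      rw [← pow_mul, div_pow, ← pow_add, ← pow_add, ← pow_add, ← pow_add]
      congr 2 <;> ring
    have e2 : (((m : ℝ) / n) * ((t : ℝ) / n)) ^ t =
        ((m : ℝ) ^ t * (t : ℝ) ^ t) / ((n : ℝ) ^ t * (n : ℝ) ^ t) := by
      rw [mul_pow, div_pow, div_pow]
      field_simp
    rw [e1, e2]
    generalize (m : ℝ) ^ t = a at *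
    generalize (n : ℝ) ^ t = b at *
    generalize (t : ℝ) ^ t = c at *
    generalize (t.factorial : ℝ) = f at *
    field_simp
  rw [hid]
  have hexp : ((t : ℝ) ^ t / t.factorial) * ((t : ℝ) ^ t / t.factorial) ≤ Real.exp t * Real.exp t :=
    mul_le_mul hfac hfac hfac0 (Real.exp_pos _).le
  have hmn : (m : ℝ) / n ≤ 1 / 8 := by
    rw [div_le_iff₀ hnR]
    have : (8 : ℝ) * m ≤ n := by exact_mod_cast hm
    linarith
  have htn' : (t : ℝ) / n ≤ 1 / 8 := by
    rw [div_le_iff₀ hnR]
    have : (8 : ℝ) * m ≤ n := by exact_mod_cast hm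
    have h5 : (t : ℝ) ≤ m := by exact_mod_cast ht
    linarith
  have hprod : ((m : ℝ) / n) * ((t : ℝ) / n) ≤ 1 / 64 := by
    have h0 : (0 : ℝ) ≤ (m : ℝ) / n := by positivity
    nlinarith
  have hprod0 : (0 : ℝ) ≤ ((m : ℝ) / n) * ((t : ℝ) / n) := by positivity
  have hpow : (((m : ℝ) / n) * ((t : ℝ) / n)) ^ t ≤ (1 / 64 : ℝ) ^ t :=
    pow_le_pow_left₀ hprod0 hprod t
  have hexp2 : Real.exp t * Real.exp t = (Real.exp 1 * Real.exp 1) ^ t := by
    rw [mul_pow, ← Real.exp_nat_mul, mul_one]
  have hexp3 : Real.exp t * Real.exp t ≤ 8 ^ t := by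
    rw [hexp2]
    exact pow_le_pow_left₀ (by positivity) he t
  calc ((t : ℝ) ^ t / t.factorial) * ((t : ℝ) ^ t / t.factorial) *
        (((m : ℝ) / n) * ((t : ℝ) / n)) ^ t
      ≤ (8 : ℝ) ^ t * (1 / 64 : ℝ) ^ t := by
        apply mul_le_mul (hexp.trans hexp3) hpow (by positivity) (by positivity)
    _ = (1 / 8 : ℝ) ^ t := by
        rw [← mul_pow]
        norm_num

lemma geom_sum_le (m : ℕ) :
    ∑ t ∈ range (m + 1), (if t = 0 then (0 : ℝ) else (1 / 8 : ℝ) ^ t) ≤ 1 / 7 := by
  have h : ∀ m : ℕ, ∑ t ∈ range (m + 1), (if t = 0 then (0 : ℝ) else (1 / 8 : ℝ) ^ t) =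
      (1 - (1 / 8 : ℝ) ^ m) / 7 := by
    intro m
    induction m with
    | zero => simp
    | succ m ih =>
      rw [Finset.sum_range_succ, ih]
      simp only [Nat.succ_ne_zero, if_false, pow_succ]
      ring
  rw [h]
  have : (0 : ℝ) ≤ (1 / 8 : ℝ) ^ m := by positivity
  linarith

open Classical in
/-- The main first moment estimate. -/
theorem one_sub_satProb_le {n k m : ℕ} (hk : 3 ≤ k) (hkn : k ≤ n) (hm : 8 * m ≤ n) :
    1 - satProb k n m ≤ 1 / 7 := by
  have hn : 0 < n := by omega
  have hmn : m ≤ n := by omega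
  set N : ℕ := Fintype.card (ProperClause (Fin n) k) with hN
  have hNnat : N = 2 ^ k * n.choose k := by
    simpa using card_properClause (W := Fin n) (k := k)
  have hNpos : 0 < N := by
    rw [hNnat]
    exact Nat.mul_pos (by positivity) (Nat.choose_pos hkn)
  have hNR : (0 : ℝ) < N := by exact_mod_cast hNpos
  have hNeq : (N : ℝ) = 2 ^ k * (n.choose k : ℝ) := by
    rw [hNnat]
    push_cast
    ring
  have hcard : Fintype.card (Fin m → ProperClause (Fin n) k) = N ^ m := by
    simp [hN]
  -- the unsatisfiable tuples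
  set B : Finset (Fin m → ProperClause (Fin n) k) := univ.filter (fun F => ¬ FormulaSat F) with hB
  have hsat : satProb k n m = 1 - (B.card : ℝ) / (N : ℝ) ^ m := by
    unfold satProb
    have h1 : Fintype.card {F : Fin m → ProperClause (Fin n) k // FormulaSat F} + B.card = N ^ m := by
      rw [hB, Fintype.card_subtype, ← hcard, ← Finset.card_univ]
      exact Finset.card_filter_add_card_filter_not _
    have h2 : ((Fintype.card {F : Fin m → ProperClause (Fin n) k // FormulaSat F} : ℕ) : ℝ) =
        (N : ℝ) ^ m - (B.card : ℝ) := by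
      have : ((Fintype.card {F : Fin m → ProperClause (Fin n) k // FormulaSat F} : ℕ) : ℝ) + (B.card : ℝ) =
          (N : ℝ) ^ m := by exact_mod_cast h1
      linarith
    have hNm : (N : ℝ) ^ m ≠ 0 := by positivity
    rw [h2, ← hN]
    field_simp
  rw [hsat]
  have hgoal : (B.card : ℝ) / (N : ℝ) ^ m ≤ 1 / 7 := by
    -- the covering
    let A : Finset (Fin n) → Finset (ProperClause (Fin n) k) := fun U => univ.filter (fun C : ProperClause (Fin n) k => vars C ⊆ U)
    let T : Finset (Fin m) → Finset (Fin n) → Finset (Fin m → ProperClause (Fin n) k) := fun s U =>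
      univ.filter (fun F : Fin m → ProperClause (Fin n) k => ∀ i ∈ s, F i ∈ A U)
    have hcover : B ⊆ (univ.filter (fun s : Finset (Fin m) => s.Nonempty)).biUnion
        (fun s => (powersetCard s.card (univ : Finset (Fin n))).biUnion (fun U => T s U)) := by
      intro F hF
      have hF' : ¬ FormulaSat F := (Finset.mem_filter.1 hF).2
      obtain ⟨s, hs, U, hU, hsU⟩ := exists_bad hmn F hF'
      refine Finset.mem_biUnion.2 ⟨s, Finset.mem_filter.2 ⟨Finset.mem_univ _, hs⟩, ?_⟩
      refine Finset.mem_biUnion.2 ⟨U, Finset.mem_powersetCard.2 ⟨Finset.subset_univ _, hU⟩, ?_⟩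
      refine Finset.mem_filter.2 ⟨Finset.mem_univ _, fun i hi => ?_⟩
      exact Finset.mem_filter.2 ⟨Finset.mem_univ _, hsU i hi⟩
    have hTcard : ∀ s : Finset (Fin m), ∀ U ∈ powersetCard s.card (univ : Finset (Fin n)),
        ((T s U).card : ℝ) / (N : ℝ) ^ m =
          (((s.card.choose k : ℕ) : ℝ) / (n.choose k : ℝ)) ^ s.card := by
      intro s U hU
      have hUc : U.card = s.card := (Finset.mem_powersetCard.1 hU).2
      have h1 : (T s U).card = (A U).card ^ s.card * N ^ (m - s.card) := card_tuples s (A U)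
      have h2 : (A U).card = 2 ^ k * s.card.choose k := by
        have := card_clauses_in (W := Fin n) (k := k) U
        rw [hUc] at this
        exact this
      have hsm : s.card ≤ m := by
        have := Finset.card_le_univ s
        simpa using this
      rw [h1, h2]
      push_cast
      have hNpow : (N : ℝ) ^ m = (N : ℝ) ^ s.card * (N : ℝ) ^ (m - s.card) := by
        rw [← pow_add]
        congr 1
        omega
      rw [hNpow, hNeq]
      have hc : (0 : ℝ) < (n.choose k : ℝ) := by exact_mod_cast Nat.choose_pos hkn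
      have h2k : (0 : ℝ) < 2 ^ k := by positivity
      have hN' : (0 : ℝ) < 2 ^ k * (n.choose k : ℝ) := by positivity
      have e : ((2 : ℝ) ^ k * ((s.card.choose k : ℕ) : ℝ)) ^ s.card /
          (2 ^ k * (n.choose k : ℝ)) ^ s.card =
          (((s.card.choose k : ℕ) : ℝ) / (n.choose k : ℝ)) ^ s.card := by
        rw [← div_pow]
        congr 1
        field_simp
      rw [← e]
      have hpos : ((2 : ℝ) ^ k * (n.choose k : ℝ)) ^ (m - s.card) ≠ 0 := by positivity
      field_simp
    have hB1 : (B.card : ℝ) ≤ ∑ s ∈ (univ.filter (fun s : Finset (Fin m) => s.Nonempty)),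
        ∑ U ∈ powersetCard s.card (univ : Finset (Fin n)), ((T s U).card : ℝ) := by
      have h1 : B.card ≤ ∑ s ∈ (univ.filter (fun s : Finset (Fin m) => s.Nonempty)),
          ∑ U ∈ powersetCard s.card (univ : Finset (Fin n)), (T s U).card := by
        refine (Finset.card_le_card hcover).trans ?_
        refine Finset.card_biUnion_le.trans ?_
        apply Finset.sum_le_sum
        intro s _
        exact Finset.card_biUnion_le
      exact_mod_cast h1
    have hB2 : (B.card : ℝ) / (N : ℝ) ^ m ≤ ∑ s ∈ (univ.filter (fun s : Finset (Fin m) => s.Nonempty)),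
        ((n.choose s.card : ℕ) : ℝ) * (((s.card.choose k : ℕ) : ℝ) / (n.choose k : ℝ)) ^ s.card := by
      have hNm : (0 : ℝ) < (N : ℝ) ^ m := by positivity
      rw [div_le_iff₀ hNm, Finset.sum_mul]
      refine hB1.trans (le_of_eq ?_)
      apply Finset.sum_congr rfl
      intro s _
      have h1 : ∀ U ∈ powersetCard s.card (univ : Finset (Fin n)), ((T s U).card : ℝ) =
          (((s.card.choose k : ℕ) : ℝ) / (n.choose k : ℝ)) ^ s.card * (N : ℝ) ^ m := by
        intro U hU
        rw [← hTcard s U hU]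
        field_simp
      rw [Finset.sum_congr rfl h1, Finset.sum_const, Finset.card_powersetCard, nsmul_eq_mul]
      simp only [Finset.card_univ, Fintype.card_fin]
      ring
    refine hB2.trans ?_
    -- reorganise by the cardinality
    set h : ℕ → ℝ := fun t => if t = 0 then 0 else
      ((n.choose t : ℕ) : ℝ) * (((t.choose k : ℕ) : ℝ) / (n.choose k : ℝ)) ^ t with hh
    have h1 : ∑ s ∈ (univ.filter (fun s : Finset (Fin m) => s.Nonempty)),
        ((n.choose s.card : ℕ) : ℝ) * (((s.card.choose k : ℕ) : ℝ) / (n.choose k : ℝ)) ^ s.card =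
        ∑ s ∈ (univ : Finset (Fin m)).powerset, h s.card := by
      rw [Finset.powerset_univ, Finset.sum_filter]
      apply Finset.sum_congr rfl
      intro s _
      by_cases hs : s.Nonempty
      · have hc : s.card ≠ 0 := by
          rw [Finset.card_ne_zero]
          exact hs
        simp [hs, hh, hc]
      · have hc : s.card = 0 := by
          rw [Finset.card_eq_zero]
          exact Finset.not_nonempty_iff_eq_empty.1 hs
        simp [hs, hh, hc]
    rw [h1, Finset.sum_powerset_apply_card]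
    simp only [Finset.card_univ, Fintype.card_fin, nsmul_eq_mul]
    refine le_trans (Finset.sum_le_sum ?_) (geom_sum_le m)
    intro t ht
    have ht' : t ≤ m := by
      have := Finset.mem_range.1 ht
      omega
    by_cases ht0 : t = 0
    · simp [hh, ht0]
    · simp only [hh, ht0, if_false]
      exact term_le hk hkn hn hm ht'
  linarith

/-- Positivity: at density `1 / 8`, the formula is satisfiable with probability at least `3 / 5`. -/
theorem death_small_aux {k : ℕ} (hk : 3 ≤ k) :
    ∃ (c₀ : ℝ) (N : ℕ), 0 < c₀ ∧ ∀ n, N ≤ n → (3 / 5 : ℝ) ≤ satProb k n ⌊c₀ * (n : ℝ)⌋₊ := by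
  refine ⟨1 / 8, k, by norm_num, fun n hn => ?_⟩
  have hm : 8 * ⌊(1 / 8 : ℝ) * (n : ℝ)⌋₊ ≤ n := by
    have h0 : (0 : ℝ) ≤ (1 / 8 : ℝ) * (n : ℝ) := by positivity
    have h1 := Nat.floor_le h0
    have h2 : ((8 * ⌊(1 / 8 : ℝ) * (n : ℝ)⌋₊ : ℕ) : ℝ) ≤ (n : ℝ) := by
      push_cast
      linarith
    exact_mod_cast h2
  have := one_sub_satProb_le hk hn hm
  linarith

end DeathSmall

end Vale.Agent.Lib.P170
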