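import Mathlib
import Vale.Agent.Lib.P170.Concrete

/-!
List expectations and the clause process: solution sets, frozen density `zz`, accumulated
density `psi`.
-/

set_option linter.unusedSectionVars false

open Finset

namespace Vale.Agent.Lib.P170

section LExp

variable {X Y : Type} [Fintype X] [Fintype Y]

/-- Uniform average. -/
noncomputable def lavg (h : X → ℝ) : ℝ := (Fintype.card X : ℝ)⁻¹ * ∑ x, h x

/-- Expectation over lists of `m` independent uniform elements. -/
noncomputable def lexp : ℕ → (List X → ℝ) → ℝ
  | 0, h => h []
  | m + 1, h => lavg (fun x => lexp m (fun l => h (x :: l)))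

lemma lavg_mono {h h' : X → ℝ} (H : ∀ x, h x ≤ h' x) : lavg h ≤ lavg h' := by
  unfold lavg
  apply mul_le_mul_of_nonneg_left _ (by positivity)
  exact Finset.sum_le_sum (fun x _ => H x)

lemma lavg_const [Nonempty X] (c : ℝ) : lavg (fun _ : X => c) = c := by
  unfold lavg
  have : (Fintype.card X : ℝ) ≠ 0 := by
    exact_mod_cast Fintype.card_ne_zero
  simp [Finset.card_univ]

lemma lavg_add (h h' : X → ℝ) : lavg (fun x => h x + h' x) = lavg h + lavg h' := by
  unfold lavg
  rw [Finset.sum_add_distrib, mul_add]

lemma lavg_mul_left (c : ℝ) (h : X → ℝ) : lavg (fun x => c * h x) = c * lavg h := by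
  unfold lavg
  rw [← Finset.mul_sum]
  ring

lemma lavg_sum {ι : Type} (s : Finset ι) (h : ι → X → ℝ) :
    lavg (fun x => ∑ i ∈ s, h i x) = ∑ i ∈ s, lavg (h i) := by
  unfold lavg
  rw [Finset.sum_comm, Finset.mul_sum]

lemma lavg_comm (h : X → Y → ℝ) :
    lavg (fun x => lavg (fun y => h x y)) = lavg (fun y => lavg (fun x => h x y)) := by
  unfold lavg
  simp only [Finset.mul_sum]
  rw [Finset.sum_comm]
  apply Finset.sum_congr rfl
  intro y _
  apply Finset.sum_congr rfl
  intro x _
  ring

lemma lexp_mono_len {m : ℕ} {h h' : List X → ℝ} (H : ∀ l, l.length = m → h l ≤ h' l) :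
    lexp m h ≤ lexp m h' := by
  induction m generalizing h h' with
  | zero => exact H [] rfl
  | succ m ih =>
    apply lavg_mono
    intro x
    apply ih
    intro l hl
    exact H _ (by simp [hl])

lemma lexp_mono {m : ℕ} {h h' : List X → ℝ} (H : ∀ l, h l ≤ h' l) : lexp m h ≤ lexp m h' :=
  lexp_mono_len (fun l _ => H l)

lemma lexp_congr_len {m : ℕ} {h h' : List X → ℝ} (H : ∀ l, l.length = m → h l = h' l) :
    lexp m h = lexp m h' :=
  le_antisymm (lexp_mono_len (fun l hl => (H l hl).le)) (lexp_mono_len (fun l hl => (H l hl).ge))

lemma lexp_const [Nonempty X] (m : ℕ) (c : ℝ) : lexp m (fun _ : List X => c) = c := by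
  induction m with
  | zero => rfl
  | succ m ih =>
    show lavg (fun _ => lexp m (fun _ => c)) = c
    rw [ih, lavg_const]

lemma lexp_add (m : ℕ) (h h' : List X → ℝ) :
    lexp m (fun l => h l + h' l) = lexp m h + lexp m h' := by
  induction m generalizing h h' with
  | zero => rfl
  | succ m ih =>
    show lavg _ = lavg _ + lavg _
    rw [← lavg_add]
    congr 1
    funext x
    exact ih _ _

lemma lexp_mul_left (m : ℕ) (c : ℝ) (h : List X → ℝ) :
    lexp m (fun l => c * h l) = c * lexp m h := by
  induction m generalizing h with
  | zero => rfl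
  | succ m ih =>
    show lavg _ = c * lavg _
    rw [← lavg_mul_left]
    congr 1
    funext x
    exact ih _

lemma lexp_sum {ι : Type} (m : ℕ) (s : Finset ι) (h : ι → List X → ℝ) :
    lexp m (fun l => ∑ i ∈ s, h i l) = ∑ i ∈ s, lexp m (h i) := by
  induction m generalizing h with
  | zero => rfl
  | succ m ih =>
    show lavg _ = ∑ i ∈ s, lavg _
    rw [← lavg_sum]
    congr 1
    funext x
    exact ih _

lemma lexp_nonneg {m : ℕ} {h : List X → ℝ} (H : ∀ l, 0 ≤ h l) : 0 ≤ lexp m h := by
  induction m generalizing h with
  | zero => exact H []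
  | succ m ih =>
    show 0 ≤ lavg _
    unfold lavg
    apply mul_nonneg (by positivity)
    exact Finset.sum_nonneg (fun x _ => ih (fun l => H _))

/-- Peeling the last element. -/
lemma lexp_snoc (m : ℕ) (h : List X → ℝ) :
    lexp (m + 1) h = lexp m (fun l => lavg (fun x => h (l ++ [x]))) := by
  induction m generalizing h with
  | zero => rfl
  | succ m ih =>
    show lavg _ = lavg _
    congr 1
    funext x
    have := ih (fun l => h (x :: l))
    exact this

lemma lavg_lexp_comm (m : ℕ) (h : X → List Y → ℝ) :
    lavg (fun x => lexp m (fun l => h x l)) = lexp m (fun l => lavg (fun x => h x l)) := by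
  induction m generalizing h with
  | zero => rfl
  | succ m ih =>
    show lavg (fun x => lavg _) = lavg _
    rw [lavg_comm]
    congr 1
    funext y
    exact ih _

/-- Order of independent expectations does not matter. -/
lemma lexp_comm (a b : ℕ) (h : List X → List Y → ℝ) :
    lexp a (fun l => lexp b (fun l' => h l l')) = lexp b (fun l' => lexp a (fun l => h l l')) := by
  induction a generalizing h with
  | zero => rfl
  | succ a ih =>
    show lavg _ = _
    have h1 : ∀ x : X, lexp a (fun l => lexp b (fun l' => h (x :: l) l')) =
        lexp b (fun l' => lexp a (fun l => h (x :: l) l')) := fun x => ih _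
    simp only [h1]
    rw [lavg_lexp_comm]
    rfl

/-- Link with tuples. -/
lemma lexp_eq_tuple [Nonempty X] (m : ℕ) (h : List X → ℝ) :
    lexp m h = ((Fintype.card X : ℝ) ^ m)⁻¹ * ∑ ω : Fin m → X, h (List.ofFn ω) := by
  induction m generalizing h with
  | zero => simp [lexp]
  | succ m ih =>
    show lavg _ = _
    unfold lavg
    simp only [ih]
    rw [Fintype.sum_equiv (Fin.consEquiv (fun _ => X)).symm
        (fun ω : Fin (m + 1) → X => h (List.ofFn ω))
        (fun p : X × (Fin m → X) => h (p.1 :: List.ofFn p.2))]
    · rw [Fintype.sum_prod_type, pow_succ', mul_inv, mul_assoc, ← Finset.mul_sum]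
    · intro ω
      congr 1
      rw [List.ofFn_succ]
      rfl

end LExp

section Process

variable {W V : Type} [Fintype W] [DecidableEq W] [Fintype V] [DecidableEq V] {k : ℕ}

/-- Solution set after a list of clauses. -/
noncomputable def solL (e : W → V) (S : Finset (V → Bool)) : List (ProperClause W k) → Finset (V → Bool)
  | [] => S
  | C :: l => solL e (S ∩ satOf e C) l

/-- Density of false-frozen literals; zero on the empty set. -/
noncomputable def zz (e : W → V) (S : Finset (V → Bool)) : ℝ :=
  if S.Nonempty then ((frozen e S).card : ℝ) / (2 * (Fintype.card W : ℝ)) else 0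

/-- Accumulated density along a list of clauses. -/
noncomputable def psi (e : W → V) (S : Finset (V → Bool)) : List (ProperClause W k) → ℝ
  | [] => 0
  | C :: l => zz e S + psi e (S ∩ satOf e C) l

lemma solL_inter (e : W → V) (S T : Finset (V → Bool)) (l : List (ProperClause W k)) :
    solL e (S ∩ T) l = solL e S l ∩ T := by
  induction l generalizing S with
  | nil => rfl
  | cons C l ih =>
    show solL e (S ∩ T ∩ satOf e C) l = solL e (S ∩ satOf e C) l ∩ T
    rw [← ih]
    congr 1
    ext σ
    simp only [Finset.mem_inter]
    tauto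

lemma solL_subset (e : W → V) (S : Finset (V → Bool)) (l : List (ProperClause W k)) :
    solL e S l ⊆ S := by
  induction l generalizing S with
  | nil => exact Finset.Subset.refl _
  | cons C l ih => exact (ih _).trans Finset.inter_subset_left

lemma solL_mono (e : W → V) {S S' : Finset (V → Bool)} (h : S' ⊆ S) (l : List (ProperClause W k)) :
    solL e S' l ⊆ solL e S l := by
  induction l generalizing S S' with
  | nil => exact h
  | cons C l ih => exact ih (Finset.inter_subset_inter_right h)

lemma solL_append (e : W → V) (S : Finset (V → Bool)) (l l' : List (ProperClause W k)) :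
    solL e S (l ++ l') = solL e (solL e S l) l' := by
  induction l generalizing S with
  | nil => rfl
  | cons C l ih => exact ih _

/-- Clause lists (possibly of different clause sizes) can be applied in any order. -/
lemma solL_comm {k' : ℕ} (e : W → V) (S : Finset (V → Bool)) (l : List (ProperClause W k))
    (l' : List (ProperClause W k')) :
    solL e (solL e S l) l' = solL e (solL e S l') l := by
  induction l generalizing S with
  | nil => rfl
  | cons C l ih =>
    show solL e (solL e (S ∩ satOf e C) l) l' = solL e (solL e S l') (C :: l)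
    rw [ih]
    show solL e (solL e (S ∩ satOf e C) l') l = solL e (solL e S l' ∩ satOf e C) l
    rw [solL_inter]

lemma zz_empty (e : W → V) : zz e (∅ : Finset (V → Bool)) = 0 := by
  simp [zz]

lemma zz_nonneg (e : W → V) (S : Finset (V → Bool)) : 0 ≤ zz e S := by
  unfold zz
  split_ifs <;> positivity

lemma zz_le_half (e : W → V) (S : Finset (V → Bool)) : zz e S ≤ 1 / 2 := by
  unfold zz
  split_ifs with h
  · have h1 : ((frozen e S).card : ℝ) ≤ Fintype.card W := by
      exact_mod_cast card_frozen_le e h
    by_cases h0 : (Fintype.card W : ℝ) = 0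
    · simp [h0]
    · have h2 : (0 : ℝ) < Fintype.card W := lt_of_le_of_ne (by positivity) (Ne.symm h0)
      rw [div_le_iff₀ (by positivity)]
      linarith
  · norm_num

lemma zz_mono (e : W → V) {S S' : Finset (V → Bool)} (h : S' ⊆ S) (hS' : S'.Nonempty) :
    zz e S ≤ zz e S' := by
  have hS : S.Nonempty := hS'.mono h
  unfold zz
  rw [if_pos hS, if_pos hS']
  apply div_le_div_of_nonneg_right _ (by positivity)
  exact_mod_cast Finset.card_le_card (frozen_anti e h)

lemma psi_nonneg (e : W → V) (S : Finset (V → Bool)) (l : List (ProperClause W k)) :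
    0 ≤ psi e S l := by
  induction l generalizing S with
  | nil => exact le_refl _
  | cons C l ih => exact add_nonneg (zz_nonneg _ _) (ih _)

lemma psi_snoc (e : W → V) (S : Finset (V → Bool)) (l : List (ProperClause W k))
    (C : ProperClause W k) : psi e S (l ++ [C]) = psi e S l + zz e (solL e S l) := by
  induction l generalizing S with
  | nil => simp [psi, solL]
  | cons D l ih =>
    show zz e S + psi e (S ∩ satOf e D) (l ++ [C]) =
      zz e S + psi e (S ∩ satOf e D) l + zz e (solL e (S ∩ satOf e D) l)
    rw [ih]
    ring

/-- A smaller initial set has larger accumulated density as long as it is alive at the end. -/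
lemma psi_mono_of_alive (e : W → V) {S S' : Finset (V → Bool)} (h : S' ⊆ S)
    (l : List (ProperClause W k)) (hend : (solL e S' l).Nonempty) :
    psi e S l ≤ psi e S' l := by
  induction l generalizing S S' with
  | nil => exact le_refl _
  | cons C l ih =>
    have hh : S' ∩ satOf e C ⊆ S ∩ satOf e C := Finset.inter_subset_inter_right h
    have hne : S'.Nonempty := by
      obtain ⟨σ, hσ⟩ := hend
      exact ⟨σ, Finset.mem_of_mem_inter_left (solL_subset e _ l hσ)⟩
    exact add_le_add (zz_mono e h hne) (ih hh hend)

/-- Link with the operator calculus. -/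
lemma lexp_avgOp_pow (e : W → V) (m : ℕ) (Ψ : Finset (V → Bool) → ℝ) (S : Finset (V → Bool)) :
    lexp m (fun l : List (ProperClause W k) => Ψ (solL e S l)) =
      (avgOp (satOf (k := k) e) ^ m) Ψ S := by
  induction m generalizing S with
  | zero => simp [lexp, solL]
  | succ m ih =>
    rw [pow_succ']
    simp only [Module.End.mul_apply, avgOp_apply]
    show lavg _ = _
    unfold lavg
    congr 1
    apply Finset.sum_congr rfl
    intro C _
    exact ih _

end Process

end Vale.Agent.Lib.P170
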