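import Mathlib
import Vale.Agent.Lib.P170.W.Lx
import Vale.Agent.Lib.P170.Numeric

/-!
M1: the drift potential and the weighted inequality (R2).

`vv e j t S` = probability that `t` random `j`-clauses kill `S`.  Clause size of the chain is `j+1`.
-/

set_option linter.unusedSectionVars false

open Finset

namespace Vale.Agent.Lib.P170

section Drift

variable {W V : Type} [Fintype W] [DecidableEq W] [Fintype V] [DecidableEq V] {j : ℕ}

/-- `V_t(S)`: probability that `t` random `j`-clauses kill `S`. -/
noncomputable def vv (e : W → V) (j t : ℕ) (S : Finset (V → Bool)) : ℝ :=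
  1 - (avgOp (satOf (k := j) e) ^ t) phi S

/-- The potential `Ξ_T`. -/
noncomputable def xi (e : W → V) (j T : ℕ) (S : Finset (V → Bool)) : ℝ :=
  ∑ t ∈ range T, vv e j t S

/-- `z̃(S) = (f - j)₊ / (2 (n - j))`, zero on the empty set. -/
noncomputable def ztil (e : W → V) (j : ℕ) (S : Finset (V → Bool)) : ℝ :=
  if S.Nonempty then (((frozen e S).card - j : ℕ) : ℝ) / (2 * ((Fintype.card W - j : ℕ) : ℝ)) else 0

lemma vv_eq_lexp (e : W → V) (j t : ℕ) (S : Finset (V → Bool)) :
    vv e j t S = 1 - lexp t (fun l : List (ProperClause W j) => phi (solL e S l)) := by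
  unfold vv
  rw [lexp_avgOp_pow]

lemma vv_nonneg (e : W → V) (hj : j ≤ Fintype.card W) (t : ℕ) (S : Finset (V → Bool)) :
    0 ≤ vv e j t S := by
  rw [vv_eq_lexp]
  have : Nonempty (ProperClause W j) :=
    Fintype.card_pos_iff.1 (by exact_mod_cast card_clause_pos (W := W) hj)
  have h1 : lexp t (fun l : List (ProperClause W j) => phi (solL e S l)) ≤
      lexp t (fun _ : List (ProperClause W j) => (1 : ℝ)) := lexp_mono (fun l => phi_le_one _)
  rw [lexp_const] at h1
  linarith

lemma vv_le_one (e : W → V) (t : ℕ) (S : Finset (V → Bool)) : vv e j t S ≤ 1 := by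
  rw [vv_eq_lexp]
  have h1 : 0 ≤ lexp t (fun l : List (ProperClause W j) => phi (solL e S l)) :=
    lexp_nonneg (fun l => phi_nonneg _)
  linarith

lemma vv_zero_of_nonempty (e : W → V) {S : Finset (V → Bool)} (hS : S.Nonempty) :
    vv e j 0 S = 0 := by
  simp [vv, phi_nonempty hS]

/-- `V_t` is monotone under shrinking the set. -/
lemma vv_anti (e : W → V) (hj : j ≤ Fintype.card W) (t : ℕ) {S S' : Finset (V → Bool)} (h : S' ⊆ S) :
    vv e j t S ≤ vv e j t S' := by
  rw [vv_eq_lexp, vv_eq_lexp]
  have h1 : lexp t (fun l : List (ProperClause W j) => phi (solL e S' l)) ≤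
      lexp t (fun l : List (ProperClause W j) => phi (solL e S l)) := by
    apply lexp_mono
    intro l
    by_cases h2 : (solL e S' l).Nonempty
    · rw [phi_nonempty h2, phi_nonempty (h2.mono (solL_mono e h l))]
    · rw [Finset.not_nonempty_iff_eq_empty] at h2
      rw [h2, phi_empty]
      exact phi_nonneg _
  linarith

/-- `φ - L φ` is the kill rate. -/
lemma m1_kill {i : ℕ} (e : W → V) (hi : i ≤ Fintype.card W) (S : Finset (V → Bool)) :
    ((phi : Finset (V → Bool) → ℝ) - avgOp (satOf (k := i) e) phi) S =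
      if S.Nonempty then kappa i (Fintype.card W) (frozen e S).card else 0 := by
  by_cases hS : S.Nonempty
  · simp only [Pi.sub_apply, if_pos hS, phi_nonempty hS, avg_phi_nonempty e hi hS]
    ring
  · rw [Finset.not_nonempty_iff_eq_empty] at hS
    subst hS
    simp [Pi.sub_apply, avg_phi_empty, phi_empty]

/-- Ratio of consecutive kill rates. -/
lemma m1_kappa_ratio {n f f' : ℕ} (hn : j + 1 ≤ n) (h : f ≤ f') :
    (((f - j : ℕ) : ℝ) / (2 * ((n - j : ℕ) : ℝ))) * kappa j n f' ≤ kappa (j + 1) n f' := by
  have hnj : 0 < n - j := by omega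
  have hnjR : (0 : ℝ) < ((n - j : ℕ) : ℝ) := by exact_mod_cast hnj
  have hc : (0 : ℝ) < (n.choose j : ℝ) := by exact_mod_cast Nat.choose_pos (by omega)
  have hc1 : (0 : ℝ) < (n.choose (j + 1) : ℝ) := by exact_mod_cast Nat.choose_pos hn
  have e1 : ((f'.choose (j + 1) : ℝ)) * ((j : ℝ) + 1) = (f'.choose j : ℝ) * ((f' - j : ℕ) : ℝ) := by
    exact_mod_cast Nat.choose_succ_right_eq f' j
  have e2 : ((n.choose (j + 1) : ℝ)) * ((j : ℝ) + 1) = (n.choose j : ℝ) * ((n - j : ℕ) : ℝ) := by
    exact_mod_cast Nat.choose_succ_right_eq n j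
  have hj1 : (0 : ℝ) < (j : ℝ) + 1 := by positivity
  have e3 : kappa (j + 1) n f' =
      (((f' - j : ℕ) : ℝ) / (2 * ((n - j : ℕ) : ℝ))) * kappa j n f' := by
    unfold kappa
    have e4 : (f'.choose (j + 1) : ℝ) = (f'.choose j : ℝ) * ((f' - j : ℕ) : ℝ) / ((j : ℝ) + 1) := by
      field_simp
      linarith
    have e5 : (n.choose (j + 1) : ℝ) = (n.choose j : ℝ) * ((n - j : ℕ) : ℝ) / ((j : ℝ) + 1) := by
      field_simp
      linarith
    rw [e4, e5, pow_succ]
    field_simp
  rw [e3]
  apply mul_le_mul_of_nonneg_right _ (kappa_nonneg _ _ _)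
  apply div_le_div_of_nonneg_right _ (by positivity)
  exact_mod_cast Nat.sub_le_sub_right h j

/-- Increment of `V`: `V_{t+1} - V_t` = expectation of the `j`-clause kill rate at time `t`. -/
lemma vv_succ_sub (e : W → V) (hj : j ≤ Fintype.card W) (t : ℕ) (S : Finset (V → Bool)) :
    vv e j (t + 1) S - vv e j t S =
      lexp t (fun l : List (ProperClause W j) =>
        if (solL e S l).Nonempty then kappa j (Fintype.card W) (frozen e (solL e S l)).card else 0) := by
  have h2 : vv e j (t + 1) S - vv e j t S =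
      (avgOp (satOf (k := j) e) ^ t) ((phi : Finset (V → Bool) → ℝ) - avgOp (satOf (k := j) e) phi) S := by
    unfold vv
    rw [pow_succ]
    simp only [Module.End.mul_apply, map_sub, Pi.sub_apply]
    ring
  rw [h2, ← lexp_avgOp_pow]
  apply lexp_congr_len
  intro l _
  exact m1_kill e hj (solL e S l)

/-- The drift inequality: `(L - 1) Ξ_T ≥ z̃ V_T`, with `L` the `(j+1)`-clause operator. -/
theorem drift_xi (e : W → V) (hj : 1 ≤ j) (hn : j + 1 ≤ Fintype.card W) (T : ℕ) (S : Finset (V → Bool)) :
    ztil e j S * vv e j T S ≤ avgOp (satOf (k := j + 1) e) (xi e j T) S - xi e j T S := by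
  set L := avgOp (satOf (k := j + 1) e) with hL
  set Ls := avgOp (satOf (k := j) e) with hLs
  have hn' : j ≤ Fintype.card W := by omega
  have : Nonempty (ProperClause W (j + 1)) :=
    Fintype.card_pos_iff.1 (by exact_mod_cast card_clause_pos (W := W) hn)
  -- one term
  have hstep : ∀ t, ztil e j S * (vv e j (t + 1) S - vv e j t S) ≤
      L (vv e j t) S - vv e j t S := by
    intro t
    have h1 : vv e j (t + 1) S - vv e j t S = (Ls ^ t) ((phi : Finset (V → Bool) → ℝ) - Ls phi) S := by
      unfold vv
      rw [pow_succ]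
      simp only [Module.End.mul_apply, map_sub, Pi.sub_apply]
      ring
    have hconst : L (fun _ => (1 : ℝ)) S = 1 := by
      rw [hL, avgOp_apply]
      have : (Fintype.card (ProperClause W (j + 1)) : ℝ) ≠ 0 := by
        exact_mod_cast Fintype.card_ne_zero
      simp [Finset.card_univ]
    have h2 : L (vv e j t) S - vv e j t S = (Ls ^ t) ((phi : Finset (V → Bool) → ℝ) - L phi) S := by
      have h3 : vv e j t = (fun _ => (1 : ℝ)) - (Ls ^ t) phi := by
        funext S'
        simp [vv, hLs]
      have hc : L ((Ls ^ t) phi) = (Ls ^ t) (L phi) := by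
        have hcomm : Commute L (Ls ^ t) := (avgOp_comm _ _).pow_right t
        have := congrArg (fun T : Module.End ℝ (Finset (V → Bool) → ℝ) => T phi) hcomm.eq
        simpa [Module.End.mul_apply] using this
      rw [h3, map_sub, map_sub, Pi.sub_apply, Pi.sub_apply, Pi.sub_apply, hconst, hc]
      ring
    rw [h1, h2]
    -- locality
    have hloc := (avgOp_isLocPos (satOf (k := j) e)).pow t
    have h4 := hloc (ztil e j S • ((phi : Finset (V → Bool) → ℝ) - Ls phi)) ((phi : Finset (V → Bool) → ℝ) - L phi) S (by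
      intro S' hS'
      simp only [Pi.smul_apply, smul_eq_mul]
      rw [m1_kill e hn', m1_kill e hn]
      by_cases hne : S'.Nonempty
      · have hSne : S.Nonempty := hne.mono hS'
        rw [if_pos hne, if_pos hne]
        unfold ztil
        rw [if_pos hSne]
        exact m1_kappa_ratio hn (Finset.card_le_card (frozen_anti e hS'))
      · rw [if_neg hne, if_neg hne]
        simp)
    rw [map_smul] at h4
    simpa using h4
  have hsum : ∑ t ∈ range T, ztil e j S * (vv e j (t + 1) S - vv e j t S) ≤
      ∑ t ∈ range T, (L (vv e j t) S - vv e j t S) := Finset.sum_le_sum (fun t _ => hstep t)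
  have hL_sum : L (xi e j T) S = ∑ t ∈ range T, L (vv e j t) S := by
    have : xi e j T = ∑ t ∈ range T, vv e j t := by
      funext S'
      simp [xi]
    rw [this, map_sum]
    simp
  have htel : ∑ t ∈ range T, ztil e j S * (vv e j (t + 1) S - vv e j t S) =
      ztil e j S * (vv e j T S - vv e j 0 S) := by
    rw [← Finset.mul_sum, Finset.sum_range_sub (fun t => vv e j t S)]
  have hz : ztil e j S * vv e j 0 S = 0 := by
    by_cases hS : S.Nonempty
    · rw [vv_zero_of_nonempty e hS, mul_zero]
    · unfold ztil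
      rw [if_neg hS, zero_mul]
  rw [htel, Finset.sum_sub_distrib] at hsum
  rw [hL_sum]
  unfold xi
  nlinarith

/-- Weighted (R2): along the `(j+1)`-clause chain from `S`, for a weight `w` monotone on `[0,∞)`. -/
theorem weighted_R2 (e : W → V) (hj : 1 ≤ j) (hn : j + 1 ≤ Fintype.card W) (w : ℝ → ℝ)
    (hw : MonotoneOn w (Set.Ici 0)) (hw0 : ∀ u, 0 ≤ u → 0 ≤ w u) (S : Finset (V → Bool)) (M T : ℕ) :
    ∑ g ∈ range M, lexp g (fun l : List (ProperClause W (j + 1)) =>
        w (psi e S l) * (ztil e j (solL e S l) * vv e j T (solL e S l))) ≤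
      T * lexp M (fun l : List (ProperClause W (j + 1)) => w (psi e S l)) := by
  have hn' : j ≤ Fintype.card W := by omega
  have : Nonempty (ProperClause W (j + 1)) :=
    Fintype.card_pos_iff.1 (by exact_mod_cast card_clause_pos (W := W) hn)
  have hxi0 : ∀ S', 0 ≤ xi e j T S' := fun S' => Finset.sum_nonneg (fun t _ => vv_nonneg e hn' t S')
  have hxi1 : ∀ S', xi e j T S' ≤ T := by
    intro S'
    have : xi e j T S' ≤ ∑ _t ∈ range T, (1 : ℝ) := Finset.sum_le_sum (fun t _ => vv_le_one e t S')
    simpa using this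
  set D : ℕ → ℝ := fun g => lexp g (fun l : List (ProperClause W (j + 1)) =>
    w (psi e S l) * xi e j T (solL e S l)) with hD
  have hstep : ∀ g, lexp g (fun l : List (ProperClause W (j + 1)) =>
      w (psi e S l) * (ztil e j (solL e S l) * vv e j T (solL e S l))) ≤ D (g + 1) - D g := by
    intro g
    have h1 : D (g + 1) = lexp g (fun l => lavg (fun C : ProperClause W (j + 1) =>
        w (psi e S (l ++ [C])) * xi e j T (solL e S (l ++ [C])))) := by
      simp only [hD]
      exact lexp_snoc g _
    have h2 : lexp g (fun l : List (ProperClause W (j + 1)) =>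
        w (psi e S l) * (ztil e j (solL e S l) * vv e j T (solL e S l)) +
          w (psi e S l) * xi e j T (solL e S l)) ≤
        lexp g (fun l => lavg (fun C : ProperClause W (j + 1) =>
          w (psi e S (l ++ [C])) * xi e j T (solL e S (l ++ [C])))) := by
      apply lexp_mono
      intro l
      have hw1 : 0 ≤ w (psi e S l) := hw0 _ (psi_nonneg e S l)
      have hdr := drift_xi e hj hn T (solL e S l)
      have h3 : w (psi e S l) * avgOp (satOf (k := j + 1) e) (xi e j T) (solL e S l) ≤
          lavg (fun C : ProperClause W (j + 1) =>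
            w (psi e S (l ++ [C])) * xi e j T (solL e S (l ++ [C]))) := by
        have h4 : avgOp (satOf (k := j + 1) e) (xi e j T) (solL e S l) =
            lavg (fun C : ProperClause W (j + 1) => xi e j T (solL e S l ∩ satOf e C)) := rfl
        rw [h4, ← lavg_mul_left]
        apply lavg_mono
        intro C
        have h5 : solL e S (l ++ [C]) = solL e S l ∩ satOf e C := by
          rw [solL_append]
          rfl
        rw [h5, psi_snoc]
        apply mul_le_mul_of_nonneg_right _ (hxi0 _)
        apply hw (Set.mem_Ici.2 (psi_nonneg e S l))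
        · exact Set.mem_Ici.2 (add_nonneg (psi_nonneg e S l) (zz_nonneg _ _))
        · linarith [zz_nonneg e (solL e S l)]
      have h6 := mul_le_mul_of_nonneg_left hdr hw1
      nlinarith
    rw [lexp_add] at h2
    rw [h1]
    simp only [hD]
    linarith
  have hsum := Finset.sum_le_sum (fun g (_ : g ∈ range M) => hstep g)
  rw [Finset.sum_range_sub] at hsum
  have h0 : 0 ≤ D 0 := mul_nonneg (hw0 _ (psi_nonneg e S [])) (hxi0 _)
  have hM : D M ≤ T * lexp M (fun l : List (ProperClause W (j + 1)) => w (psi e S l)) := by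
    rw [← lexp_mul_left]
    apply lexp_mono
    intro l
    have hw1 : 0 ≤ w (psi e S l) := hw0 _ (psi_nonneg e S l)
    calc w (psi e S l) * xi e j T (solL e S l) ≤ w (psi e S l) * T :=
          mul_le_mul_of_nonneg_left (hxi1 _) hw1
      _ = T * w (psi e S l) := by ring
  linarith

/-- Horizon monotonicity of a monotone functional of `psi`. -/
lemma lexp_psi_mono (e : W → V) (hn : j + 1 ≤ Fintype.card W) (w : ℝ → ℝ)
    (hw : MonotoneOn w (Set.Ici 0)) (S : Finset (V → Bool)) {g M : ℕ} (h : g ≤ M) :
    lexp g (fun l : List (ProperClause W (j + 1)) => w (psi e S l)) ≤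
      lexp M (fun l : List (ProperClause W (j + 1)) => w (psi e S l)) := by
  have : Nonempty (ProperClause W (j + 1)) :=
    Fintype.card_pos_iff.1 (by exact_mod_cast card_clause_pos (W := W) hn)
  induction h with
  | refl => exact le_refl _
  | step _ ih =>
    refine ih.trans ?_
    rw [lexp_snoc]
    apply lexp_mono
    intro l
    have h1 : w (psi e S l) = lavg (fun _ : ProperClause W (j + 1) => w (psi e S l)) :=
      (lavg_const _).symm
    rw [h1]
    apply lavg_mono
    intro C
    rw [psi_snoc]
    apply hw (Set.mem_Ici.2 (psi_nonneg e S l))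
    · exact Set.mem_Ici.2 (add_nonneg (psi_nonneg e S l) (zz_nonneg _ _))
    · linarith [zz_nonneg e (solL e S l)]

/-- `zz ≤ z̃ + j/(2n)` (for `j < n`). -/
lemma zz_le_ztil (e : W → V) (hn : j + 1 ≤ Fintype.card W) (S : Finset (V → Bool)) :
    zz e S ≤ ztil e j S + (j : ℝ) / (2 * (Fintype.card W : ℝ)) := by
  have hnpos : (0 : ℝ) < Fintype.card W := by
    have : 0 < Fintype.card W := by omega
    exact_mod_cast this
  by_cases hS : S.Nonempty
  · unfold zz ztil
    rw [if_pos hS, if_pos hS]
    set f := (frozen e S).card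
    set n := Fintype.card W
    have hnj : 0 < n - j := by omega
    have hnjR : (0 : ℝ) < ((n - j : ℕ) : ℝ) := by exact_mod_cast hnj
    have hle : ((n - j : ℕ) : ℝ) ≤ (n : ℝ) := by exact_mod_cast Nat.sub_le n j
    by_cases hf : f ≤ j
    · have h1 : (0 : ℝ) ≤ ((f - j : ℕ) : ℝ) / (2 * ((n - j : ℕ) : ℝ)) := by positivity
      have h2 : (f : ℝ) / (2 * (n : ℝ)) ≤ (j : ℝ) / (2 * (n : ℝ)) :=
        div_le_div_of_nonneg_right (by exact_mod_cast hf) (by positivity)
      linarith
    · push Not at hf
      have h3 : ((f - j : ℕ) : ℝ) = (f : ℝ) - j := by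
        rw [Nat.cast_sub hf.le]
      have h4 : ((f : ℝ) - j) / (2 * (n : ℝ)) ≤ ((f - j : ℕ) : ℝ) / (2 * ((n - j : ℕ) : ℝ)) := by
        rw [h3]
        apply div_le_div_of_nonneg_left _ (by positivity) (by linarith)
        have : (j : ℝ) < f := by exact_mod_cast hf
        linarith
      have h5 : (f : ℝ) / (2 * (n : ℝ)) = ((f : ℝ) - j) / (2 * (n : ℝ)) + (j : ℝ) / (2 * (n : ℝ)) := by
        field_simp
        ring
      linarith
  · unfold zz ztil
    rw [if_neg hS, if_neg hS]
    have : (0 : ℝ) ≤ (j : ℝ) / (2 * (Fintype.card W : ℝ)) := by positivity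
    linarith

/-- Kill rate bound: `κ_j(f) ≤ zz^j` for nonempty `S`. -/
lemma kappa_le_zz_pow (e : W → V) (hn : j ≤ Fintype.card W) (hW : 0 < Fintype.card W)
    {S : Finset (V → Bool)} (hS : S.Nonempty) :
    kappa j (Fintype.card W) (frozen e S).card ≤ zz e S ^ j := by
  have h1 := kappa_le_pow (card_frozen_le e hS) hn hW
  refine h1.trans (le_of_eq ?_)
  unfold zz
  rw [if_pos hS, ← div_pow]
  congr 1
  have hnR : (Fintype.card W : ℝ) ≠ 0 := by exact_mod_cast hW.ne'
  field_simp

end Drift

end Vale.Agent.Lib.P170
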