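import Mathlib
import Vale.Agent.Lib.P170.W.Drift

/-!
M2: the variable exchange.  Fix a literal `l₀ = (w₀, b₀)`.  A `(j+1)`-clause on `W` is either a clause on
`W' = {w // w ≠ w₀}` (type G), or `¬l₀ ∨ D` (type X), or `l₀ ∨ D` (type Y) with `D` a `j`-clause on `W'`.
-/

set_option linter.unusedSectionVars false

open Finset

namespace Vale.Agent.Lib.P170

section Exch

variable {W V : Type} [Fintype W] [DecidableEq W] [Fintype V] [DecidableEq V] {j : ℕ}

/-- The variables different from `w₀`. -/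
abbrev WW (w₀ : W) : Type := {w : W // w ≠ w₀}

/-- The inclusion of `W'` into the assignments' coordinates. -/
def eW (e : W → V) (w₀ : W) : WW w₀ → V := fun w => e w.1

lemma eW_injective {e : W → V} (he : Function.Injective e) (w₀ : W) :
    Function.Injective (eW e w₀) := fun _ _ h => Subtype.ext (he h)

/-- Literals of `W'` as literals of `W`. -/
def litEmb (w₀ : W) : (WW w₀ × Bool) ↪ (W × Bool) :=
  ⟨fun l => (l.1.1, l.2), fun a b h => by
    have h' : (a.1.1, a.2) = (b.1.1, b.2) := h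
    exact Prod.ext (Subtype.ext (Prod.mk.inj h').1) (Prod.mk.inj h').2⟩

/-- Pull a set of literals back to `W'`. -/
noncomputable def litPull (w₀ : W) (C : Finset (W × Bool)) : Finset (WW w₀ × Bool) :=
  univ.filter (fun l => (l.1.1, l.2) ∈ C)

lemma map_litPull (w₀ : W) (C : Finset (W × Bool)) :
    (litPull w₀ C).map (litEmb w₀) = C.filter (fun l => l.1 ≠ w₀) := by
  ext ⟨w, b⟩
  simp only [Finset.mem_map, litPull, Finset.mem_filter, Finset.mem_univ, true_and]
  constructor
  · rintro ⟨⟨⟨w', hw'⟩, b'⟩, h1, h2⟩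
    have h3 : (w', b') = (w, b) := h2
    rw [Prod.mk.injEq] at h3
    obtain ⟨rfl, rfl⟩ := h3
    exact ⟨h1, hw'⟩
  · rintro ⟨h1, h2⟩
    exact ⟨(⟨w, h2⟩, b), h1, rfl⟩

lemma litPull_map (w₀ : W) (D : Finset (WW w₀ × Bool)) :
    litPull w₀ (D.map (litEmb w₀)) = D := by
  ext ⟨w, b⟩
  simp only [litPull, Finset.mem_filter, Finset.mem_univ, true_and, Finset.mem_map]
  constructor
  · rintro ⟨a, h1, h2⟩
    have : a = (w, b) := (litEmb w₀).injective h2
    rwa [← this]
  · intro h
    exact ⟨(w, b), h, rfl⟩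

lemma litPull_insert_self (w₀ : W) (b : Bool) (D : Finset (WW w₀ × Bool)) :
    litPull w₀ (insert (w₀, b) (D.map (litEmb w₀))) = D := by
  ext ⟨w, b'⟩
  simp only [litPull, Finset.mem_filter, Finset.mem_univ, true_and, Finset.mem_insert,
    Finset.mem_map]
  constructor
  · rintro (h | ⟨a, h1, h2⟩)
    · exact absurd (congrArg Prod.fst h) w.2
    · have : a = (w, b') := (litEmb w₀).injective h2
      rwa [← this]
  · intro h
    exact Or.inr ⟨(w, b'), h, rfl⟩

lemma not_mem_map_lit (w₀ : W) (b : Bool) (D : Finset (WW w₀ × Bool)) :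
    (w₀, b) ∉ D.map (litEmb w₀) := by
  intro h
  obtain ⟨a, _, h2⟩ := Finset.mem_map.1 h
  exact a.1.2 (congrArg Prod.fst h2)

lemma proper_map_lit (w₀ : W) {D : Finset (WW w₀ × Bool)}
    (hD : ∀ l ∈ D, ∀ l' ∈ D, l.1 = l'.1 → l = l') :
    ∀ l ∈ D.map (litEmb w₀), ∀ l' ∈ D.map (litEmb w₀), l.1 = l'.1 → l = l' := by
  intro l hl l' hl' h
  obtain ⟨a, ha, rfl⟩ := Finset.mem_map.1 hl
  obtain ⟨a', ha', rfl⟩ := Finset.mem_map.1 hl'
  rw [hD a ha a' ha' (Subtype.ext h)]

lemma proper_insert_lit (w₀ : W) (b : Bool) {D : Finset (WW w₀ × Bool)}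
    (hD : ∀ l ∈ D, ∀ l' ∈ D, l.1 = l'.1 → l = l') :
    ∀ l ∈ insert (w₀, b) (D.map (litEmb w₀)), ∀ l' ∈ insert (w₀, b) (D.map (litEmb w₀)),
      l.1 = l'.1 → l = l' := by
  intro l hl l' hl' h
  rw [Finset.mem_insert] at hl hl'
  rcases hl with rfl | hl
  · rcases hl' with rfl | hl'
    · rfl
    · obtain ⟨a, _, rfl⟩ := Finset.mem_map.1 hl'
      exact absurd h.symm a.1.2
  · rcases hl' with rfl | hl'
    · obtain ⟨a, _, rfl⟩ := Finset.mem_map.1 hl
      exact absurd h a.1.2
    · exact proper_map_lit w₀ hD l hl l' hl' h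

lemma proper_litPull (w₀ : W) {C : Finset (W × Bool)}
    (hC : ∀ l ∈ C, ∀ l' ∈ C, l.1 = l'.1 → l = l') :
    ∀ l ∈ litPull w₀ C, ∀ l' ∈ litPull w₀ C, l.1 = l'.1 → l = l' := by
  intro l hl l' hl' h
  simp only [litPull, Finset.mem_filter, Finset.mem_univ, true_and] at hl hl'
  have := hC _ hl _ hl' (congrArg Subtype.val h)
  exact Prod.ext h (Prod.mk.inj this).2

lemma card_litPull_of_no (w₀ : W) {C : Finset (W × Bool)} (h : ∀ b, (w₀, b) ∉ C) :
    (litPull w₀ C).card = C.card := by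
  rw [← Finset.card_map (litEmb w₀), map_litPull]
  congr 1
  apply Finset.filter_true_of_mem
  rintro ⟨w, b⟩ hl rfl
  exact h b hl

lemma card_litPull_of_mem (w₀ : W) {C : Finset (W × Bool)}
    (hC : ∀ l ∈ C, ∀ l' ∈ C, l.1 = l'.1 → l = l') {b : Bool} (h : (w₀, b) ∈ C) :
    (litPull w₀ C).card + 1 = C.card := by
  rw [← Finset.card_map (litEmb w₀), map_litPull]
  have h1 : C.filter (fun l => l.1 ≠ w₀) = C.erase (w₀, b) := by
    ext ⟨w, b'⟩
    simp only [Finset.mem_filter, Finset.mem_erase, ne_eq, Prod.mk.injEq, not_and]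
    constructor
    · rintro ⟨h1, h2⟩
      exact ⟨fun h3 => absurd h3 h2, h1⟩
    · rintro ⟨h1, h2⟩
      refine ⟨h2, ?_⟩
      rintro rfl
      have := hC _ h _ h2 rfl
      exact h1 rfl (congrArg Prod.snd this).symm
  rw [h1, Finset.card_erase_add_one h]

lemma map_litPull_of_no (w₀ : W) {C : Finset (W × Bool)} (h : ∀ b, (w₀, b) ∉ C) :
    (litPull w₀ C).map (litEmb w₀) = C := by
  rw [map_litPull]
  apply Finset.filter_true_of_mem
  rintro ⟨w, b⟩ hl rfl
  exact h b hl

lemma insert_map_litPull_of_mem (w₀ : W) {C : Finset (W × Bool)}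
    (hC : ∀ l ∈ C, ∀ l' ∈ C, l.1 = l'.1 → l = l') {b : Bool} (h : (w₀, b) ∈ C) :
    insert (w₀, b) ((litPull w₀ C).map (litEmb w₀)) = C := by
  rw [map_litPull]
  ext ⟨w, b'⟩
  simp only [Finset.mem_insert, Finset.mem_filter, ne_eq, Prod.mk.injEq]
  constructor
  · rintro (⟨rfl, rfl⟩ | ⟨h1, _⟩)
    · exact h
    · exact h1
  · intro h1
    by_cases hw : w = w₀
    · subst hw
      have := hC _ h _ h1 rfl
      exact Or.inl ⟨rfl, (congrArg Prod.snd this).symm⟩
    · exact Or.inr ⟨h1, hw⟩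

/-- The trichotomy of clauses. `inl D`: type G. `inr (inl D)`: contains `(w₀, !b₀)` (type X).
`inr (inr D)`: contains `(w₀, b₀)` (type Y). -/
noncomputable def clEquiv (l₀ : W × Bool) (j : ℕ) :
    ProperClause W (j + 1) ≃
      ProperClause (WW l₀.1) (j + 1) ⊕ (ProperClause (WW l₀.1) j ⊕ ProperClause (WW l₀.1) j) where
  toFun C :=
    if h1 : (l₀.1, !l₀.2) ∈ C.1 then
      Sum.inr (Sum.inl ⟨litPull l₀.1 C.1, by
        have := card_litPull_of_mem l₀.1 C.2.2 h1
        have h3 := C.2.1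
        omega, proper_litPull l₀.1 C.2.2⟩)
    else if h2 : (l₀.1, l₀.2) ∈ C.1 then
      Sum.inr (Sum.inr ⟨litPull l₀.1 C.1, by
        have := card_litPull_of_mem l₀.1 C.2.2 h2
        have h3 := C.2.1
        omega, proper_litPull l₀.1 C.2.2⟩)
    else
      Sum.inl ⟨litPull l₀.1 C.1, by
        have hno : ∀ b, (l₀.1, b) ∉ C.1 := by
          intro b
          cases hb : b <;> cases hc : l₀.2 <;> simp_all
        rw [card_litPull_of_no l₀.1 hno]
        exact C.2.1, proper_litPull l₀.1 C.2.2⟩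
  invFun D :=
    match D with
    | Sum.inl D => ⟨D.1.map (litEmb l₀.1), by rw [Finset.card_map]; exact D.2.1,
        proper_map_lit l₀.1 D.2.2⟩
    | Sum.inr (Sum.inl D) => ⟨insert (l₀.1, !l₀.2) (D.1.map (litEmb l₀.1)), by
        rw [Finset.card_insert_of_notMem (not_mem_map_lit _ _ _), Finset.card_map, D.2.1],
        proper_insert_lit l₀.1 _ D.2.2⟩
    | Sum.inr (Sum.inr D) => ⟨insert (l₀.1, l₀.2) (D.1.map (litEmb l₀.1)), by
        rw [Finset.card_insert_of_notMem (not_mem_map_lit _ _ _), Finset.card_map, D.2.1],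
        proper_insert_lit l₀.1 _ D.2.2⟩
  left_inv C := by
    by_cases h1 : (l₀.1, !l₀.2) ∈ C.1
    · simp only [dif_pos h1]
      exact Subtype.ext (insert_map_litPull_of_mem l₀.1 C.2.2 h1)
    · by_cases h2 : (l₀.1, l₀.2) ∈ C.1
      · simp only [dif_neg h1, dif_pos h2]
        exact Subtype.ext (insert_map_litPull_of_mem l₀.1 C.2.2 h2)
      · simp only [dif_neg h1, dif_neg h2]
        have hno : ∀ b, (l₀.1, b) ∉ C.1 := by
          intro b
          cases hb : b <;> cases hc : l₀.2 <;> simp_all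
        exact Subtype.ext (map_litPull_of_no l₀.1 hno)
  right_inv D := by
    rcases D with D | D | D
    · have h1 : (l₀.1, !l₀.2) ∉ D.1.map (litEmb l₀.1) := not_mem_map_lit _ _ _
      have h2 : (l₀.1, l₀.2) ∉ D.1.map (litEmb l₀.1) := not_mem_map_lit _ _ _
      simp only [dif_neg h1, dif_neg h2]
      exact congrArg Sum.inl (Subtype.ext (litPull_map _ _))
    · have h1 : (l₀.1, !l₀.2) ∈ insert (l₀.1, !l₀.2) (D.1.map (litEmb l₀.1)) :=
        Finset.mem_insert_self _ _
      simp only [dif_pos h1]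
      exact congrArg (fun x => Sum.inr (Sum.inl x)) (Subtype.ext (litPull_insert_self _ _ _))
    · have h1 : (l₀.1, !l₀.2) ∉ insert (l₀.1, l₀.2) (D.1.map (litEmb l₀.1)) := by
        rw [Finset.mem_insert, not_or]
        constructor
        · intro h
          have := congrArg Prod.snd h
          simp at this
        · exact not_mem_map_lit _ _ _
      have h2 : (l₀.1, l₀.2) ∈ insert (l₀.1, l₀.2) (D.1.map (litEmb l₀.1)) :=
        Finset.mem_insert_self _ _
      simp only [dif_neg h1, dif_pos h2]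
      exact congrArg (fun x => Sum.inr (Sum.inr x)) (Subtype.ext (litPull_insert_self _ _ _))

lemma exists_map_lit (e : W → V) (w₀ : W) (D : Finset (WW w₀ × Bool)) (σ : V → Bool) :
    (∃ l ∈ D.map (litEmb w₀), σ (e l.1) = l.2) ↔ ∃ l ∈ D, σ (eW e w₀ l.1) = l.2 := by
  constructor
  · rintro ⟨l, hl, h⟩
    obtain ⟨a, ha, rfl⟩ := Finset.mem_map.1 hl
    exact ⟨a, ha, h⟩
  · rintro ⟨a, ha, h⟩
    exact ⟨litEmb w₀ a, Finset.mem_map_of_mem _ ha, h⟩

lemma sat_G (e : W → V) (l₀ : W × Bool) (D : ProperClause (WW l₀.1) (j + 1)) (σ : V → Bool) :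
    σ ∈ satOf e ((clEquiv l₀ j).symm (Sum.inl D)) ↔ σ ∈ satOf (eW e l₀.1) D := by
  rw [mem_satOf, mem_satOf]
  exact exists_map_lit e l₀.1 D.1 σ

lemma sat_X (e : W → V) (l₀ : W × Bool) (D : ProperClause (WW l₀.1) j) (σ : V → Bool) :
    σ ∈ satOf e ((clEquiv l₀ j).symm (Sum.inr (Sum.inl D))) ↔
      (σ (e l₀.1) ≠ l₀.2 ∨ σ ∈ satOf (eW e l₀.1) D) := by
  rw [mem_satOf, mem_satOf, ← exists_map_lit]
  show (∃ l ∈ insert (l₀.1, !l₀.2) (D.1.map (litEmb l₀.1)), σ (e l.1) = l.2) ↔ _
  simp only [Finset.mem_insert, exists_eq_or_imp]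
  cases h : σ (e l₀.1) <;> cases h2 : l₀.2 <;> simp_all

lemma sat_Y (e : W → V) (l₀ : W × Bool) (D : ProperClause (WW l₀.1) j) (σ : V → Bool) :
    σ ∈ satOf e ((clEquiv l₀ j).symm (Sum.inr (Sum.inr D))) ↔
      (σ (e l₀.1) = l₀.2 ∨ σ ∈ satOf (eW e l₀.1) D) := by
  rw [mem_satOf, mem_satOf, ← exists_map_lit]
  show (∃ l ∈ insert (l₀.1, l₀.2) (D.1.map (litEmb l₀.1)), σ (e l.1) = l.2) ↔ _
  simp only [Finset.mem_insert, exists_eq_or_imp]

/-- Averaging over a clause, by type.  `q = (j+1)/n`. -/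
lemma lavg_clause (l₀ : W × Bool) (hn : j + 1 ≤ Fintype.card W) (h : ProperClause W (j + 1) → ℝ) :
    lavg h =
      (1 - ((j : ℝ) + 1) / (Fintype.card W : ℝ)) *
          lavg (fun D => h ((clEquiv l₀ j).symm (Sum.inl D))) +
        (((j : ℝ) + 1) / (Fintype.card W : ℝ) / 2) *
          lavg (fun D => h ((clEquiv l₀ j).symm (Sum.inr (Sum.inl D)))) +
        (((j : ℝ) + 1) / (Fintype.card W : ℝ) / 2) *
          lavg (fun D => h ((clEquiv l₀ j).symm (Sum.inr (Sum.inr D)))) := by
  classical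
  have hsum : ∑ C, h C =
      ∑ D, h ((clEquiv l₀ j).symm (Sum.inl D)) +
      (∑ D, h ((clEquiv l₀ j).symm (Sum.inr (Sum.inl D))) +
        ∑ D, h ((clEquiv l₀ j).symm (Sum.inr (Sum.inr D)))) := by
    rw [← Equiv.sum_comp (clEquiv l₀ j).symm h, Fintype.sum_sum_type, Fintype.sum_sum_type]
  obtain ⟨n, hcard⟩ : ∃ n, Fintype.card W = n + 1 := ⟨Fintype.card W - 1, by omega⟩
  have hW' : Fintype.card (WW l₀.1) = n := by
    simp [Fintype.card_subtype_compl, hcard]
  have hjn : j ≤ n := by omega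
  have hP : ((n + 1).choose (j + 1) : ℝ) * ((j : ℝ) + 1) = ((n : ℝ) + 1) * (n.choose j : ℝ) := by
    have := Nat.add_one_mul_choose_eq n j
    have h2 : ((n + 1) * n.choose j : ℕ) = (n + 1).choose (j + 1) * (j + 1) := this
    have h3 : (((n + 1) * n.choose j : ℕ) : ℝ) = (((n + 1).choose (j + 1) * (j + 1) : ℕ) : ℝ) := by
      rw [h2]
    push_cast at h3
    linarith
  have hPas : ((n + 1).choose (j + 1) : ℝ) = (n.choose j : ℝ) + (n.choose (j + 1) : ℝ) := by
    have := Nat.choose_succ_succ n j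
    exact_mod_cast this
  have hc0 : (0 : ℝ) < (n.choose j : ℝ) := by exact_mod_cast Nat.choose_pos hjn
  have hc1 : (0 : ℝ) < ((n + 1).choose (j + 1) : ℝ) := by
    exact_mod_cast Nat.choose_pos (by omega)
  have hn1 : (0 : ℝ) < (n : ℝ) + 1 := by positivity
  have hq : ((n.choose j : ℝ)) / ((n + 1).choose (j + 1) : ℝ) = ((j : ℝ) + 1) / ((n : ℝ) + 1) := by
    rw [div_eq_div_iff hc1.ne' hn1.ne']
    linarith
  have hNX : (Fintype.card (ProperClause (WW l₀.1) j) : ℝ) = 2 ^ j * (n.choose j : ℝ) := by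
    rw [card_properClause, hW']; push_cast; ring
  have hNG : (Fintype.card (ProperClause (WW l₀.1) (j + 1)) : ℝ) =
      2 ^ (j + 1) * (n.choose (j + 1) : ℝ) := by
    rw [card_properClause, hW']; push_cast; ring
  have hN : (Fintype.card (ProperClause W (j + 1)) : ℝ) =
      2 ^ (j + 1) * ((n + 1).choose (j + 1) : ℝ) := by
    rw [card_properClause, hcard]; push_cast; ring
  have hcW : (Fintype.card W : ℝ) = (n : ℝ) + 1 := by rw [hcard]; push_cast; ring
  have h2j : (0 : ℝ) < 2 ^ j := by positivity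
  have hqe : ((j : ℝ) + 1) / (Fintype.card W : ℝ) =
      (n.choose j : ℝ) / ((n + 1).choose (j + 1) : ℝ) := by rw [hcW, hq]
  unfold lavg
  rw [hsum, hqe, hNX, hNG, hN]
  have hX : (n.choose j : ℝ) / ((n + 1).choose (j + 1) : ℝ) / 2 * (2 ^ j * (n.choose j : ℝ))⁻¹ =
      (2 ^ (j + 1) * ((n + 1).choose (j + 1) : ℝ))⁻¹ := by
    field_simp
    ring
  have hG : (1 - (n.choose j : ℝ) / ((n + 1).choose (j + 1) : ℝ)) *
      ((2 ^ (j + 1) * (n.choose (j + 1) : ℝ))⁻¹ * ∑ D, h ((clEquiv l₀ j).symm (Sum.inl D))) =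
      (2 ^ (j + 1) * ((n + 1).choose (j + 1) : ℝ))⁻¹ *
        ∑ D, h ((clEquiv l₀ j).symm (Sum.inl D)) := by
    by_cases h0 : (n.choose (j + 1) : ℝ) = 0
    · have hem : IsEmpty (ProperClause (WW l₀.1) (j + 1)) := by
        rw [← Fintype.card_eq_zero_iff]
        have : (Fintype.card (ProperClause (WW l₀.1) (j + 1)) : ℝ) = 0 := by rw [hNG, h0]; ring
        exact_mod_cast this
      simp
    · have hc2 : (0 : ℝ) < (n.choose (j + 1) : ℝ) :=
        lt_of_le_of_ne (by positivity) (Ne.symm h0)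
      have h1q : 1 - (n.choose j : ℝ) / ((n + 1).choose (j + 1) : ℝ) =
          (n.choose (j + 1) : ℝ) / ((n + 1).choose (j + 1) : ℝ) := by
        rw [hPas]
        have : (0 : ℝ) < (n.choose j : ℝ) + (n.choose (j + 1) : ℝ) := by positivity
        field_simp
        ring
      rw [h1q, ← mul_assoc]
      congr 1
      field_simp
  rw [hG, ← mul_assoc, ← mul_assoc, hX]
  ring

/-- Split a list of clauses by type, keeping residuals. -/
noncomputable def splitL (l₀ : W × Bool) :
    List (ProperClause W (j + 1)) →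
      List (ProperClause (WW l₀.1) (j + 1)) × List (ProperClause (WW l₀.1) j) ×
        List (ProperClause (WW l₀.1) j)
  | [] => ([], [], [])
  | C :: ω =>
    match clEquiv l₀ j C with
    | Sum.inl D => (D :: (splitL l₀ ω).1, (splitL l₀ ω).2.1, (splitL l₀ ω).2.2)
    | Sum.inr (Sum.inl D) => ((splitL l₀ ω).1, D :: (splitL l₀ ω).2.1, (splitL l₀ ω).2.2)
    | Sum.inr (Sum.inr D) => ((splitL l₀ ω).1, (splitL l₀ ω).2.1, D :: (splitL l₀ ω).2.2)

/-- Trinomial coefficient of the type counts. -/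
noncomputable def cf (q : ℝ) : ℕ → ℕ → ℕ → ℕ → ℝ
  | 0, g, x, y => if g = 0 ∧ x = 0 ∧ y = 0 then 1 else 0
  | m + 1, g, x, y =>
    (1 - q) * (match g with | 0 => 0 | g' + 1 => cf q m g' x y) +
    (q / 2) * (match x with | 0 => 0 | x' + 1 => cf q m g x' y) +
    (q / 2) * (match y with | 0 => 0 | y' + 1 => cf q m g x y')

lemma cf_nonneg {q : ℝ} (h0 : 0 ≤ q) (h1 : q ≤ 1) (m g x y : ℕ) : 0 ≤ cf q m g x y := by
  induction m generalizing g x y with
  | zero =>
    unfold cf
    split_ifs <;> norm_num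
  | succ m ih =>
    unfold cf
    have e1 : 0 ≤ (match g with | 0 => (0 : ℝ) | g' + 1 => cf q m g' x y) := by
      cases g with
      | zero => exact le_refl _
      | succ g' => exact ih _ _ _
    have e2 : 0 ≤ (match x with | 0 => (0 : ℝ) | x' + 1 => cf q m g x' y) := by
      cases x with
      | zero => exact le_refl _
      | succ x' => exact ih _ _ _
    have e3 : 0 ≤ (match y with | 0 => (0 : ℝ) | y' + 1 => cf q m g x y') := by
      cases y with
      | zero => exact le_refl _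
      | succ y' => exact ih _ _ _
    have h2 : 0 ≤ 1 - q := by linarith
    have h3 : 0 ≤ q / 2 := by linarith
    exact add_nonneg (add_nonneg (mul_nonneg h2 e1) (mul_nonneg h3 e2)) (mul_nonneg h3 e3)

lemma cf_eq_zero (q : ℝ) {m g x y : ℕ} (h : g + x + y ≠ m) : cf q m g x y = 0 := by
  induction m generalizing g x y with
  | zero =>
    unfold cf
    rw [if_neg]
    rintro ⟨rfl, rfl, rfl⟩
    exact h rfl
  | succ m ih =>
    unfold cf
    have e1 : (match g with | 0 => (0 : ℝ) | g' + 1 => cf q m g' x y) = 0 := by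
      cases g with
      | zero => rfl
      | succ g' => exact ih (by omega)
    have e2 : (match x with | 0 => (0 : ℝ) | x' + 1 => cf q m g x' y) = 0 := by
      cases x with
      | zero => rfl
      | succ x' => exact ih (by omega)
    have e3 : (match y with | 0 => (0 : ℝ) | y' + 1 => cf q m g x y') = 0 := by
      cases y with
      | zero => rfl
      | succ y' => exact ih (by omega)
    rw [e1, e2, e3]
    ring

/-- Bernoulli with an explicit gap. -/
lemma m2b_pow_bound {a b : ℝ} (ha : 0 ≤ a) (hb : 0 ≤ b) (N : ℕ) :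
    a ^ N + (N : ℝ) * b * a ^ (N - 1) ≤ (a + b) ^ N := by
  induction N with
  | zero => simp
  | succ N ih =>
    cases N with
    | zero => simp
    | succ N =>
      simp only [Nat.add_sub_cancel] at ih ⊢
      have h1 := mul_le_mul_of_nonneg_right ih (add_nonneg ha hb)
      have h2 : a ^ (N + 1 + 1) + ((N + 1 + 1 : ℕ) : ℝ) * b * a ^ (N + 1) =
          (a ^ (N + 1) + ((N + 1 : ℕ) : ℝ) * b * a ^ N) * (a + b) - ((N : ℝ) + 1) * b * a ^ N * b := by
        push_cast
        ring
      have h3 : 0 ≤ ((N : ℝ) + 1) * b * a ^ N * b := by positivity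
      have h4 : (a + b) ^ (N + 1 + 1) = (a + b) ^ (N + 1) * (a + b) := pow_succ _ _
      rw [h2, h4]
      linarith

lemma m2b_step_x {q t a : ℝ} {m : ℕ} (ih : ∀ g x y, cf q m g x y ≤
      a ^ (x + y) / ((x.factorial : ℝ) * (y.factorial : ℝ))) (ht0 : 0 ≤ t) (g x y : ℕ) :
    t * (match x with | 0 => (0 : ℝ) | x' + 1 => cf q m g x' y) ≤
      t * (x : ℝ) * a ^ (x + y - 1) / ((x.factorial : ℝ) * (y.factorial : ℝ)) := by
  cases x with
  | zero => simp
  | succ x' =>
    have h2 := ih g x' y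
    have h3 : ((x' + 1).factorial : ℝ) = ((x' : ℝ) + 1) * (x'.factorial : ℝ) := by
      rw [Nat.factorial_succ]; push_cast; ring
    have h4 : x' + 1 + y - 1 = x' + y := by omega
    rw [h4, h3]
    have hxf' : (0 : ℝ) < (x'.factorial : ℝ) := by exact_mod_cast Nat.factorial_pos x'
    have hyf : (0 : ℝ) < (y.factorial : ℝ) := by exact_mod_cast Nat.factorial_pos y
    have h5 : t * ((x' + 1 : ℕ) : ℝ) * a ^ (x' + y) /
          (((x' : ℝ) + 1) * (x'.factorial : ℝ) * (y.factorial : ℝ)) =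
        t * (a ^ (x' + y) / ((x'.factorial : ℝ) * (y.factorial : ℝ))) := by
      push_cast
      field_simp
    rw [h5]
    exact mul_le_mul_of_nonneg_left h2 ht0

lemma m2b_step_y {q t a : ℝ} {m : ℕ} (ih : ∀ g x y, cf q m g x y ≤
      a ^ (x + y) / ((x.factorial : ℝ) * (y.factorial : ℝ))) (ht0 : 0 ≤ t) (g x y : ℕ) :
    t * (match y with | 0 => (0 : ℝ) | y' + 1 => cf q m g x y') ≤
      t * (y : ℝ) * a ^ (x + y - 1) / ((x.factorial : ℝ) * (y.factorial : ℝ)) := by
  cases y with
  | zero => simp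
  | succ y' =>
    have h2 := ih g x y'
    have h3 : ((y' + 1).factorial : ℝ) = ((y' : ℝ) + 1) * (y'.factorial : ℝ) := by
      rw [Nat.factorial_succ]; push_cast; ring
    have h4 : x + (y' + 1) - 1 = x + y' := by omega
    rw [h4, h3]
    have hyf' : (0 : ℝ) < (y'.factorial : ℝ) := by exact_mod_cast Nat.factorial_pos y'
    have hxf : (0 : ℝ) < (x.factorial : ℝ) := by exact_mod_cast Nat.factorial_pos x
    have h5 : t * ((y' + 1 : ℕ) : ℝ) * a ^ (x + y') /
          ((x.factorial : ℝ) * (((y' : ℝ) + 1) * (y'.factorial : ℝ))) =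
        t * (a ^ (x + y') / ((x.factorial : ℝ) * (y'.factorial : ℝ))) := by
      push_cast
      field_simp
    rw [h5]
    exact mul_le_mul_of_nonneg_left h2 ht0

lemma m2b_step_g {q a : ℝ} {m : ℕ} (ih : ∀ g x y, cf q m g x y ≤
      a ^ (x + y) / ((x.factorial : ℝ) * (y.factorial : ℝ))) (ha : 0 ≤ a) (g x y : ℕ) :
    (match g with | 0 => (0 : ℝ) | g' + 1 => cf q m g' x y) ≤
      a ^ (x + y) / ((x.factorial : ℝ) * (y.factorial : ℝ)) := by
  cases g with
  | zero =>
    show (0 : ℝ) ≤ _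
    positivity
  | succ g' => exact ih _ _ _

lemma m2b_step_g0 {q : ℝ} (h0 : 0 ≤ q) (h1 : q ≤ 1) {m : ℕ} (g x y : ℕ) :
    0 ≤ (match g with | 0 => (0 : ℝ) | g' + 1 => cf q m g' x y) := by
  cases g with
  | zero => exact le_refl _
  | succ g' => exact cf_nonneg h0 h1 _ _ _ _

lemma m2b_alg {q T1 T2 T3 A1 A2 A3 R : ℝ} (h0 : 0 ≤ q) (hT1 : 0 ≤ T1) (h1 : T1 ≤ A1)
    (h2 : q / 2 * T2 ≤ A2) (h3 : q / 2 * T3 ≤ A3) (h : A1 + A2 + A3 ≤ R) :
    (1 - q) * T1 + q / 2 * T2 + q / 2 * T3 ≤ R := by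
  have h4 : 0 ≤ q * T1 := mul_nonneg h0 hT1
  have h5 : (1 - q) * T1 = T1 - q * T1 := by ring
  rw [h5]
  linarith

lemma cf_le {q : ℝ} (h0 : 0 ≤ q) (h1 : q ≤ 1) (m g x y : ℕ) :
    cf q m g x y ≤ ((m : ℝ) * (q / 2)) ^ (x + y) / ((x.factorial : ℝ) * (y.factorial : ℝ)) := by
  induction m generalizing g x y with
  | zero =>
    unfold cf
    split_ifs with h
    · obtain ⟨rfl, rfl, rfl⟩ := h
      simp
    · positivity
  | succ m ih =>
    unfold cf
    have ht0 : 0 ≤ q / 2 := by positivity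
    have ha0 : 0 ≤ (m : ℝ) * (q / 2) := by positivity
    have e1 := m2b_step_g ih ha0 g x y
    have e10 := m2b_step_g0 h0 h1 (m := m) g x y
    have e2 := m2b_step_x ih ht0 g x y
    have e3 := m2b_step_y ih ht0 g x y
    have hb := m2b_pow_bound ha0 ht0 (x + y)
    have hcast : (((m + 1 : ℕ) : ℝ) * (q / 2)) = (m : ℝ) * (q / 2) + q / 2 := by
      push_cast
      ring
    rw [hcast]
    have hxf : (0 : ℝ) < (x.factorial : ℝ) := by exact_mod_cast Nat.factorial_pos x
    have hyf : (0 : ℝ) < (y.factorial : ℝ) := by exact_mod_cast Nat.factorial_pos y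
    have hD0 : 0 < (x.factorial : ℝ) * (y.factorial : ℝ) := mul_pos hxf hyf
    have h7 : ((m : ℝ) * (q / 2)) ^ (x + y) / ((x.factorial : ℝ) * (y.factorial : ℝ)) +
        (q / 2) * (x : ℝ) * ((m : ℝ) * (q / 2)) ^ (x + y - 1) /
          ((x.factorial : ℝ) * (y.factorial : ℝ)) +
        (q / 2) * (y : ℝ) * ((m : ℝ) * (q / 2)) ^ (x + y - 1) /
          ((x.factorial : ℝ) * (y.factorial : ℝ)) ≤
        ((m : ℝ) * (q / 2) + q / 2) ^ (x + y) / ((x.factorial : ℝ) * (y.factorial : ℝ)) := by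
      rw [← add_div, ← add_div]
      apply div_le_div_of_nonneg_right _ hD0.le
      have hNc : ((x + y : ℕ) : ℝ) = (x : ℝ) + (y : ℝ) := by push_cast; ring
      rw [hNc] at hb
      nlinarith
    exact m2b_alg h0 e10 e1 e2 e3 h7

/-- Enlarging the ranges of a sum with coefficients `cf` changes nothing. -/
lemma cf_sum_range (q : ℝ) {m Rg Rx Ry : ℕ} (hg : m < Rg) (hx : m < Rx) (hy : m < Ry)
    (F : ℕ → ℕ → ℕ → ℝ) :
    ∑ g ∈ range Rg, ∑ x ∈ range Rx, ∑ y ∈ range Ry, cf q m g x y * F g x y =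
      ∑ g ∈ range (m + 1), ∑ x ∈ range (m + 1), ∑ y ∈ range (m + 1), cf q m g x y * F g x y := by
  have key : ∀ (R : ℕ) (h : ℕ → ℝ), m < R → (∀ a, m < a → h a = 0) →
      ∑ a ∈ range R, h a = ∑ a ∈ range (m + 1), h a := by
    intro R h hR h0
    symm
    apply Finset.sum_subset
    · intro a ha
      rw [Finset.mem_range] at ha ⊢
      omega
    · intro a _ ha
      rw [Finset.mem_range] at ha
      exact h0 a (by omega)
  rw [key Rg _ hg]
  · apply Finset.sum_congr rfl
    intro g _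
    rw [key Rx _ hx]
    · apply Finset.sum_congr rfl
      intro x _
      rw [key Ry _ hy]
      intro y hy'
      rw [cf_eq_zero q (by omega), zero_mul]
    · intro x hx'
      apply Finset.sum_eq_zero
      intro y _
      rw [cf_eq_zero q (by omega), zero_mul]
  · intro g hg'
    apply Finset.sum_eq_zero
    intro x _
    apply Finset.sum_eq_zero
    intro y _
    rw [cf_eq_zero q (by omega), zero_mul]

lemma cf_succ (q : ℝ) (m g x y : ℕ) : cf q (m + 1) g x y =
    (1 - q) * (match g with | 0 => 0 | g' + 1 => cf q m g' x y) +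
    (q / 2) * (match x with | 0 => 0 | x' + 1 => cf q m g x' y) +
    (q / 2) * (match y with | 0 => 0 | y' + 1 => cf q m g x y') := rfl

/-- One step of the recursion on the level of sums. -/
lemma cf_sum_succ (q : ℝ) (m : ℕ) (F : ℕ → ℕ → ℕ → ℝ) :
    ∑ g ∈ range (m + 1 + 1), ∑ x ∈ range (m + 1 + 1), ∑ y ∈ range (m + 1 + 1),
        cf q (m + 1) g x y * F g x y =
      (1 - q) * ∑ g ∈ range (m + 1), ∑ x ∈ range (m + 1), ∑ y ∈ range (m + 1),
          cf q m g x y * F (g + 1) x y +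
      (q / 2) * ∑ g ∈ range (m + 1), ∑ x ∈ range (m + 1), ∑ y ∈ range (m + 1),
          cf q m g x y * F g (x + 1) y +
      (q / 2) * ∑ g ∈ range (m + 1), ∑ x ∈ range (m + 1), ∑ y ∈ range (m + 1),
          cf q m g x y * F g x (y + 1) := by
  -- split the coefficient
  have h1 : ∑ g ∈ range (m + 1 + 1), ∑ x ∈ range (m + 1 + 1), ∑ y ∈ range (m + 1 + 1),
        cf q (m + 1) g x y * F g x y =
      (1 - q) * ∑ g ∈ range (m + 1 + 1), ∑ x ∈ range (m + 1 + 1), ∑ y ∈ range (m + 1 + 1),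
          (match g with | 0 => (0 : ℝ) | g' + 1 => cf q m g' x y) * F g x y +
      (q / 2) * ∑ g ∈ range (m + 1 + 1), ∑ x ∈ range (m + 1 + 1), ∑ y ∈ range (m + 1 + 1),
          (match x with | 0 => (0 : ℝ) | x' + 1 => cf q m g x' y) * F g x y +
      (q / 2) * ∑ g ∈ range (m + 1 + 1), ∑ x ∈ range (m + 1 + 1), ∑ y ∈ range (m + 1 + 1),
          (match y with | 0 => (0 : ℝ) | y' + 1 => cf q m g x y') * F g x y := by
    simp only [Finset.mul_sum, ← Finset.sum_add_distrib]
    apply Finset.sum_congr rfl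
    intro g _
    apply Finset.sum_congr rfl
    intro x _
    apply Finset.sum_congr rfl
    intro y _
    rw [cf_succ]
    ring
  rw [h1]
  congr 1
  · congr 1
    · congr 1
      rw [Finset.sum_range_succ']
      simp only [zero_mul, Finset.sum_const_zero, add_zero]
      have := cf_sum_range q (m := m) (Rg := m + 1) (Rx := m + 1 + 1) (Ry := m + 1 + 1)
        (by omega) (by omega) (by omega) (fun g x y => F (g + 1) x y)
      exact this
    · congr 1
      have h2 : ∀ g, ∑ x ∈ range (m + 1 + 1), ∑ y ∈ range (m + 1 + 1),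
          (match x with | 0 => (0 : ℝ) | x' + 1 => cf q m g x' y) * F g x y =
          ∑ x ∈ range (m + 1), ∑ y ∈ range (m + 1 + 1), cf q m g x y * F g (x + 1) y := by
        intro g
        rw [Finset.sum_range_succ']
        simp only [zero_mul, Finset.sum_const_zero, add_zero]
      simp only [h2]
      exact cf_sum_range q (m := m) (Rg := m + 1 + 1) (Rx := m + 1) (Ry := m + 1 + 1)
        (by omega) (by omega) (by omega) (fun g x y => F g (x + 1) y)
  · congr 1
    have h3 : ∀ g x, ∑ y ∈ range (m + 1 + 1),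
        (match y with | 0 => (0 : ℝ) | y' + 1 => cf q m g x y') * F g x y =
        ∑ y ∈ range (m + 1), cf q m g x y * F g x (y + 1) := by
      intro g x
      rw [Finset.sum_range_succ']
      simp only [zero_mul, add_zero]
    simp only [h3]
    exact cf_sum_range q (m := m) (Rg := m + 1 + 1) (Rx := m + 1 + 1) (Ry := m + 1)
      (by omega) (by omega) (by omega) (fun g x y => F g x (y + 1))

/-- The trinomial decomposition of expectations. -/
theorem lexp_split (l₀ : W × Bool) (hn : j + 1 ≤ Fintype.card W) (m : ℕ)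
    (B : List (ProperClause (WW l₀.1) (j + 1)) → List (ProperClause (WW l₀.1) j) →
      List (ProperClause (WW l₀.1) j) → ℝ) :
    lexp m (fun ω : List (ProperClause W (j + 1)) =>
        B (splitL l₀ ω).1 (splitL l₀ ω).2.1 (splitL l₀ ω).2.2) =
      ∑ g ∈ range (m + 1), ∑ x ∈ range (m + 1), ∑ y ∈ range (m + 1),
        cf (((j : ℝ) + 1) / (Fintype.card W : ℝ)) m g x y *
          lexp g (fun Gs => lexp x (fun Xs => lexp y (fun Ys => B Gs Xs Ys))) := by
  induction m generalizing B with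
  | zero =>
    simp [lexp, splitL, cf]
  | succ m ih =>
    set q : ℝ := ((j : ℝ) + 1) / (Fintype.card W : ℝ) with hq
    rw [cf_sum_succ q m (fun g x y =>
      lexp g (fun Gs => lexp x (fun Xs => lexp y (fun Ys => B Gs Xs Ys))))]
    show lavg (fun C => lexp m (fun ω => B (splitL l₀ (C :: ω)).1 (splitL l₀ (C :: ω)).2.1
      (splitL l₀ (C :: ω)).2.2)) = _
    rw [lavg_clause l₀ hn]
    have hG : ∀ D : ProperClause (WW l₀.1) (j + 1),
        lexp m (fun ω => B (splitL l₀ ((clEquiv l₀ j).symm (Sum.inl D) :: ω)).1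
          (splitL l₀ ((clEquiv l₀ j).symm (Sum.inl D) :: ω)).2.1
          (splitL l₀ ((clEquiv l₀ j).symm (Sum.inl D) :: ω)).2.2) =
        ∑ g ∈ range (m + 1), ∑ x ∈ range (m + 1), ∑ y ∈ range (m + 1), cf q m g x y *
          lexp g (fun Gs => lexp x (fun Xs => lexp y (fun Ys => B (D :: Gs) Xs Ys))) := by
      intro D
      rw [← ih (fun Gs Xs Ys => B (D :: Gs) Xs Ys)]
      congr 1
      funext ω
      simp only [splitL, Equiv.apply_symm_apply]
    have hX : ∀ D : ProperClause (WW l₀.1) j,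
        lexp m (fun ω => B (splitL l₀ ((clEquiv l₀ j).symm (Sum.inr (Sum.inl D)) :: ω)).1
          (splitL l₀ ((clEquiv l₀ j).symm (Sum.inr (Sum.inl D)) :: ω)).2.1
          (splitL l₀ ((clEquiv l₀ j).symm (Sum.inr (Sum.inl D)) :: ω)).2.2) =
        ∑ g ∈ range (m + 1), ∑ x ∈ range (m + 1), ∑ y ∈ range (m + 1), cf q m g x y *
          lexp g (fun Gs => lexp x (fun Xs => lexp y (fun Ys => B Gs (D :: Xs) Ys))) := by
      intro D
      rw [← ih (fun Gs Xs Ys => B Gs (D :: Xs) Ys)]
      congr 1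
      funext ω
      simp only [splitL, Equiv.apply_symm_apply]
    have hY : ∀ D : ProperClause (WW l₀.1) j,
        lexp m (fun ω => B (splitL l₀ ((clEquiv l₀ j).symm (Sum.inr (Sum.inr D)) :: ω)).1
          (splitL l₀ ((clEquiv l₀ j).symm (Sum.inr (Sum.inr D)) :: ω)).2.1
          (splitL l₀ ((clEquiv l₀ j).symm (Sum.inr (Sum.inr D)) :: ω)).2.2) =
        ∑ g ∈ range (m + 1), ∑ x ∈ range (m + 1), ∑ y ∈ range (m + 1), cf q m g x y *
          lexp g (fun Gs => lexp x (fun Xs => lexp y (fun Ys => B Gs Xs (D :: Ys)))) := by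
      intro D
      rw [← ih (fun Gs Xs Ys => B Gs Xs (D :: Ys))]
      congr 1
      funext ω
      simp only [splitL, Equiv.apply_symm_apply]
    simp only [hG, hX, hY]
    -- pull the averages inside the sums
    have hsum : ∀ {Z : Type} [Fintype Z] (c : ℕ → ℕ → ℕ → ℝ) (F : Z → ℕ → ℕ → ℕ → ℝ),
        lavg (fun D => ∑ g ∈ range (m + 1), ∑ x ∈ range (m + 1), ∑ y ∈ range (m + 1),
            c g x y * F D g x y) =
          ∑ g ∈ range (m + 1), ∑ x ∈ range (m + 1), ∑ y ∈ range (m + 1),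
            c g x y * lavg (fun D => F D g x y) := by
      intro Z _ c F
      rw [lavg_sum]
      apply Finset.sum_congr rfl
      intro g _
      rw [lavg_sum]
      apply Finset.sum_congr rfl
      intro x _
      rw [lavg_sum]
      apply Finset.sum_congr rfl
      intro y _
      rw [lavg_mul_left]
    rw [hsum, hsum, hsum]
    have hG' : ∀ g x y, lavg (fun D : ProperClause (WW l₀.1) (j + 1) =>
        lexp g (fun Gs => lexp x (fun Xs => lexp y (fun Ys => B (D :: Gs) Xs Ys)))) =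
        lexp (g + 1) (fun Gs => lexp x (fun Xs => lexp y (fun Ys => B Gs Xs Ys))) := by
      intro g x y
      rfl
    have hX' : ∀ g x y, lavg (fun D : ProperClause (WW l₀.1) j =>
        lexp g (fun Gs => lexp x (fun Xs => lexp y (fun Ys => B Gs (D :: Xs) Ys)))) =
        lexp g (fun Gs => lexp (x + 1) (fun Xs => lexp y (fun Ys => B Gs Xs Ys))) := by
      intro g x y
      rw [lavg_lexp_comm]
      rfl
    have hY' : ∀ g x y, lavg (fun D : ProperClause (WW l₀.1) j =>
        lexp g (fun Gs => lexp x (fun Xs => lexp y (fun Ys => B Gs Xs (D :: Ys))))) =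
        lexp g (fun Gs => lexp x (fun Xs => lexp (y + 1) (fun Ys => B Gs Xs Ys))) := by
      intro g x y
      rw [lavg_lexp_comm]
      congr 1
      funext Gs
      rw [lavg_lexp_comm]
      rfl
    simp only [hG', hX', hY']
    rfl

/-- The set is a cylinder in coordinate `v`. -/
def CylAt (v : V) (S : Finset (V → Bool)) : Prop :=
  ∀ σ, σ ∈ S → Function.update σ v (!σ v) ∈ S

lemma splitL_length (l₀ : W × Bool) (ω : List (ProperClause W (j + 1))) :
    (splitL l₀ ω).1.length + (splitL l₀ ω).2.1.length + (splitL l₀ ω).2.2.length = ω.length := by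
  induction ω with
  | nil => rfl
  | cons C ω ih =>
    simp only [splitL, List.length_cons]
    cases h : clEquiv l₀ j C with
    | inl D => simp only [List.length_cons]; omega
    | inr D =>
      cases D with
      | inl D => simp only [List.length_cons]; omega
      | inr D => simp only [List.length_cons]; omega

lemma m2c_mem_solL {k : ℕ} (e : W → V) (S : Finset (V → Bool)) (l : List (ProperClause W k))
    (σ : V → Bool) : σ ∈ solL e S l ↔ σ ∈ S ∧ ∀ C ∈ l, σ ∈ satOf e C := by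
  induction l generalizing S with
  | nil => simp [solL]
  | cons C l ih =>
    show σ ∈ solL e (S ∩ satOf e C) l ↔ _
    rw [ih, Finset.mem_inter]
    simp only [List.mem_cons, forall_eq_or_imp]
    tauto

/-- Clauses of `W'` do not see the coordinate `e w₀`. -/
lemma m2c_sat_update {k : ℕ} {e : W → V} (he : Function.Injective e) (w₀ : W)
    (D : ProperClause (WW w₀) k) (σ : V → Bool) (b : Bool) :
    Function.update σ (e w₀) b ∈ satOf (eW e w₀) D ↔ σ ∈ satOf (eW e w₀) D := by
  rw [mem_satOf, mem_satOf]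
  have key : ∀ l : WW w₀ × Bool, Function.update σ (e w₀) b (eW e w₀ l.1) = σ (eW e w₀ l.1) := by
    intro l
    apply Function.update_of_ne
    intro h
    exact l.1.2 (he h)
  simp only [key]

lemma m2c_cyl_inter {k : ℕ} {e : W → V} (he : Function.Injective e) (w₀ : W)
    {S : Finset (V → Bool)} (hS : CylAt (e w₀) S) (D : ProperClause (WW w₀) k) :
    CylAt (e w₀) (S ∩ satOf (eW e w₀) D) := by
  intro σ hσ
  rw [Finset.mem_inter] at hσ ⊢
  exact ⟨hS σ hσ.1, (m2c_sat_update he w₀ D σ _).2 hσ.2⟩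

lemma m2c_cyl_solL {k : ℕ} {e : W → V} (he : Function.Injective e) (w₀ : W)
    {S : Finset (V → Bool)} (hS : CylAt (e w₀) S) (l : List (ProperClause (WW w₀) k)) :
    CylAt (e w₀) (solL (eW e w₀) S l) := by
  induction l generalizing S with
  | nil => exact hS
  | cons D l ih => exact ih (m2c_cyl_inter he w₀ hS D)

lemma m2c_card_WW (w₀ : W) : Fintype.card (WW w₀) = Fintype.card W - 1 := by
  simp [Fintype.card_subtype_compl]

/-- The key step: transfer of the frozen density. -/
lemma m2c_zz_step {e : W → V} (he : Function.Injective e) (hn2 : 2 ≤ Fintype.card W)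
    (l₀ : W × Bool) {S R : Finset (V → Bool)} (hcyl : CylAt (e l₀.1) R)
    (hinv : ∀ σ ∈ R, σ (e l₀.1) ≠ l₀.2 → σ ∈ S) (hR : R.Nonempty) :
    zz e S ≤ zz (eW e l₀.1) R + 1 / (2 * (Fintype.card W : ℝ)) := by
  classical
  have hn : (2 : ℝ) ≤ (Fintype.card W : ℝ) := by exact_mod_cast hn2
  by_cases hS : S.Nonempty
  · -- frozen literals
    have hsub : frozen e S ⊆
        (frozen (eW e l₀.1) R).image (fun l : WW l₀.1 × Bool => (l.1.1, l.2)) ∪
          (frozen e S).filter (fun l => l.1 = l₀.1) := by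
      intro l hl
      rw [Finset.mem_union]
      by_cases h : l.1 = l₀.1
      · right
        exact Finset.mem_filter.2 ⟨hl, h⟩
      · left
        rw [Finset.mem_image]
        refine ⟨(⟨l.1, h⟩, l.2), ?_, rfl⟩
        rw [mem_frozen]
        intro τ hτ
        by_cases hτ0 : τ (e l₀.1) ≠ l₀.2
        · exact (mem_frozen e S l).1 hl τ (hinv τ hτ hτ0)
        · rw [ne_eq, not_not] at hτ0
          have hflip := hcyl τ hτ
          have hne : Function.update τ (e l₀.1) (!τ (e l₀.1)) (e l₀.1) ≠ l₀.2 := by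
            rw [Function.update_self, hτ0]
            cases l₀.2 <;> simp
          have h1 := (mem_frozen e S l).1 hl _ (hinv _ hflip hne)
          have h2 : Function.update τ (e l₀.1) (!τ (e l₀.1)) (e l.1) = τ (e l.1) :=
            Function.update_of_ne (fun hh => h (he hh)) _ _
          rw [h2] at h1
          exact h1
    have hB : ((frozen e S).filter (fun l => l.1 = l₀.1)).card ≤ 1 := by
      rw [Finset.card_le_one]
      intro a ha b hb
      rw [Finset.mem_filter] at ha hb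
      exact frozen_proper e hS ha.1 hb.1 (ha.2.trans hb.2.symm)
    have hcard : (frozen e S).card ≤ (frozen (eW e l₀.1) R).card + 1 := by
      calc (frozen e S).card ≤ _ := Finset.card_le_card hsub
        _ ≤ _ := Finset.card_union_le _ _
        _ ≤ (frozen (eW e l₀.1) R).card + 1 := by
            apply Nat.add_le_add _ hB
            exact Finset.card_image_le
    unfold zz
    rw [if_pos hS, if_pos hR]
    have hcardW : (Fintype.card (WW l₀.1) : ℝ) = (Fintype.card W : ℝ) - 1 := by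
      rw [m2c_card_WW]
      rw [Nat.cast_sub (by omega)]
      simp
    rw [hcardW]
    have hcardR : ((frozen e S).card : ℝ) ≤ ((frozen (eW e l₀.1) R).card : ℝ) + 1 := by
      exact_mod_cast hcard
    set f' : ℝ := ((frozen (eW e l₀.1) R).card : ℝ) with hf'
    have hf'0 : 0 ≤ f' := by positivity
    have h3 : f' / (2 * (Fintype.card W : ℝ)) ≤ f' / (2 * ((Fintype.card W : ℝ) - 1)) := by
      apply div_le_div_of_nonneg_left hf'0 (by linarith) (by linarith)
    have h4 : ((frozen e S).card : ℝ) / (2 * (Fintype.card W : ℝ)) ≤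
        (f' + 1) / (2 * (Fintype.card W : ℝ)) := by
      apply div_le_div_of_nonneg_right hcardR (by linarith)
    have h5 : (f' + 1) / (2 * (Fintype.card W : ℝ)) =
        f' / (2 * (Fintype.card W : ℝ)) + 1 / (2 * (Fintype.card W : ℝ)) := by ring
    linarith
  · have : zz e S = 0 := by simp [zz, hS]
    rw [this]
    have := zz_nonneg (eW e l₀.1) R
    have h2 : 0 ≤ 1 / (2 * (Fintype.card W : ℝ)) := by positivity
    linarith

/-- Satisfaction of all clauses of `ω`, in terms of the residuals, off the literal. -/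
lemma m2c_sat_off (e : W → V) (l₀ : W × Bool) (ω : List (ProperClause W (j + 1))) (σ : V → Bool)
    (hσ : σ (e l₀.1) ≠ l₀.2) :
    (∀ C ∈ ω, σ ∈ satOf e C) ↔
      (∀ D ∈ (splitL l₀ ω).1, σ ∈ satOf (eW e l₀.1) D) ∧
        (∀ D ∈ (splitL l₀ ω).2.2, σ ∈ satOf (eW e l₀.1) D) := by
  induction ω with
  | nil => simp [splitL]
  | cons C ω ih =>
    simp only [List.mem_cons, forall_eq_or_imp]
    rw [ih]
    rcases hC : clEquiv l₀ j C with D | D | D
    · have hCD : C = (clEquiv l₀ j).symm (Sum.inl D) := by rw [← hC]; simp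
      simp only [splitL, hC, List.mem_cons, forall_eq_or_imp]
      rw [hCD, sat_G]
      tauto
    · have hCD : C = (clEquiv l₀ j).symm (Sum.inr (Sum.inl D)) := by rw [← hC]; simp
      simp only [splitL, hC]
      rw [hCD, sat_X]
      tauto
    · have hCD : C = (clEquiv l₀ j).symm (Sum.inr (Sum.inr D)) := by rw [← hC]; simp
      simp only [splitL, hC, List.mem_cons, forall_eq_or_imp]
      rw [hCD, sat_Y]
      tauto

/-- Satisfaction of all clauses of `ω`, on the literal. -/
lemma m2c_sat_on (e : W → V) (l₀ : W × Bool) (ω : List (ProperClause W (j + 1))) (σ : V → Bool)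
    (hσ : σ (e l₀.1) = l₀.2) :
    (∀ C ∈ ω, σ ∈ satOf e C) ↔
      (∀ D ∈ (splitL l₀ ω).1, σ ∈ satOf (eW e l₀.1) D) ∧
        (∀ D ∈ (splitL l₀ ω).2.1, σ ∈ satOf (eW e l₀.1) D) := by
  induction ω with
  | nil => simp [splitL]
  | cons C ω ih =>
    simp only [List.mem_cons, forall_eq_or_imp]
    rw [ih]
    rcases hC : clEquiv l₀ j C with D | D | D
    · have hCD : C = (clEquiv l₀ j).symm (Sum.inl D) := by rw [← hC]; simp
      simp only [splitL, hC, List.mem_cons, forall_eq_or_imp]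
      rw [hCD, sat_G]
      tauto
    · have hCD : C = (clEquiv l₀ j).symm (Sum.inr (Sum.inl D)) := by rw [← hC]; simp
      simp only [splitL, hC, List.mem_cons, forall_eq_or_imp]
      rw [hCD, sat_X]
      simp only [hσ, ne_eq, not_true_eq_false, false_or]
      tauto
    · have hCD : C = (clEquiv l₀ j).symm (Sum.inr (Sum.inr D)) := by rw [← hC]; simp
      simp only [splitL, hC]
      rw [hCD, sat_Y]
      tauto

/-- The accumulated density along the path. -/
lemma m2c_psi_path {e : W → V} (he : Function.Injective e) (hn2 : 2 ≤ Fintype.card W)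
    (l₀ : W × Bool) (ω : List (ProperClause W (j + 1))) {S R : Finset (V → Bool)}
    (hcyl : CylAt (e l₀.1) R) (hinv : ∀ σ ∈ R, σ (e l₀.1) ≠ l₀.2 → σ ∈ S)
    (hne : (solL (eW e l₀.1) (solL (eW e l₀.1) R (splitL l₀ ω).2.2) (splitL l₀ ω).1).Nonempty) :
    psi e S ω ≤ psi (eW e l₀.1) (solL (eW e l₀.1) R (splitL l₀ ω).2.2) (splitL l₀ ω).1 +
      (((splitL l₀ ω).2.1.length : ℝ) + (splitL l₀ ω).2.2.length) / 2 +
        (ω.length : ℝ) / (2 * (Fintype.card W : ℝ)) := by
  induction ω generalizing S R with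
  | nil =>
    simp [splitL, psi]
  | cons C ω ih =>
    have hW : (0 : ℝ) < 2 * (Fintype.card W : ℝ) := by
      have : (2 : ℝ) ≤ (Fintype.card W : ℝ) := by exact_mod_cast hn2
      linarith
    have hstep : ((ω.length + 1 : ℕ) : ℝ) / (2 * (Fintype.card W : ℝ)) =
        (ω.length : ℝ) / (2 * (Fintype.card W : ℝ)) + 1 / (2 * (Fintype.card W : ℝ)) := by
      push_cast; ring
    have h1n : (0 : ℝ) ≤ 1 / (2 * (Fintype.card W : ℝ)) := by positivity
    rcases hC : clEquiv l₀ j C with D | D | D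
    · have hCD : C = (clEquiv l₀ j).symm (Sum.inl D) := by rw [← hC]; simp
      simp only [splitL, hC, psi, List.length_cons] at hne ⊢
      have hsolL : solL (eW e l₀.1) R (splitL l₀ ω).2.2 ∩ satOf (eW e l₀.1) D =
          solL (eW e l₀.1) (R ∩ satOf (eW e l₀.1) D) (splitL l₀ ω).2.2 := by
        rw [solL_inter]
      have hne0 : (solL (eW e l₀.1) R (splitL l₀ ω).2.2 ∩ satOf (eW e l₀.1) D).Nonempty := by
        obtain ⟨σ, hσ⟩ := hne
        exact ⟨σ, solL_subset _ _ _ (by simpa [solL] using hσ)⟩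
      have hne1 : (solL (eW e l₀.1) R (splitL l₀ ω).2.2).Nonempty :=
        hne0.mono Finset.inter_subset_left
      have hne2 : R.Nonempty := hne1.mono (solL_subset _ _ _)
      have hIH := ih (S := S ∩ satOf e C) (R := R ∩ satOf (eW e l₀.1) D)
        (m2c_cyl_inter he l₀.1 hcyl D)
        (by
          intro σ hσ hne'
          rw [Finset.mem_inter] at hσ ⊢
          refine ⟨hinv σ hσ.1 hne', ?_⟩
          rw [hCD, sat_G]
          exact hσ.2)
        (by
          rw [← hsolL]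
          simpa [solL] using hne)
      have hz := m2c_zz_step he hn2 l₀ hcyl hinv hne2
      have hz2 := zz_mono (eW e l₀.1) (solL_subset (eW e l₀.1) R (splitL l₀ ω).2.2) hne1
      rw [hsolL.symm] at hIH
      show zz e S + psi e (S ∩ satOf e C) ω ≤ zz (eW e l₀.1) (solL (eW e l₀.1) R (splitL l₀ ω).2.2) +
        psi (eW e l₀.1) (solL (eW e l₀.1) R (splitL l₀ ω).2.2 ∩ satOf (eW e l₀.1) D) (splitL l₀ ω).1 +
        (((splitL l₀ ω).2.1.length : ℝ) + (splitL l₀ ω).2.2.length) / 2 +
          ((ω.length + 1 : ℕ) : ℝ) / (2 * (Fintype.card W : ℝ))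
      rw [hstep]
      linarith
    · have hCD : C = (clEquiv l₀ j).symm (Sum.inr (Sum.inl D)) := by rw [← hC]; simp
      simp only [splitL, hC, psi, List.length_cons] at hne ⊢
      have hIH := ih (S := S ∩ satOf e C) (R := R) hcyl
        (by
          intro σ hσ hne'
          rw [Finset.mem_inter]
          refine ⟨hinv σ hσ hne', ?_⟩
          rw [hCD, sat_X]
          exact Or.inl hne')
        hne
      have hz := zz_le_half e S
      show zz e S + psi e (S ∩ satOf e C) ω ≤ _ + _ + _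
      push_cast
      rw [show ((ω.length : ℝ) + 1) / (2 * (Fintype.card W : ℝ)) =
        (ω.length : ℝ) / (2 * (Fintype.card W : ℝ)) + 1 / (2 * (Fintype.card W : ℝ)) by ring]
      linarith
    · have hCD : C = (clEquiv l₀ j).symm (Sum.inr (Sum.inr D)) := by rw [← hC]; simp
      simp only [splitL, hC, psi, List.length_cons] at hne ⊢
      have hIH := ih (S := S ∩ satOf e C) (R := R ∩ satOf (eW e l₀.1) D)
        (m2c_cyl_inter he l₀.1 hcyl D)
        (by
          intro σ hσ hne'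
          rw [Finset.mem_inter] at hσ ⊢
          refine ⟨hinv σ hσ.1 hne', ?_⟩
          rw [hCD, sat_Y]
          exact Or.inr hσ.2)
        (by simpa [solL] using hne)
      have hz := zz_le_half e S
      show zz e S + psi e (S ∩ satOf e C) ω ≤ psi (eW e l₀.1) (solL (eW e l₀.1) (R ∩ satOf (eW e l₀.1) D) (splitL l₀ ω).2.2) (splitL l₀ ω).1 + _ + _
      push_cast
      rw [show ((ω.length : ℝ) + 1) / (2 * (Fintype.card W : ℝ)) =
        (ω.length : ℝ) / (2 * (Fintype.card W : ℝ)) + 1 / (2 * (Fintype.card W : ℝ)) by ring]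
      linarith

/-- Pathwise facts on the event that `l₀` is false-frozen at the end of the path.
`R = solL e' (solL e' S₀ Ys) Gs`. -/
theorem path_exchange {e : W → V} (he : Function.Injective e) (hn2 : 2 ≤ Fintype.card W)
    (l₀ : W × Bool) {S₀ : Finset (V → Bool)} (hcyl : CylAt (e l₀.1) S₀)
    (ω : List (ProperClause W (j + 1)))
    (hS : (solL e S₀ ω).Nonempty) (hl : l₀ ∈ frozen e (solL e S₀ ω)) :
    let Gs := (splitL l₀ ω).1
    let Xs := (splitL l₀ ω).2.1
    let Ys := (splitL l₀ ω).2.2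
    let e' := eW e l₀.1
    let RY := solL e' S₀ Ys
    let R := solL e' RY Gs
    R.Nonempty ∧ solL e' R Xs = ∅ ∧
      psi e S₀ ω ≤ psi e' RY Gs + ((Xs.length : ℝ) + Ys.length) / 2 +
        (ω.length : ℝ) / (2 * (Fintype.card W : ℝ)) ∧
      zz e (solL e S₀ ω) ≤ zz e' R + 1 / (2 * (Fintype.card W : ℝ)) := by
  intro Gs Xs Ys e' RY R
  have hRmem : ∀ σ : V → Bool, σ ∈ R ↔ σ ∈ S₀ ∧ (∀ D ∈ Ys, σ ∈ satOf e' D) ∧ (∀ D ∈ Gs, σ ∈ satOf e' D) := by
    intro σ
    simp only [R, RY, m2c_mem_solL]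
    tauto
  have hRne : R.Nonempty := by
    obtain ⟨σ, hσ⟩ := hS
    have hσ0 : σ (e l₀.1) ≠ l₀.2 := (mem_frozen e _ l₀).1 hl σ hσ
    rw [m2c_mem_solL] at hσ
    have := (m2c_sat_off e l₀ ω σ hσ0).1 hσ.2
    exact ⟨σ, (hRmem σ).2 ⟨hσ.1, this.2, this.1⟩⟩
  have hcylRY : CylAt (e l₀.1) RY := m2c_cyl_solL he l₀.1 hcyl Ys
  have hcylR : CylAt (e l₀.1) R := m2c_cyl_solL he l₀.1 hcylRY Gs
  refine ⟨hRne, ?_, ?_, ?_⟩
  · apply Finset.eq_empty_of_forall_notMem
    intro τ hτ
    rw [m2c_mem_solL] at hτ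
    obtain ⟨hτR, hτX⟩ := hτ
    obtain ⟨hτ0, hτY, hτG⟩ := (hRmem τ).1 hτR
    -- move to the literal side
    have hτ' : Function.update τ (e l₀.1) l₀.2 ∈ S₀ := by
      by_cases h : τ (e l₀.1) = l₀.2
      · rw [← h, Function.update_eq_self]
        exact hτ0
      · have h' : (!τ (e l₀.1)) = l₀.2 := by
          cases hh : τ (e l₀.1) <;> cases hb : l₀.2 <;> simp_all
        rw [← h']
        exact hcyl τ hτ0
    have hval : Function.update τ (e l₀.1) l₀.2 (e l₀.1) = l₀.2 := Function.update_self _ _ _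
    have hall := (m2c_sat_on e l₀ ω _ hval).2
      ⟨fun D hD => (m2c_sat_update he l₀.1 D τ _).2 (hτG D hD),
        fun D hD => (m2c_sat_update he l₀.1 D τ _).2 (hτX D hD)⟩
    have hmem : Function.update τ (e l₀.1) l₀.2 ∈ solL e S₀ ω :=
      (m2c_mem_solL e S₀ ω _).2 ⟨hτ', hall⟩
    exact (mem_frozen e _ l₀).1 hl _ hmem hval
  · exact m2c_psi_path he hn2 l₀ ω hcyl (fun σ hσ _ => hσ) hRne
  · apply m2c_zz_step he hn2 l₀ hcylR _ hRne
    intro σ hσ hne
    obtain ⟨h0, hY, hG⟩ := (hRmem σ).1 hσ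
    exact (m2c_mem_solL e S₀ ω σ).2 ⟨h0, (m2c_sat_off e l₀ ω σ hne).2 ⟨hG, hY⟩⟩

/-- The summed exchange inequality.  `w`, `ϑ`: monotone nonnegative weights on `[0,∞)`. -/
theorem exch_sum {e : W → V} (he : Function.Injective e) (hn : j + 2 ≤ Fintype.card W)
    (l₀ : W × Bool) {S₀ : Finset (V → Bool)} (hcyl : CylAt (e l₀.1) S₀)
    (w ϑ : ℝ → ℝ) (hw : MonotoneOn w (Set.Ici 0)) (hw0 : ∀ u, 0 ≤ u → 0 ≤ w u)
    (hϑ : MonotoneOn ϑ (Set.Ici 0)) (hϑ0 : ∀ u, 0 ≤ u → 0 ≤ ϑ u) (M : ℕ) :
    ∑ m ∈ range (M + 1), lexp m (fun ω : List (ProperClause W (j + 1)) =>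
        if (solL e S₀ ω).Nonempty ∧ l₀ ∈ frozen e (solL e S₀ ω) then
          w (psi e S₀ ω) * ϑ (zz e (solL e S₀ ω)) else 0) ≤
      ∑ x ∈ range (M + 1), ∑ y ∈ range (M + 1),
        (((M : ℝ) * (((j : ℝ) + 1) / (Fintype.card W : ℝ) / 2)) ^ (x + y) /
            ((x.factorial : ℝ) * (y.factorial : ℝ))) *
          lexp y (fun Ys : List (ProperClause (WW l₀.1) j) =>
            ∑ g ∈ range (M + 1), lexp g (fun Gs : List (ProperClause (WW l₀.1) (j + 1)) =>
              phi (solL (eW e l₀.1) (solL (eW e l₀.1) S₀ Ys) Gs) *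
                vv (eW e l₀.1) j x (solL (eW e l₀.1) (solL (eW e l₀.1) S₀ Ys) Gs) *
                w (psi (eW e l₀.1) (solL (eW e l₀.1) S₀ Ys) Gs + ((x : ℝ) + y) / 2 +
                    (M : ℝ) / (2 * (Fintype.card W : ℝ))) *
                ϑ (zz (eW e l₀.1) (solL (eW e l₀.1) (solL (eW e l₀.1) S₀ Ys) Gs) +
                    1 / (2 * (Fintype.card W : ℝ))))) := by
  classical
  set e' := eW e l₀.1 with he'
  have hn2 : 2 ≤ Fintype.card W := by omega
  have hnR : (0 : ℝ) < (Fintype.card W : ℝ) := by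
    have : (2 : ℝ) ≤ (Fintype.card W : ℝ) := by exact_mod_cast hn2
    linarith
  have hcardWW : j + 1 ≤ Fintype.card (WW l₀.1) := by rw [m2c_card_WW]; omega
  have hne1 : Nonempty (ProperClause (WW l₀.1) j) :=
    Fintype.card_pos_iff.1 (by exact_mod_cast card_clause_pos (W := WW l₀.1) (by omega))
  set q : ℝ := ((j : ℝ) + 1) / (Fintype.card W : ℝ) with hq
  have hq0 : 0 ≤ q := by positivity
  have hq1 : q ≤ 1 := by
    rw [hq, div_le_one hnR]
    have : ((j + 2 : ℕ) : ℝ) ≤ (Fintype.card W : ℝ) := by exact_mod_cast hn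
    push_cast at this
    linarith
  have hd0 : (0 : ℝ) ≤ (M : ℝ) / (2 * (Fintype.card W : ℝ)) := by positivity
  have hd1 : (0 : ℝ) ≤ 1 / (2 * (Fintype.card W : ℝ)) := by positivity
  -- the integrand in the split variables
  let B : List (ProperClause (WW l₀.1) (j + 1)) → List (ProperClause (WW l₀.1) j) →
      List (ProperClause (WW l₀.1) j) → ℝ := fun Gs Xs Ys =>
    phi (solL e' (solL e' S₀ Ys) Gs) * (1 - phi (solL e' (solL e' (solL e' S₀ Ys) Gs) Xs)) *
      w (psi e' (solL e' S₀ Ys) Gs + ((Xs.length : ℝ) + Ys.length) / 2 +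
        (M : ℝ) / (2 * (Fintype.card W : ℝ))) *
      ϑ (zz e' (solL e' (solL e' S₀ Ys) Gs) + 1 / (2 * (Fintype.card W : ℝ)))
  have hBnn : ∀ Gs Xs Ys, 0 ≤ B Gs Xs Ys := by
    intro Gs Xs Ys
    have h1 := phi_nonneg (solL e' (solL e' S₀ Ys) Gs)
    have h2 := phi_le_one (solL e' (solL e' (solL e' S₀ Ys) Gs) Xs)
    have h3 : 0 ≤ psi e' (solL e' S₀ Ys) Gs := psi_nonneg _ _ _
    have h4 : 0 ≤ zz e' (solL e' (solL e' S₀ Ys) Gs) := zz_nonneg _ _
    have h5 : (0 : ℝ) ≤ ((Xs.length : ℝ) + Ys.length) / 2 := by positivity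
    exact mul_nonneg (mul_nonneg (mul_nonneg h1 (by linarith)) (hw0 _ (by linarith)))
      (hϑ0 _ (by linarith))
  -- the expected values
  let E : ℕ → ℕ → ℕ → ℝ := fun g x y =>
    lexp y (fun Ys : List (ProperClause (WW l₀.1) j) =>
      lexp g (fun Gs : List (ProperClause (WW l₀.1) (j + 1)) =>
        phi (solL e' (solL e' S₀ Ys) Gs) * vv e' j x (solL e' (solL e' S₀ Ys) Gs) *
          w (psi e' (solL e' S₀ Ys) Gs + ((x : ℝ) + y) / 2 +
            (M : ℝ) / (2 * (Fintype.card W : ℝ))) *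
          ϑ (zz e' (solL e' (solL e' S₀ Ys) Gs) + 1 / (2 * (Fintype.card W : ℝ)))))
  have hE : ∀ g x y, lexp g (fun Gs => lexp x (fun Xs => lexp y (fun Ys => B Gs Xs Ys))) = E g x y := by
    intro g x y
    have h1 : lexp g (fun Gs => lexp x (fun Xs => lexp y (fun Ys => B Gs Xs Ys))) =
        lexp y (fun Ys => lexp g (fun Gs => lexp x (fun Xs => B Gs Xs Ys))) := by
      calc lexp g (fun Gs => lexp x (fun Xs => lexp y (fun Ys => B Gs Xs Ys)))
          = lexp g (fun Gs => lexp y (fun Ys => lexp x (fun Xs => B Gs Xs Ys))) := by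
            congr 1
            funext Gs
            exact lexp_comm x y (fun Xs Ys => B Gs Xs Ys)
        _ = _ := lexp_comm g y (fun Gs Ys => lexp x (fun Xs => B Gs Xs Ys))
    rw [h1]
    apply lexp_congr_len
    intro Ys hYs
    congr 1
    funext Gs
    -- the inner expectation
    set R := solL e' (solL e' S₀ Ys) Gs with hR
    have h2 : ∀ Xs : List (ProperClause (WW l₀.1) j), Xs.length = x → B Gs Xs Ys =
        (phi R * (w (psi e' (solL e' S₀ Ys) Gs + ((x : ℝ) + y) / 2 +
            (M : ℝ) / (2 * (Fintype.card W : ℝ))) *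
          ϑ (zz e' R + 1 / (2 * (Fintype.card W : ℝ))))) * (1 - phi (solL e' R Xs)) := by
      intro Xs hXs
      show phi R * (1 - phi (solL e' R Xs)) *
        w (psi e' (solL e' S₀ Ys) Gs + ((Xs.length : ℝ) + Ys.length) / 2 +
          (M : ℝ) / (2 * (Fintype.card W : ℝ))) *
        ϑ (zz e' R + 1 / (2 * (Fintype.card W : ℝ))) = _
      rw [hXs, hYs]
      ring
    rw [lexp_congr_len h2, lexp_mul_left]
    have h3 : lexp x (fun Xs : List (ProperClause (WW l₀.1) j) => 1 - phi (solL e' R Xs)) =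
        vv e' j x R := by
      rw [vv_eq_lexp]
      have h4 : (fun Xs : List (ProperClause (WW l₀.1) j) => 1 - phi (solL e' R Xs)) =
          fun Xs => (fun _ => (1 : ℝ)) Xs + (-1 : ℝ) * phi (solL e' R Xs) := by
        funext Xs
        ring
      rw [h4, lexp_add, lexp_const, lexp_mul_left]
      ring
    rw [h3]
    ring
  have hEnn : ∀ g x y, 0 ≤ E g x y := by
    intro g x y
    rw [← hE]
    exact lexp_nonneg fun _ => lexp_nonneg fun _ => lexp_nonneg fun _ => hBnn _ _ _
  -- pointwise bound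
  have hpt : ∀ m ≤ M, lexp m (fun ω : List (ProperClause W (j + 1)) =>
        if (solL e S₀ ω).Nonempty ∧ l₀ ∈ frozen e (solL e S₀ ω) then
          w (psi e S₀ ω) * ϑ (zz e (solL e S₀ ω)) else 0) ≤
      lexp m (fun ω : List (ProperClause W (j + 1)) =>
        B (splitL l₀ ω).1 (splitL l₀ ω).2.1 (splitL l₀ ω).2.2) := by
    intro m hm
    apply lexp_mono_len
    intro ω hω
    split_ifs with hev
    · obtain ⟨hS, hl⟩ := hev
      obtain ⟨h1, h2, h3, h4⟩ := path_exchange he hn2 l₀ hcyl ω hS hl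
      show _ ≤ phi (solL e' (solL e' S₀ (splitL l₀ ω).2.2) (splitL l₀ ω).1) *
        (1 - phi (solL e' (solL e' (solL e' S₀ (splitL l₀ ω).2.2) (splitL l₀ ω).1) (splitL l₀ ω).2.1)) *
        w (psi e' (solL e' S₀ (splitL l₀ ω).2.2) (splitL l₀ ω).1 +
          (((splitL l₀ ω).2.1.length : ℝ) + (splitL l₀ ω).2.2.length) / 2 +
            (M : ℝ) / (2 * (Fintype.card W : ℝ))) *
        ϑ (zz e' (solL e' (solL e' S₀ (splitL l₀ ω).2.2) (splitL l₀ ω).1) +
          1 / (2 * (Fintype.card W : ℝ)))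
      rw [phi_nonempty h1, h2, phi_empty]
      have hmm : (ω.length : ℝ) / (2 * (Fintype.card W : ℝ)) ≤
          (M : ℝ) / (2 * (Fintype.card W : ℝ)) := by
        apply div_le_div_of_nonneg_right _ (by positivity)
        rw [hω]
        exact_mod_cast hm
      have hpsi0 : 0 ≤ psi e S₀ ω := psi_nonneg _ _ _
      have hz0 : 0 ≤ zz e (solL e S₀ ω) := zz_nonneg _ _
      have hzz0 : 0 ≤ zz e' (solL e' (solL e' S₀ (splitL l₀ ω).2.2) (splitL l₀ ω).1) := zz_nonneg _ _
      have hpsi1 : 0 ≤ psi e' (solL e' S₀ (splitL l₀ ω).2.2) (splitL l₀ ω).1 := psi_nonneg _ _ _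
      have hlen : (0 : ℝ) ≤ (((splitL l₀ ω).2.1.length : ℝ) + (splitL l₀ ω).2.2.length) / 2 := by
        positivity
      have hW1 := hw (Set.mem_Ici.2 hpsi0)
        (Set.mem_Ici.2 (show 0 ≤ psi e' (solL e' S₀ (splitL l₀ ω).2.2) (splitL l₀ ω).1 +
          (((splitL l₀ ω).2.1.length : ℝ) + (splitL l₀ ω).2.2.length) / 2 +
            (M : ℝ) / (2 * (Fintype.card W : ℝ)) by linarith))
        (show psi e S₀ ω ≤ _ by linarith)
      have hW2 := hϑ (Set.mem_Ici.2 hz0)
        (Set.mem_Ici.2 (show 0 ≤ zz e' (solL e' (solL e' S₀ (splitL l₀ ω).2.2) (splitL l₀ ω).1) +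
          1 / (2 * (Fintype.card W : ℝ)) by linarith)) h4
      have hW0 := hw0 _ hpsi0
      have hT0 := hϑ0 _ hz0
      calc w (psi e S₀ ω) * ϑ (zz e (solL e S₀ ω))
          ≤ _ * _ := mul_le_mul hW1 hW2 hT0 (le_trans hW0 hW1)
        _ = _ := by ring
    · exact hBnn _ _ _
  -- combine
  have hcf : ∀ g x y, ∑ m ∈ range (M + 1), cf q m g x y ≤
      ((M : ℝ) * (q / 2)) ^ (x + y) / ((x.factorial : ℝ) * (y.factorial : ℝ)) := by
    intro g x y
    by_cases h : g + x + y ∈ range (M + 1)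
    · rw [Finset.sum_eq_single_of_mem (g + x + y) h
        (fun m _ hm => cf_eq_zero q (fun hh => hm hh.symm))]
      refine (cf_le hq0 hq1 _ g x y).trans ?_
      apply div_le_div_of_nonneg_right _ (by positivity)
      apply pow_le_pow_left₀ (by positivity)
      apply mul_le_mul_of_nonneg_right _ (by positivity)
      exact_mod_cast Nat.lt_succ_iff.1 (Finset.mem_range.1 h)
    · rw [Finset.sum_eq_zero]
      · positivity
      · intro m hm
        apply cf_eq_zero
        intro hh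
        exact h (hh ▸ hm)
  have hstep1 : ∀ m ∈ range (M + 1), lexp m (fun ω : List (ProperClause W (j + 1)) =>
        if (solL e S₀ ω).Nonempty ∧ l₀ ∈ frozen e (solL e S₀ ω) then
          w (psi e S₀ ω) * ϑ (zz e (solL e S₀ ω)) else 0) ≤
      ∑ g ∈ range (M + 1), ∑ x ∈ range (M + 1), ∑ y ∈ range (M + 1), cf q m g x y * E g x y := by
    intro m hm
    have hmM : m ≤ M := Nat.lt_succ_iff.1 (Finset.mem_range.1 hm)
    refine (hpt m hmM).trans ?_
    rw [lexp_split l₀ (by omega) m B]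
    have hsub : range (m + 1) ⊆ range (M + 1) := Finset.range_subset_range.2 (by omega)
    have hTnn : ∀ g x y, 0 ≤ cf q m g x y * E g x y := fun g x y =>
      mul_nonneg (cf_nonneg hq0 hq1 m g x y) (hEnn g x y)
    calc _ = ∑ g ∈ range (m + 1), ∑ x ∈ range (m + 1), ∑ y ∈ range (m + 1),
          cf q m g x y * E g x y := by
          apply Finset.sum_congr rfl; intro g _
          apply Finset.sum_congr rfl; intro x _
          apply Finset.sum_congr rfl; intro y _
          rw [hE]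
      _ ≤ ∑ g ∈ range (m + 1), ∑ x ∈ range (m + 1), ∑ y ∈ range (M + 1),
          cf q m g x y * E g x y := by
          apply Finset.sum_le_sum; intro g _
          apply Finset.sum_le_sum; intro x _
          exact Finset.sum_le_sum_of_subset_of_nonneg hsub (fun y _ _ => hTnn g x y)
      _ ≤ ∑ g ∈ range (m + 1), ∑ x ∈ range (M + 1), ∑ y ∈ range (M + 1),
          cf q m g x y * E g x y := by
          apply Finset.sum_le_sum; intro g _
          exact Finset.sum_le_sum_of_subset_of_nonneg hsub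
            (fun x _ _ => Finset.sum_nonneg (fun y _ => hTnn g x y))
      _ ≤ _ := Finset.sum_le_sum_of_subset_of_nonneg hsub
            (fun g _ _ => Finset.sum_nonneg (fun x _ => Finset.sum_nonneg (fun y _ => hTnn g x y)))
  calc _ ≤ ∑ m ∈ range (M + 1), ∑ g ∈ range (M + 1), ∑ x ∈ range (M + 1), ∑ y ∈ range (M + 1),
        cf q m g x y * E g x y := Finset.sum_le_sum hstep1
    _ = ∑ x ∈ range (M + 1), ∑ y ∈ range (M + 1), ∑ g ∈ range (M + 1),
        (∑ m ∈ range (M + 1), cf q m g x y) * E g x y := by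
        have h1 : ∀ g, ∑ m ∈ range (M + 1), ∑ x ∈ range (M + 1), ∑ y ∈ range (M + 1),
            cf q m g x y * E g x y = ∑ x ∈ range (M + 1), ∑ y ∈ range (M + 1),
              ∑ m ∈ range (M + 1), cf q m g x y * E g x y := by
          intro g
          rw [Finset.sum_comm]
          apply Finset.sum_congr rfl
          intro x _
          rw [Finset.sum_comm]
        rw [Finset.sum_comm]
        rw [Finset.sum_congr rfl (fun g _ => h1 g)]
        rw [Finset.sum_comm]
        apply Finset.sum_congr rfl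
        intro x _
        rw [Finset.sum_comm]
        apply Finset.sum_congr rfl
        intro y _
        apply Finset.sum_congr rfl
        intro g _
        rw [Finset.sum_mul]
    _ ≤ _ := by
        apply Finset.sum_le_sum; intro x _
        apply Finset.sum_le_sum; intro y _
        rw [lexp_sum, Finset.mul_sum]
        apply Finset.sum_le_sum; intro g _
        have := hcf g x y
        have h2 := hEnn g x y
        calc _ ≤ _ := mul_le_mul_of_nonneg_right this h2
          _ = _ := rfl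

end Exch

end Vale.Agent.Lib.P170
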