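import Mathlib
import Vale.Agent.Lib.P170.W.Exch

/-!
M3: moments of the accumulated density, by induction on the moment.
-/

set_option linter.unusedSectionVars false

open Finset

namespace Vale.Agent.Lib.P170

section Cyl

variable {W V : Type} [Fintype W] [DecidableEq W] [Fintype V] [DecidableEq V] {j : ℕ}

/-- `S` is a cylinder in all coordinates `e w`, `w ∉ U`. -/
def CylOut (e : W → V) (U : Finset W) (S : Finset (V → Bool)) : Prop :=
  ∀ w, w ∉ U → CylAt (e w) S

lemma cylOut_univ (e : W → V) (U : Finset W) : CylOut e U (univ : Finset (V → Bool)) := by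
  intro w _ σ _
  exact Finset.mem_univ _

/-- Restriction to `W'`. -/
lemma cylOut_restrict {e : W → V} {U : Finset W} {S : Finset (V → Bool)} (h : CylOut e U S)
    (w₀ : W) : CylOut (eW e w₀) (U.subtype (fun w => w ≠ w₀)) S := by
  intro w hw
  apply h w.1
  intro hU
  apply hw
  simpa using hU

lemma card_subtype_le (U : Finset W) (w₀ : W) : (U.subtype (fun w => w ≠ w₀)).card ≤ U.card := by
  rw [Finset.card_subtype]
  exact Finset.card_filter_le _ _

/-- Adding clauses enlarges the support by at most `j` per clause. -/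
lemma cylOut_solL {e : W → V} (he : Function.Injective e) {U : Finset W} {S : Finset (V → Bool)}
    (h : CylOut e U S) (l : List (ProperClause W j)) :
    ∃ U' : Finset W, U'.card ≤ U.card + l.length * j ∧ CylOut e U' (solL e S l) := by
  classical
  induction l generalizing U S with
  | nil => exact ⟨U, by simp, h⟩
  | cons C l ih =>
    have hstep : CylOut e (U ∪ C.1.image Prod.fst) (S ∩ satOf e C) := by
      intro w hw σ hσ
      rw [Finset.mem_union, not_or] at hw
      rw [Finset.mem_inter] at hσ ⊢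
      refine ⟨h w hw.1 σ hσ.1, ?_⟩
      obtain ⟨l', hl', hσl⟩ := (mem_satOf e C σ).1 hσ.2
      refine (mem_satOf e C _).2 ⟨l', hl', ?_⟩
      have hne : e l'.1 ≠ e w := by
        intro heq
        apply hw.2
        rw [he heq.symm]
        exact Finset.mem_image_of_mem _ hl'
      rw [Function.update_of_ne hne]
      exact hσl
    obtain ⟨U', hU', hc⟩ := ih hstep
    refine ⟨U', ?_, hc⟩
    have h1 : (U ∪ C.1.image Prod.fst).card ≤ U.card + j := by
      refine (Finset.card_union_le _ _).trans ?_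
      have : (C.1.image Prod.fst).card ≤ j := by
        refine Finset.card_image_le.trans (le_of_eq C.2.1)
      omega
    simp only [List.length_cons]
    rw [add_mul, one_mul]
    omega

end Cyl

section Bounds

/-- Moment bound. -/
def MomB (j p : ℕ) (C K b : ℝ) (N : ℕ) : Prop :=
  ∀ (W V : Type) [Fintype W] [DecidableEq W] [Fintype V] [DecidableEq V] (e : W → V),
    Function.Injective e → N ≤ Fintype.card W → ∀ (U : Finset W) (S₀ : Finset (V → Bool)),
      CylOut e U S₀ → ∀ M : ℕ, (M : ℝ) ≤ C * (Fintype.card W : ℝ) →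
        lexp M (fun ω : List (ProperClause W (j + 1)) => (psi e S₀ ω + 1) ^ p) ≤ K * b ^ U.card

/-- Weighted square bound (R3'). -/
def WtdB (j p : ℕ) (C K b : ℝ) (N : ℕ) : Prop :=
  ∀ (W V : Type) [Fintype W] [DecidableEq W] [Fintype V] [DecidableEq V] (e : W → V),
    Function.Injective e → N ≤ Fintype.card W → ∀ (U : Finset W) (S₀ : Finset (V → Bool)),
      CylOut e U S₀ → ∀ M : ℕ, (M : ℝ) ≤ C * (Fintype.card W : ℝ) →
        ∑ g ∈ range (M + 1), lexp g (fun ω : List (ProperClause W (j + 1)) =>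
          (psi e S₀ ω + 1) ^ p * zz e (solL e S₀ ω) ^ 2) ≤ K * b ^ U.card

lemma momB_zero (j : ℕ) (C : ℝ) : MomB j 0 C 1 1 (j + 1) := by
  intro W V _ _ _ _ e _ hN U S₀ _ M _
  have : Nonempty (ProperClause W (j + 1)) :=
    Fintype.card_pos_iff.1 (by exact_mod_cast card_clause_pos (W := W) hN)
  simp only [pow_zero, one_pow, mul_one]
  rw [lexp_const]

/-- Exponential-sum estimate. -/
lemma double_exp_sum {lam A B : ℝ} (hl : 0 ≤ lam) (hA : 0 ≤ A) (hB : 0 ≤ B) (M : ℕ) :
    ∑ x ∈ range (M + 1), ∑ y ∈ range (M + 1),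
      lam ^ (x + y) / ((x.factorial : ℝ) * (y.factorial : ℝ)) * (A ^ x * B ^ y) ≤
      Real.exp (lam * A) * Real.exp (lam * B) := by
  have h1 : ∑ x ∈ range (M + 1), (lam * A) ^ x / (x.factorial : ℝ) ≤ Real.exp (lam * A) :=
    Real.sum_le_exp_of_nonneg (by positivity) _
  have h2 : ∑ y ∈ range (M + 1), (lam * B) ^ y / (y.factorial : ℝ) ≤ Real.exp (lam * B) :=
    Real.sum_le_exp_of_nonneg (by positivity) _
  have h3 : ∑ x ∈ range (M + 1), ∑ y ∈ range (M + 1),
      lam ^ (x + y) / ((x.factorial : ℝ) * (y.factorial : ℝ)) * (A ^ x * B ^ y) =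
      (∑ x ∈ range (M + 1), (lam * A) ^ x / (x.factorial : ℝ)) *
        (∑ y ∈ range (M + 1), (lam * B) ^ y / (y.factorial : ℝ)) := by
    rw [Finset.sum_mul_sum]
    apply Finset.sum_congr rfl
    intro x _
    apply Finset.sum_congr rfl
    intro y _
    rw [mul_pow, mul_pow, pow_add]
    field_simp
  rw [h3]
  exact mul_le_mul h1 h2 (Finset.sum_nonneg (fun y _ => by positivity)) (Real.exp_pos _).le

/-- Zero-level decomposition of `zz` over literals: for nonempty `S`,
`2 n zz = #{frozen literals}`; used for both level lemmas. -/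
lemma zz_eq_sum {W V : Type} [Fintype W] [DecidableEq W] [Fintype V] [DecidableEq V] (e : W → V)
    (hW : 0 < Fintype.card W) (S : Finset (V → Bool)) :
    zz e S = (2 * (Fintype.card W : ℝ))⁻¹ *
      ∑ l : W × Bool, if S.Nonempty ∧ l ∈ frozen e S then (1 : ℝ) else 0 := by
  unfold zz
  by_cases hS : S.Nonempty
  · rw [if_pos hS]
    have h1 : (∑ l : W × Bool, if S.Nonempty ∧ l ∈ frozen e S then (1 : ℝ) else 0) =
        ((frozen e S).card : ℝ) := by
      simp only [hS, true_and]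
      rw [Finset.sum_boole]
      simp
    rw [h1, div_eq_inv_mul]
  · rw [if_neg hS]
    simp [hS]


/-- The two Poisson weights summed. -/
lemma pi_sum {lam Lam D A B : ℝ} (h0 : 0 ≤ lam) (h1 : lam ≤ Lam) (hD : 0 ≤ D) (hA : 0 ≤ A) (hB : 0 ≤ B)
    (F : ℕ → ℕ → ℝ) (hF : ∀ x y, F x y ≤ D * (A ^ x * B ^ y)) (M : ℕ) :
    ∑ x ∈ range (M + 1), ∑ y ∈ range (M + 1),
      lam ^ (x + y) / ((x.factorial : ℝ) * (y.factorial : ℝ)) * F x y ≤
      D * (Real.exp (Lam * A) * Real.exp (Lam * B)) := by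
  have hL : 0 ≤ Lam := h0.trans h1
  have h2 := double_exp_sum hL hA hB M
  have h3 : ∑ x ∈ range (M + 1), ∑ y ∈ range (M + 1),
      lam ^ (x + y) / ((x.factorial : ℝ) * (y.factorial : ℝ)) * F x y ≤
      ∑ x ∈ range (M + 1), ∑ y ∈ range (M + 1),
        D * (Lam ^ (x + y) / ((x.factorial : ℝ) * (y.factorial : ℝ)) * (A ^ x * B ^ y)) := by
    apply Finset.sum_le_sum
    intro x _
    apply Finset.sum_le_sum
    intro y _
    have h4 : lam ^ (x + y) / ((x.factorial : ℝ) * (y.factorial : ℝ)) ≤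
        Lam ^ (x + y) / ((x.factorial : ℝ) * (y.factorial : ℝ)) :=
      div_le_div_of_nonneg_right (pow_le_pow_left₀ h0 h1 _) (by positivity)
    have h5 : 0 ≤ D * (A ^ x * B ^ y) := by positivity
    calc lam ^ (x + y) / ((x.factorial : ℝ) * (y.factorial : ℝ)) * F x y
        ≤ lam ^ (x + y) / ((x.factorial : ℝ) * (y.factorial : ℝ)) * (D * (A ^ x * B ^ y)) :=
          mul_le_mul_of_nonneg_left (hF x y) (by positivity)
      _ ≤ Lam ^ (x + y) / ((x.factorial : ℝ) * (y.factorial : ℝ)) * (D * (A ^ x * B ^ y)) :=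
          mul_le_mul_of_nonneg_right h4 h5
      _ = D * (Lam ^ (x + y) / ((x.factorial : ℝ) * (y.factorial : ℝ)) * (A ^ x * B ^ y)) := by ring
  refine h3.trans ?_
  simp only [← Finset.mul_sum]
  exact mul_le_mul_of_nonneg_left h2 hD

lemma card_WW {W : Type} [Fintype W] [DecidableEq W] (w₀ : W) :
    Fintype.card (WW w₀) = Fintype.card W - 1 := by
  unfold WW
  rw [Fintype.card_subtype_compl]
  simp

lemma shift_mono (p : ℕ) (a : ℝ) (ha : 0 ≤ a) :
    MonotoneOn (fun u : ℝ => (u + a + 1) ^ p) (Set.Ici 0) := by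
  intro u hu v _ huv
  have hu' : (0 : ℝ) ≤ u := hu
  exact pow_le_pow_left₀ (by linarith) (by linarith) p

lemma shift_le_mul {p : ℕ} {a u : ℝ} (ha : 0 ≤ a) (hu : 0 ≤ u) :
    (u + a + 1) ^ p ≤ (a + 1) ^ p * (u + 1) ^ p := by
  rw [← mul_pow]
  apply pow_le_pow_left₀ (by linarith)
  nlinarith

/-- Numeric bound of the weights. -/
lemma weight_le {C : ℝ} (hC : 0 ≤ C) (p x y : ℕ) :
    (((x : ℝ) + y) / 2 + C / 2 + 1) ^ p ≤ (C / 2 + 1) ^ p * ((2 ^ p) ^ x * (2 ^ p) ^ y) := by
  have h1 : ((x : ℝ) + y) / 2 + C / 2 + 1 ≤ (C / 2 + 1) * 2 ^ (x + y) := by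
    have h2 : ((x + y : ℕ) : ℝ) + 1 ≤ 2 ^ (x + y) := by
      have := Nat.lt_two_pow_self (n := x + y)
      have h3 : x + y + 1 ≤ 2 ^ (x + y) := this
      exact_mod_cast h3
    push_cast at h2
    have hx : (0 : ℝ) ≤ (x : ℝ) + y := by positivity
    nlinarith
  calc (((x : ℝ) + y) / 2 + C / 2 + 1) ^ p ≤ ((C / 2 + 1) * 2 ^ (x + y)) ^ p :=
        pow_le_pow_left₀ (by positivity) h1 p
    _ = (C / 2 + 1) ^ p * ((2 ^ p) ^ x * (2 ^ p) ^ y) := by
        rw [mul_pow, ← pow_mul, ← pow_mul, ← pow_mul, ← pow_add]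
        congr 2
        ring

lemma add_le_mul_two_pow {c : ℝ} (hc : 0 ≤ c) (x : ℕ) : (x : ℝ) + c ≤ (1 + c) * 2 ^ x := by
  have h2 : (x : ℝ) + 1 ≤ 2 ^ x := by
    have h3 : x + 1 ≤ 2 ^ x := Nat.lt_two_pow_self (n := x)
    exact_mod_cast h3
  have hx : (0 : ℝ) ≤ x := by positivity
  nlinarith

section CoreA

variable {W V : Type} [Fintype W] [DecidableEq W] [Fintype V] [DecidableEq V] {j : ℕ}

/-- Inner estimate of Level A. -/
lemma innerA {p : ℕ} {C K b : ℝ} {N : ℕ} (hj : 1 ≤ j) (hC : 0 < C) (hK : 0 ≤ K) (hb : 1 ≤ b)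
    (h : MomB j p (2 * C + 2) K b N) {e : W → V} (he : Function.Injective e)
    (hN : N + 1 ≤ Fintype.card W) (hj3 : j + 3 ≤ Fintype.card W) {U : Finset W}
    {S₀ : Finset (V → Bool)} (hS : CylOut e U S₀) (w₀ : W) {M : ℕ}
    (hM : (M : ℝ) ≤ C * (Fintype.card W : ℝ)) (x y : ℕ) (Ys : List (ProperClause (WW w₀) j))
    (hYs : Ys.length = y) {a : ℝ} (ha0 : 0 ≤ a) :
    ∑ g ∈ range (M + 1), lexp g (fun Gs : List (ProperClause (WW w₀) (j + 1)) =>
        phi (solL (eW e w₀) (solL (eW e w₀) S₀ Ys) Gs) *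
          vv (eW e w₀) j x (solL (eW e w₀) (solL (eW e w₀) S₀ Ys) Gs) *
          (psi (eW e w₀) (solL (eW e w₀) S₀ Ys) Gs + a + 1) ^ p *
          (zz (eW e w₀) (solL (eW e w₀) (solL (eW e w₀) S₀ Ys) Gs) +
            1 / (2 * (Fintype.card W : ℝ)))) ≤
      ((x : ℝ) + (C + 1) * ((j : ℝ) + 1)) * ((a + 1) ^ p * (K * b ^ (U.card + y * j))) := by
  set e' := eW e w₀ with he'
  set RY := solL e' S₀ Ys with hRY
  have hcard : Fintype.card (WW w₀) = Fintype.card W - 1 := card_WW w₀
  have hn1 : j + 1 ≤ Fintype.card (WW w₀) := by omega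
  have hn'pos : (0 : ℝ) < Fintype.card (WW w₀) := by
    have : 0 < Fintype.card (WW w₀) := by omega
    exact_mod_cast this
  have hcardR : (Fintype.card W : ℝ) = (Fintype.card (WW w₀) : ℝ) + 1 := by
    have : Fintype.card W = Fintype.card (WW w₀) + 1 := by omega
    exact_mod_cast this
  have hnpos : (0 : ℝ) < Fintype.card W := by rw [hcardR]; positivity
  set n' : ℝ := (Fintype.card (WW w₀) : ℝ) with hn'
  set c : ℝ := ((j : ℝ) + 1) / (2 * n') with hc
  have hc0 : 0 ≤ c := by positivity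
  set w : ℝ → ℝ := fun u => (u + a + 1) ^ p with hw
  have hwm : MonotoneOn w (Set.Ici 0) := shift_mono p a ha0
  have hw0 : ∀ u, 0 ≤ u → 0 ≤ w u := fun u hu => by
    have : 0 ≤ u + a + 1 := by linarith
    exact pow_nonneg this p
  -- pointwise
  have hpt : ∀ Gs : List (ProperClause (WW w₀) (j + 1)),
      phi (solL e' RY Gs) * vv e' j x (solL e' RY Gs) * (psi e' RY Gs + a + 1) ^ p *
        (zz e' (solL e' RY Gs) + 1 / (2 * (Fintype.card W : ℝ))) ≤
      w (psi e' RY Gs) * (ztil e' j (solL e' RY Gs) * vv e' j x (solL e' RY Gs)) +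
        c * w (psi e' RY Gs) := by
    intro Gs
    set R := solL e' RY Gs
    have hz := zz_le_ztil e' hn1 R
    have hc2 : (j : ℝ) / (2 * n') + 1 / (2 * (Fintype.card W : ℝ)) ≤ c := by
      have h1 : 1 / (2 * (Fintype.card W : ℝ)) ≤ 1 / (2 * n') := by
        apply div_le_div_of_nonneg_left (by norm_num) (by positivity)
        rw [hcardR]
        linarith
      have h2 : c = (j : ℝ) / (2 * n') + 1 / (2 * n') := by
        rw [hc]
        ring
      linarith
    have hzt0 : 0 ≤ ztil e' j R := by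
      unfold ztil
      split_ifs <;> positivity
    have hv0 := vv_nonneg e' (by omega : j ≤ Fintype.card (WW w₀)) x R
    have hv1 := vv_le_one e' (j := j) x R
    have hph0 := phi_nonneg R
    have hph1 := phi_le_one R
    have hW0 : 0 ≤ w (psi e' RY Gs) := hw0 _ (psi_nonneg _ _ _)
    have hW : (psi e' RY Gs + a + 1) ^ p = w (psi e' RY Gs) := rfl
    rw [hW]
    have h3 : zz e' R + 1 / (2 * (Fintype.card W : ℝ)) ≤ ztil e' j R + c := by
      have : zz e' R ≤ ztil e' j R + (j : ℝ) / (2 * n') := hz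
      linarith
    have h30 : 0 ≤ zz e' R + 1 / (2 * (Fintype.card W : ℝ)) := by
      have := zz_nonneg e' R
      positivity
    have h4 : phi R * vv e' j x R ≤ vv e' j x R := by nlinarith
    have h40 : 0 ≤ phi R * vv e' j x R := mul_nonneg hph0 hv0
    calc phi R * vv e' j x R * w (psi e' RY Gs) * (zz e' R + 1 / (2 * (Fintype.card W : ℝ)))
        = w (psi e' RY Gs) * ((phi R * vv e' j x R) * (zz e' R + 1 / (2 * (Fintype.card W : ℝ)))) := by
          ring
      _ ≤ w (psi e' RY Gs) * (vv e' j x R * (ztil e' j R + c)) := by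
          apply mul_le_mul_of_nonneg_left _ hW0
          exact mul_le_mul h4 h3 h30 hv0
      _ ≤ w (psi e' RY Gs) * (ztil e' j R * vv e' j x R) + c * w (psi e' RY Gs) := by
          have h5 : w (psi e' RY Gs) * (vv e' j x R * c) ≤ w (psi e' RY Gs) * (1 * c) :=
            mul_le_mul_of_nonneg_left (mul_le_mul_of_nonneg_right hv1 hc0) hW0
          nlinarith
  have hsum1 : ∑ g ∈ range (M + 1), lexp g (fun Gs : List (ProperClause (WW w₀) (j + 1)) =>
        phi (solL e' RY Gs) * vv e' j x (solL e' RY Gs) * (psi e' RY Gs + a + 1) ^ p *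
          (zz e' (solL e' RY Gs) + 1 / (2 * (Fintype.card W : ℝ)))) ≤
      ∑ g ∈ range (M + 1), (lexp g (fun Gs : List (ProperClause (WW w₀) (j + 1)) =>
          w (psi e' RY Gs) * (ztil e' j (solL e' RY Gs) * vv e' j x (solL e' RY Gs))) +
        c * lexp g (fun Gs : List (ProperClause (WW w₀) (j + 1)) => w (psi e' RY Gs))) := by
    apply Finset.sum_le_sum
    intro g _
    rw [← lexp_mul_left, ← lexp_add]
    exact lexp_mono hpt
  refine hsum1.trans ?_
  rw [Finset.sum_add_distrib]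
  have hR2 := weighted_R2 e' hj hn1 w hwm hw0 RY (M + 1) x
  set L := lexp (M + 1) (fun Gs : List (ProperClause (WW w₀) (j + 1)) => w (psi e' RY Gs)) with hL
  have hpm : ∑ g ∈ range (M + 1), c * lexp g (fun Gs : List (ProperClause (WW w₀) (j + 1)) =>
      w (psi e' RY Gs)) ≤ ((M : ℝ) + 1) * c * L := by
    have h1 : ∑ g ∈ range (M + 1), c * lexp g (fun Gs : List (ProperClause (WW w₀) (j + 1)) =>
        w (psi e' RY Gs)) ≤ ∑ _g ∈ range (M + 1), c * L := by
      apply Finset.sum_le_sum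
      intro g hg
      apply mul_le_mul_of_nonneg_left _ hc0
      exact lexp_psi_mono e' hn1 w hwm RY (by have := Finset.mem_range.1 hg; omega)
    refine h1.trans (le_of_eq ?_)
    simp only [Finset.sum_const, Finset.card_range, nsmul_eq_mul]
    push_cast
    ring
  have hL0 : 0 ≤ L := lexp_nonneg (fun l => hw0 _ (psi_nonneg _ _ _))
  have hNn : N ≤ Fintype.card (WW w₀) := by omega
  have hMn : ((M + 1 : ℕ) : ℝ) ≤ (2 * C + 2) * n' := by
    push_cast
    have hn'1 : (1 : ℝ) ≤ n' := by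
      have : 1 ≤ Fintype.card (WW w₀) := by omega
      rw [hn']
      exact_mod_cast this
    rw [hcardR] at hM
    nlinarith
  -- the moment bound
  obtain ⟨U'', hU'', hcyl''⟩ := cylOut_solL (eW_injective he w₀) (cylOut_restrict hS w₀) Ys
  have hmom := h (WW w₀) V e' (eW_injective he w₀) hNn U'' RY hcyl'' (M + 1) hMn
  have hU''2 : U''.card ≤ U.card + y * j := by
    rw [← hYs]
    have := card_subtype_le U w₀
    omega
  have hbpow : b ^ U''.card ≤ b ^ (U.card + y * j) := pow_le_pow_right₀ hb hU''2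
  have hLle : L ≤ (a + 1) ^ p * (K * b ^ (U.card + y * j)) := by
    have h1 : L ≤ lexp (M + 1) (fun Gs : List (ProperClause (WW w₀) (j + 1)) =>
        (a + 1) ^ p * (psi e' RY Gs + 1) ^ p) := by
      apply lexp_mono
      intro l
      exact shift_le_mul ha0 (psi_nonneg _ _ _)
    rw [lexp_mul_left] at h1
    refine h1.trans ?_
    apply mul_le_mul_of_nonneg_left _ (by positivity)
    refine hmom.trans ?_
    exact mul_le_mul_of_nonneg_left hbpow hK
  have hc1 : ((M : ℝ) + 1) * c ≤ (C + 1) * ((j : ℝ) + 1) := by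
    have h1 : ((M : ℝ) + 1) ≤ (2 * C + 2) * n' := by exact_mod_cast hMn
    rw [hc]
    have h2 : ((M : ℝ) + 1) * (((j : ℝ) + 1) / (2 * n')) = (((M : ℝ) + 1) / (2 * n')) * ((j : ℝ) + 1) := by
      ring
    rw [h2]
    apply mul_le_mul_of_nonneg_right _ (by positivity)
    rw [div_le_iff₀ (by positivity)]
    linarith
  have hx0 : (0 : ℝ) ≤ x := by positivity
  have hfinal : (x : ℝ) * L + ((M : ℝ) + 1) * c * L ≤
      ((x : ℝ) + (C + 1) * ((j : ℝ) + 1)) * L := by nlinarith
  have hmul : ((x : ℝ) + (C + 1) * ((j : ℝ) + 1)) * L ≤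
      ((x : ℝ) + (C + 1) * ((j : ℝ) + 1)) * ((a + 1) ^ p * (K * b ^ (U.card + y * j))) :=
    mul_le_mul_of_nonneg_left hLle (by positivity)
  linarith

/-- The good-literal estimate of Level A. -/
lemma coreA {p : ℕ} {C K b : ℝ} {N : ℕ} (hj : 1 ≤ j) (hC : 0 < C) (hK : 0 ≤ K) (hb : 1 ≤ b)
    (h : MomB j p (2 * C + 2) K b N) {e : W → V} (he : Function.Injective e)
    (hN : N + 1 ≤ Fintype.card W) (hj3 : j + 3 ≤ Fintype.card W) {U : Finset W}
    {S₀ : Finset (V → Bool)} (hS : CylOut e U S₀) (l₀ : W × Bool) (hl : l₀.1 ∉ U) {M : ℕ}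
    (hM : (M : ℝ) ≤ C * (Fintype.card W : ℝ)) :
    ∑ m ∈ range (M + 1), lexp m (fun ω : List (ProperClause W (j + 1)) =>
        if (solL e S₀ ω).Nonempty ∧ l₀ ∈ frozen e (solL e S₀ ω) then
          (psi e S₀ ω + 1) ^ p * zz e (solL e S₀ ω) else 0) ≤
      (K * b ^ U.card) * (((1 + (C + 1) * ((j : ℝ) + 1)) * (C / 2 + 1) ^ p) *
        (Real.exp (C * ((j : ℝ) + 1) / 2 * (2 * 2 ^ p)) *
          Real.exp (C * ((j : ℝ) + 1) / 2 * (2 ^ p * b ^ j)))) := by
  have hnpos : (0 : ℝ) < Fintype.card W := by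
    have : 0 < Fintype.card W := by omega
    exact_mod_cast this
  have hwm : MonotoneOn (fun u : ℝ => (u + 1) ^ p) (Set.Ici 0) := by
    intro u hu v _ huv
    have hu' : (0 : ℝ) ≤ u := hu
    exact pow_le_pow_left₀ (by linarith) (by linarith) p
  have hw0 : ∀ u : ℝ, 0 ≤ u → 0 ≤ (fun u : ℝ => (u + 1) ^ p) u := fun u hu => by
    have : 0 ≤ u + 1 := by linarith
    exact pow_nonneg this p
  have hϑ : MonotoneOn (fun u : ℝ => u) (Set.Ici 0) := fun _ _ _ _ huv => huv
  have hϑ0 : ∀ u : ℝ, 0 ≤ u → 0 ≤ (fun u : ℝ => u) u := fun _ hu => hu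
  have hex := exch_sum (j := j) he (by omega : j + 2 ≤ Fintype.card W) l₀ (hS l₀.1 hl)
    (fun u : ℝ => (u + 1) ^ p) (fun u : ℝ => u) hwm hw0 hϑ hϑ0 M
  refine hex.trans ?_
  set lam : ℝ := (M : ℝ) * (((j : ℝ) + 1) / (Fintype.card W : ℝ) / 2) with hlam
  have hlam0 : 0 ≤ lam := by positivity
  have hlam1 : lam ≤ C * ((j : ℝ) + 1) / 2 := by
    rw [hlam]
    have h1 : (M : ℝ) / (Fintype.card W : ℝ) ≤ C := by
      rw [div_le_iff₀ hnpos]
      exact hM
    have h2 : (M : ℝ) * (((j : ℝ) + 1) / (Fintype.card W : ℝ) / 2) =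
        ((M : ℝ) / (Fintype.card W : ℝ)) * ((j : ℝ) + 1) / 2 := by ring
    rw [h2]
    have : ((M : ℝ) / (Fintype.card W : ℝ)) * ((j : ℝ) + 1) ≤ C * ((j : ℝ) + 1) :=
      mul_le_mul_of_nonneg_right h1 (by positivity)
    linarith
  have hA1 : (M : ℝ) / (2 * (Fintype.card W : ℝ)) ≤ C / 2 := by
    rw [div_le_iff₀ (by positivity)]
    nlinarith
  have hc1 : 0 ≤ (C + 1) * ((j : ℝ) + 1) := by positivity
  set F : ℕ → ℕ → ℝ := fun x y =>
    ((x : ℝ) + (C + 1) * ((j : ℝ) + 1)) * ((((x : ℝ) + y) / 2 + C / 2 + 1) ^ p * (b ^ j) ^ y) with hF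
  have hFb : ∀ x y, F x y ≤ ((1 + (C + 1) * ((j : ℝ) + 1)) * (C / 2 + 1) ^ p) *
      ((2 * 2 ^ p) ^ x * (2 ^ p * b ^ j) ^ y) := by
    intro x y
    have h1 := add_le_mul_two_pow hc1 x
    have h2 := weight_le hC.le p x y
    have h3 : 0 ≤ (b ^ j) ^ y := by positivity
    calc F x y ≤ ((1 + (C + 1) * ((j : ℝ) + 1)) * 2 ^ x) *
          (((C / 2 + 1) ^ p * ((2 ^ p) ^ x * (2 ^ p) ^ y)) * (b ^ j) ^ y) := by
          apply mul_le_mul h1 (mul_le_mul_of_nonneg_right h2 h3) (by positivity) (by positivity)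
      _ = ((1 + (C + 1) * ((j : ℝ) + 1)) * (C / 2 + 1) ^ p) *
          ((2 * 2 ^ p) ^ x * (2 ^ p * b ^ j) ^ y) := by
          rw [mul_pow (2 : ℝ), mul_pow ((2 : ℝ) ^ p)]
          ring
  have hpi := pi_sum hlam0 hlam1 (by positivity : 0 ≤ (1 + (C + 1) * ((j : ℝ) + 1)) * (C / 2 + 1) ^ p)
    (by positivity : (0 : ℝ) ≤ 2 * 2 ^ p) (by positivity : (0 : ℝ) ≤ 2 ^ p * b ^ j) F hFb M
  have hKb : 0 ≤ K * b ^ U.card := by positivity
  have hnp : Nonempty (ProperClause (WW l₀.1) j) :=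
    Fintype.card_pos_iff.1 (by
      exact_mod_cast card_clause_pos (W := WW l₀.1) (k := j) (by
        rw [card_WW]; omega))
  have hterm : ∀ x y : ℕ, lexp y (fun Ys : List (ProperClause (WW l₀.1) j) =>
        ∑ g ∈ range (M + 1), lexp g (fun Gs : List (ProperClause (WW l₀.1) (j + 1)) =>
          phi (solL (eW e l₀.1) (solL (eW e l₀.1) S₀ Ys) Gs) *
            vv (eW e l₀.1) j x (solL (eW e l₀.1) (solL (eW e l₀.1) S₀ Ys) Gs) *
            (psi (eW e l₀.1) (solL (eW e l₀.1) S₀ Ys) Gs + ((x : ℝ) + y) / 2 +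
              (M : ℝ) / (2 * (Fintype.card W : ℝ)) + 1) ^ p *
            (zz (eW e l₀.1) (solL (eW e l₀.1) (solL (eW e l₀.1) S₀ Ys) Gs) +
              1 / (2 * (Fintype.card W : ℝ))))) ≤ (K * b ^ U.card) * F x y := by
    intro x y
    have hbound : ∀ Ys : List (ProperClause (WW l₀.1) j), Ys.length = y →
        ∑ g ∈ range (M + 1), lexp g (fun Gs : List (ProperClause (WW l₀.1) (j + 1)) =>
          phi (solL (eW e l₀.1) (solL (eW e l₀.1) S₀ Ys) Gs) *
            vv (eW e l₀.1) j x (solL (eW e l₀.1) (solL (eW e l₀.1) S₀ Ys) Gs) *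
            (psi (eW e l₀.1) (solL (eW e l₀.1) S₀ Ys) Gs + ((x : ℝ) + y) / 2 +
              (M : ℝ) / (2 * (Fintype.card W : ℝ)) + 1) ^ p *
            (zz (eW e l₀.1) (solL (eW e l₀.1) (solL (eW e l₀.1) S₀ Ys) Gs) +
              1 / (2 * (Fintype.card W : ℝ)))) ≤ (K * b ^ U.card) * F x y := by
      intro Ys hYs
      have ha0 : 0 ≤ ((x : ℝ) + y) / 2 + (M : ℝ) / (2 * (Fintype.card W : ℝ)) := by positivity
      have hin := innerA hj hC hK hb h he hN hj3 hS l₀.1 hM x y Ys hYs ha0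
      have heq : ∑ g ∈ range (M + 1), lexp g (fun Gs : List (ProperClause (WW l₀.1) (j + 1)) =>
          phi (solL (eW e l₀.1) (solL (eW e l₀.1) S₀ Ys) Gs) *
            vv (eW e l₀.1) j x (solL (eW e l₀.1) (solL (eW e l₀.1) S₀ Ys) Gs) *
            (psi (eW e l₀.1) (solL (eW e l₀.1) S₀ Ys) Gs + ((x : ℝ) + y) / 2 +
              (M : ℝ) / (2 * (Fintype.card W : ℝ)) + 1) ^ p *
            (zz (eW e l₀.1) (solL (eW e l₀.1) (solL (eW e l₀.1) S₀ Ys) Gs) +
              1 / (2 * (Fintype.card W : ℝ)))) =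
          ∑ g ∈ range (M + 1), lexp g (fun Gs : List (ProperClause (WW l₀.1) (j + 1)) =>
          phi (solL (eW e l₀.1) (solL (eW e l₀.1) S₀ Ys) Gs) *
            vv (eW e l₀.1) j x (solL (eW e l₀.1) (solL (eW e l₀.1) S₀ Ys) Gs) *
            (psi (eW e l₀.1) (solL (eW e l₀.1) S₀ Ys) Gs + (((x : ℝ) + y) / 2 +
              (M : ℝ) / (2 * (Fintype.card W : ℝ))) + 1) ^ p *
            (zz (eW e l₀.1) (solL (eW e l₀.1) (solL (eW e l₀.1) S₀ Ys) Gs) +
              1 / (2 * (Fintype.card W : ℝ)))) := by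
        apply Finset.sum_congr rfl
        intro g _
        apply lexp_congr_len
        intro l _
        rw [add_assoc (psi (eW e l₀.1) (solL (eW e l₀.1) S₀ Ys) l) (((x : ℝ) + y) / 2)]
      rw [heq]
      refine hin.trans ?_
      have ha1 : ((x : ℝ) + y) / 2 + (M : ℝ) / (2 * (Fintype.card W : ℝ)) + 1 ≤
          ((x : ℝ) + y) / 2 + C / 2 + 1 := by linarith
      have hpow := pow_le_pow_left₀ (by positivity) ha1 p
      have hb2 : b ^ (U.card + y * j) = b ^ U.card * (b ^ j) ^ y := by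
        rw [pow_add, mul_comm y j, pow_mul]
      rw [hb2]
      simp only [hF]
      have h5 : 0 ≤ K * (b ^ U.card * (b ^ j) ^ y) := by positivity
      calc ((x : ℝ) + (C + 1) * ((j : ℝ) + 1)) *
            ((((x : ℝ) + y) / 2 + (M : ℝ) / (2 * (Fintype.card W : ℝ)) + 1) ^ p *
              (K * (b ^ U.card * (b ^ j) ^ y)))
          ≤ ((x : ℝ) + (C + 1) * ((j : ℝ) + 1)) *
            ((((x : ℝ) + y) / 2 + C / 2 + 1) ^ p * (K * (b ^ U.card * (b ^ j) ^ y))) := by
            apply mul_le_mul_of_nonneg_left _ (by positivity)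
            exact mul_le_mul_of_nonneg_right hpow h5
        _ = K * b ^ U.card * (((x : ℝ) + (C + 1) * ((j : ℝ) + 1)) *
            (((((x : ℝ) + y) / 2 + C / 2 + 1) ^ p) * (b ^ j) ^ y)) := by ring
    have h1 := lexp_mono_len (m := y) hbound
    rwa [lexp_const] at h1
  calc ∑ x ∈ range (M + 1), ∑ y ∈ range (M + 1),
        (lam ^ (x + y) / ((x.factorial : ℝ) * (y.factorial : ℝ))) *
          lexp y (fun Ys : List (ProperClause (WW l₀.1) j) =>
            ∑ g ∈ range (M + 1), lexp g (fun Gs : List (ProperClause (WW l₀.1) (j + 1)) =>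
              phi (solL (eW e l₀.1) (solL (eW e l₀.1) S₀ Ys) Gs) *
                vv (eW e l₀.1) j x (solL (eW e l₀.1) (solL (eW e l₀.1) S₀ Ys) Gs) *
                (psi (eW e l₀.1) (solL (eW e l₀.1) S₀ Ys) Gs + ((x : ℝ) + y) / 2 +
                  (M : ℝ) / (2 * (Fintype.card W : ℝ)) + 1) ^ p *
                (zz (eW e l₀.1) (solL (eW e l₀.1) (solL (eW e l₀.1) S₀ Ys) Gs) +
                  1 / (2 * (Fintype.card W : ℝ)))))
      ≤ ∑ x ∈ range (M + 1), ∑ y ∈ range (M + 1),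
        (K * b ^ U.card) * (lam ^ (x + y) / ((x.factorial : ℝ) * (y.factorial : ℝ)) * F x y) := by
        apply Finset.sum_le_sum
        intro x _
        apply Finset.sum_le_sum
        intro y _
        have := mul_le_mul_of_nonneg_left (hterm x y)
          (by positivity : 0 ≤ lam ^ (x + y) / ((x.factorial : ℝ) * (y.factorial : ℝ)))
        linarith
    _ = (K * b ^ U.card) * ∑ x ∈ range (M + 1), ∑ y ∈ range (M + 1),
        (lam ^ (x + y) / ((x.factorial : ℝ) * (y.factorial : ℝ)) * F x y) := by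
        simp only [Finset.mul_sum]
    _ ≤ _ := mul_le_mul_of_nonneg_left hpi hKb

end CoreA

/-- Level A: the moment bound at `p` (with constant `2 C + 2`) gives (R3') at `p` with constant `C`. -/
theorem wtdB_of_momB {j p : ℕ} (hj : 2 ≤ j) {C K b : ℝ} {N : ℕ} (hC : 0 < C) (hK : 0 ≤ K) (hb : 1 ≤ b)
    (h : MomB j p (2 * C + 2) K b N) :
    ∃ (K' b' : ℝ) (N' : ℕ), 0 ≤ K' ∧ 1 ≤ b' ∧ WtdB j p C K' b' N' := by
  set E : ℝ := ((1 + (C + 1) * ((j : ℝ) + 1)) * (C / 2 + 1) ^ p) *
        (Real.exp (C * ((j : ℝ) + 1) / 2 * (2 * 2 ^ p)) *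
          Real.exp (C * ((j : ℝ) + 1) / 2 * (2 ^ p * b ^ j))) with hE
  have hE0 : 0 ≤ E := by positivity
  refine ⟨K * E + (C + 1) * K, 2 * b, max (N + 1) (j + 3), by positivity, by linarith, ?_⟩
  intro W V _ _ _ _ e he hN U S₀ hS M hM
  have hN1 : N + 1 ≤ Fintype.card W := (le_max_left _ _).trans hN
  have hj3 : j + 3 ≤ Fintype.card W := (le_max_right _ _).trans hN
  have hnpos : (0 : ℝ) < Fintype.card W := by
    have : 0 < Fintype.card W := by omega
    exact_mod_cast this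
  have hn1R : (1 : ℝ) ≤ Fintype.card W := by
    have : 1 ≤ Fintype.card W := by omega
    exact_mod_cast this
  set n : ℝ := (Fintype.card W : ℝ) with hn
  -- rewrite with the literal sum
  set T : W × Bool → ℝ := fun l => ∑ g ∈ range (M + 1), lexp g (fun ω : List (ProperClause W (j + 1)) =>
      if (solL e S₀ ω).Nonempty ∧ l ∈ frozen e (solL e S₀ ω) then
        (psi e S₀ ω + 1) ^ p * zz e (solL e S₀ ω) else 0) with hT
  have hrew : ∑ g ∈ range (M + 1), lexp g (fun ω : List (ProperClause W (j + 1)) =>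
      (psi e S₀ ω + 1) ^ p * zz e (solL e S₀ ω) ^ 2) = (2 * n)⁻¹ * ∑ l, T l := by
    have h1 : ∀ g, lexp g (fun ω : List (ProperClause W (j + 1)) =>
        (psi e S₀ ω + 1) ^ p * zz e (solL e S₀ ω) ^ 2) =
        (2 * n)⁻¹ * ∑ l : W × Bool, lexp g (fun ω : List (ProperClause W (j + 1)) =>
          if (solL e S₀ ω).Nonempty ∧ l ∈ frozen e (solL e S₀ ω) then
            (psi e S₀ ω + 1) ^ p * zz e (solL e S₀ ω) else 0) := by
      intro g
      rw [← lexp_sum, ← lexp_mul_left]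
      apply lexp_congr_len
      intro ω _
      have hz := zz_eq_sum e (by omega : 0 < Fintype.card W) (solL e S₀ ω)
      have h2 : (∑ l : W × Bool, if (solL e S₀ ω).Nonempty ∧ l ∈ frozen e (solL e S₀ ω) then
            (psi e S₀ ω + 1) ^ p * zz e (solL e S₀ ω) else 0) =
          ((psi e S₀ ω + 1) ^ p * zz e (solL e S₀ ω)) *
            ∑ l : W × Bool, if (solL e S₀ ω).Nonempty ∧ l ∈ frozen e (solL e S₀ ω) then (1 : ℝ) else 0 := by
        rw [Finset.mul_sum]
        apply Finset.sum_congr rfl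
        intro l _
        split_ifs <;> simp
      rw [h2, sq]
      nth_rewrite 2 [hz]
      ring
    simp only [h1]
    rw [← Finset.mul_sum, hT]
    congr 1
    rw [Finset.sum_comm]
  rw [hrew]
  -- good and bad literals
  have hmomL : lexp M (fun ω : List (ProperClause W (j + 1)) => (psi e S₀ ω + 1) ^ p) ≤ K * b ^ U.card :=
    h W V e he (by omega) U S₀ hS M (by nlinarith)
  have hKb : 0 ≤ K * b ^ U.card := by positivity
  have hwm : MonotoneOn (fun u : ℝ => (u + 1) ^ p) (Set.Ici 0) := by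
    intro u hu v _ huv
    have hu' : (0 : ℝ) ≤ u := hu
    exact pow_le_pow_left₀ (by linarith) (by linarith) p
  have hbad : ∀ l : W × Bool, T l ≤ ((M : ℝ) + 1) * (1 / 2) * (K * b ^ U.card) := by
    intro l
    have h1 : T l ≤ ∑ _g ∈ range (M + 1), (1 / 2) * (K * b ^ U.card) := by
      apply Finset.sum_le_sum
      intro g hg
      have h2 : lexp g (fun ω : List (ProperClause W (j + 1)) =>
          if (solL e S₀ ω).Nonempty ∧ l ∈ frozen e (solL e S₀ ω) then
            (psi e S₀ ω + 1) ^ p * zz e (solL e S₀ ω) else 0) ≤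
          lexp g (fun ω : List (ProperClause W (j + 1)) => (1 / 2) * ((psi e S₀ ω + 1) ^ p)) := by
        apply lexp_mono
        intro ω
        have h3 : 0 ≤ (psi e S₀ ω + 1) ^ p := pow_nonneg (by linarith [psi_nonneg e S₀ ω]) p
        split_ifs
        · have := zz_le_half e (solL e S₀ ω)
          nlinarith
        · positivity
      refine h2.trans ?_
      rw [lexp_mul_left]
      apply mul_le_mul_of_nonneg_left _ (by norm_num)
      exact (lexp_psi_mono e (by omega : j + 1 ≤ Fintype.card W) (fun u : ℝ => (u + 1) ^ p) hwm S₀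
        (by have := Finset.mem_range.1 hg; omega)).trans hmomL
    refine h1.trans (le_of_eq ?_)
    simp only [Finset.sum_const, Finset.card_range, nsmul_eq_mul]
    push_cast
    ring
  have hgood : ∀ l : W × Bool, l.1 ∉ U → T l ≤ (K * b ^ U.card) * E := by
    intro l hl
    exact coreA (by omega) hC hK hb h he hN1 hj3 hS l hl hM
  have hE1 : ∀ l : W × Bool, T l ≤ (K * b ^ U.card) * E +
      (if l.1 ∈ U then ((M : ℝ) + 1) * (1 / 2) * (K * b ^ U.card) else 0) := by
    intro l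
    have hE2 : 0 ≤ (K * b ^ U.card) * E := by positivity
    have hB2 : 0 ≤ ((M : ℝ) + 1) * (1 / 2) * (K * b ^ U.card) := by positivity
    by_cases hl : l.1 ∈ U
    · rw [if_pos hl]
      linarith [hbad l]
    · rw [if_neg hl]
      linarith [hgood l hl]
  have hsum : ∑ l, T l ≤ (2 * n) * ((K * b ^ U.card) * E) +
      (2 * (U.card : ℝ)) * (((M : ℝ) + 1) * (1 / 2) * (K * b ^ U.card)) := by
    refine (Finset.sum_le_sum (fun l _ => hE1 l)).trans ?_
    rw [Finset.sum_add_distrib]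
    apply add_le_add
    · simp only [Finset.sum_const, Finset.card_univ, Fintype.card_prod, Fintype.card_bool, nsmul_eq_mul]
      push_cast
      apply le_of_eq
      rw [hn]
      ring
    · rw [Finset.sum_ite, Finset.sum_const_zero, add_zero, Finset.sum_const, nsmul_eq_mul]
      apply le_of_eq
      congr 1
      have hc : (univ.filter (fun l : W × Bool => l.1 ∈ U)) = U ×ˢ (univ : Finset Bool) := by
        ext l
        simp
      rw [hc, Finset.card_product]
      simp
      ring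
  have hfinal : (2 * n)⁻¹ * ((2 * n) * ((K * b ^ U.card) * E) +
      (2 * (U.card : ℝ)) * (((M : ℝ) + 1) * (1 / 2) * (K * b ^ U.card))) ≤
      (K * E + (C + 1) * K) * (2 * b) ^ U.card := by
    have h1 : (2 * n)⁻¹ * ((2 * n) * ((K * b ^ U.card) * E) +
      (2 * (U.card : ℝ)) * (((M : ℝ) + 1) * (1 / 2) * (K * b ^ U.card))) =
      (K * b ^ U.card) * E + (U.card : ℝ) * ((((M : ℝ) + 1) / (2 * n)) * (K * b ^ U.card)) := by
      field_simp
    rw [h1]
    have h2 : ((M : ℝ) + 1) / (2 * n) ≤ C + 1 := by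
      rw [div_le_iff₀ (by positivity)]
      nlinarith
    have hb2 : b ^ U.card ≤ (2 * b) ^ U.card :=
      pow_le_pow_left₀ (by linarith) (by linarith) _
    have h3 : (U.card : ℝ) * b ^ U.card ≤ (2 * b) ^ U.card := by
      rw [mul_pow]
      have h4 : (U.card : ℝ) ≤ 2 ^ U.card := by
        have := (Nat.lt_two_pow_self (n := U.card)).le
        exact_mod_cast this
      exact mul_le_mul_of_nonneg_right h4 (by positivity)
    have h5 : (U.card : ℝ) * ((((M : ℝ) + 1) / (2 * n)) * (K * b ^ U.card)) ≤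
        (C + 1) * K * (2 * b) ^ U.card := by
      have h6 : (U.card : ℝ) * ((((M : ℝ) + 1) / (2 * n)) * (K * b ^ U.card)) ≤
          (U.card : ℝ) * ((C + 1) * (K * b ^ U.card)) :=
        mul_le_mul_of_nonneg_left (mul_le_mul_of_nonneg_right h2 hKb) (by positivity)
      have h7 : (U.card : ℝ) * ((C + 1) * (K * b ^ U.card)) =
          (C + 1) * K * ((U.card : ℝ) * b ^ U.card) := by ring
      rw [h7] at h6
      exact h6.trans (mul_le_mul_of_nonneg_left h3 (by positivity))
    have h8 : (K * b ^ U.card) * E ≤ K * E * (2 * b) ^ U.card := by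
      have : K * E * b ^ U.card ≤ K * E * (2 * b) ^ U.card :=
        mul_le_mul_of_nonneg_left hb2 (by positivity)
      linarith [show (K * b ^ U.card) * E = K * E * b ^ U.card by ring]
    rw [add_mul]
    linarith
  calc (2 * n)⁻¹ * ∑ l, T l ≤ (2 * n)⁻¹ * ((2 * n) * ((K * b ^ U.card) * E) +
      (2 * (U.card : ℝ)) * (((M : ℝ) + 1) * (1 / 2) * (K * b ^ U.card))) :=
        mul_le_mul_of_nonneg_left hsum (by positivity)
    _ ≤ _ := hfinal


/-- Numeric: one step of the moment recursion. -/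
lemma pow_step_le (p : ℕ) {A z : ℝ} (hA : 1 ≤ A) (hz0 : 0 ≤ z) (hz1 : z ≤ 1 / 2) :
    (A + z) ^ (p + 1) ≤ A ^ (p + 1) + ((p : ℝ) + 1) * (3 / 2) ^ p * (A ^ p * z) := by
  induction p with
  | zero => simp
  | succ p ih =>
    have hA0 : 0 < A := by linarith
    have hApos : 0 < A ^ p := by positivity
    have h32 : (1 : ℝ) ≤ (3 / 2) ^ (p + 1) := one_le_pow₀ (by norm_num)
    have h1 : (A + z) ^ (p + 1 + 1) = (A + z) * (A + z) ^ (p + 1) := by ring
    rw [h1]
    have h2 : (A + z) * (A + z) ^ (p + 1) ≤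
        (A + z) * (A ^ (p + 1) + ((p : ℝ) + 1) * (3 / 2) ^ p * (A ^ p * z)) :=
      mul_le_mul_of_nonneg_left ih (by linarith)
    refine h2.trans ?_
    push_cast
    have h3 : A ^ p * z * z ≤ A ^ (p + 1) * z / 2 := by
      have h4 : A ^ p * z * z ≤ A ^ p * z * (1 / 2) :=
        mul_le_mul_of_nonneg_left hz1 (by positivity)
      have h5 : A ^ p ≤ A ^ (p + 1) := by
        rw [pow_succ]
        nlinarith
      have h6 : A ^ p * z * (1 / 2) ≤ A ^ (p + 1) * z * (1 / 2) :=
        mul_le_mul_of_nonneg_right (mul_le_mul_of_nonneg_right h5 hz0) (by norm_num)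
      linarith
    set X : ℝ := (3 / 2) ^ p with hX
    have hX0 : 0 ≤ X := by positivity
    have hX1 : (3 / 2) ^ (p + 1) = X * (3 / 2) := by rw [pow_succ]
    rw [hX1] at h32 ⊢
    have hQ : 0 ≤ ((p : ℝ) + 1) * X := by positivity
    have h7 := mul_le_mul_of_nonneg_left h3 hQ
    have hz2 : 0 ≤ A ^ (p + 1) * z := by positivity
    have h8 : A ^ (p + 1) * z * 1 ≤ A ^ (p + 1) * z * (X * (3 / 2)) :=
      mul_le_mul_of_nonneg_left h32 hz2
    have e1 : (A + z) * (A ^ (p + 1) + ((p : ℝ) + 1) * X * (A ^ p * z)) =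
        A ^ (p + 1 + 1) + A ^ (p + 1) * z + ((p : ℝ) + 1) * X * (A ^ (p + 1) * z) +
          ((p : ℝ) + 1) * X * (A ^ p * z * z) := by ring
    rw [e1]
    nlinarith

section CoreB

variable {W V : Type} [Fintype W] [DecidableEq W] [Fintype V] [DecidableEq V] {j : ℕ}

/-- Pointwise step of Level B. -/
lemma ptB {e' : W → V} (hj : 2 ≤ j) (hn1 : j + 1 ≤ Fintype.card W) (RY : Finset (V → Bool))
    (Gs : List (ProperClause W (j + 1))) (x p : ℕ) {a : ℝ} (ha0 : 0 ≤ a) :
    phi (solL e' RY Gs) * vv e' j x (solL e' RY Gs) * (psi e' RY Gs + a + 1) ^ p * 1 ≤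
      ∑ s ∈ range x, lexp s (fun Ds : List (ProperClause W j) =>
        (a + 1) ^ p * ((psi e' (solL e' RY Ds) Gs + 1) ^ p * zz e' (solL e' (solL e' RY Ds) Gs) ^ 2)) := by
  have hpos : ∀ s, 0 ≤ lexp s (fun Ds : List (ProperClause W j) =>
        (a + 1) ^ p * ((psi e' (solL e' RY Ds) Gs + 1) ^ p * zz e' (solL e' (solL e' RY Ds) Gs) ^ 2)) := by
    intro s
    apply lexp_nonneg
    intro l
    have := psi_nonneg e' (solL e' RY l) Gs
    have h1 : 0 ≤ (psi e' (solL e' RY l) Gs + 1) ^ p := pow_nonneg (by linarith) p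
    positivity
  have hn0 : j ≤ Fintype.card W := by omega
  have hW : 0 < Fintype.card W := by omega
  by_cases hR : (solL e' RY Gs).Nonempty
  · rw [phi_nonempty hR, one_mul, mul_one]
    set R := solL e' RY Gs with hRdef
    have hvv : vv e' j x R = ∑ s ∈ range x, (vv e' j (s + 1) R - vv e' j s R) := by
      rw [Finset.sum_range_sub (fun s => vv e' j s R), vv_zero_of_nonempty e' hR, sub_zero]
    rw [hvv, Finset.sum_mul]
    apply Finset.sum_le_sum
    intro s _
    rw [vv_succ_sub e' hn0 s R]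
    have hW0 : 0 ≤ (psi e' RY Gs + a + 1) ^ p :=
      pow_nonneg (by linarith [psi_nonneg e' RY Gs]) p
    rw [mul_comm, ← lexp_mul_left]
    apply lexp_mono
    intro Ds
    have hcomm : solL e' R Ds = solL e' (solL e' RY Ds) Gs := solL_comm e' RY Gs Ds
    by_cases hT : (solL e' R Ds).Nonempty
    · rw [if_pos hT]
      have hT' : (solL e' (solL e' RY Ds) Gs).Nonempty := by rwa [← hcomm]
      have hk := kappa_le_zz_pow e' hn0 hW hT
      have hz0 := zz_nonneg e' (solL e' R Ds)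
      have hz1 := zz_le_half e' (solL e' R Ds)
      have hk2 : zz e' (solL e' R Ds) ^ j ≤ zz e' (solL e' R Ds) ^ 2 :=
        pow_le_pow_of_le_one hz0 (by linarith) hj
      have hpsi : psi e' RY Gs ≤ psi e' (solL e' RY Ds) Gs :=
        psi_mono_of_alive e' (solL_subset e' RY Ds) Gs hT'
      have hp1 : (psi e' RY Gs + a + 1) ^ p ≤ (psi e' (solL e' RY Ds) Gs + a + 1) ^ p :=
        pow_le_pow_left₀ (by linarith [psi_nonneg e' RY Gs]) (by linarith) p
      have hp2 := shift_le_mul (p := p) ha0 (psi_nonneg e' (solL e' RY Ds) Gs)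
      rw [← hcomm]
      have hk3 := hk.trans hk2
      have hsq0 : 0 ≤ zz e' (solL e' R Ds) ^ 2 := by positivity
      calc (psi e' RY Gs + a + 1) ^ p * kappa j (Fintype.card W) (frozen e' (solL e' R Ds)).card
          ≤ ((a + 1) ^ p * (psi e' (solL e' RY Ds) Gs + 1) ^ p) * zz e' (solL e' R Ds) ^ 2 :=
            mul_le_mul (hp1.trans hp2) hk3 (kappa_nonneg _ _ _)
              (by have := psi_nonneg e' (solL e' RY Ds) Gs; positivity)
        _ = (a + 1) ^ p * ((psi e' (solL e' RY Ds) Gs + 1) ^ p * zz e' (solL e' R Ds) ^ 2) := by ring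
    · rw [if_neg hT, mul_zero]
      have := psi_nonneg e' (solL e' RY Ds) Gs
      have h1 : 0 ≤ (psi e' (solL e' RY Ds) Gs + 1) ^ p := pow_nonneg (by linarith) p
      positivity
  · rw [Finset.not_nonempty_iff_eq_empty] at hR
    rw [hR, phi_empty]
    simp only [zero_mul]
    exact Finset.sum_nonneg (fun s _ => hpos s)

/-- Inner estimate of Level B. -/
lemma innerB {p : ℕ} {C K₁ b₁ : ℝ} {N₁ : ℕ} (hj : 2 ≤ j) (hK₁ : 0 ≤ K₁) (hb₁ : 1 ≤ b₁)
    (h₁ : WtdB j p (2 * C + 2) K₁ b₁ N₁) (hC : 0 < C) {e : W → V} (he : Function.Injective e)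
    (hN : N₁ + 1 ≤ Fintype.card W) (hj3 : j + 3 ≤ Fintype.card W) {U : Finset W}
    {S₀ : Finset (V → Bool)} (hS : CylOut e U S₀) (w₀ : W) {M : ℕ}
    (hM : (M : ℝ) ≤ C * (Fintype.card W : ℝ)) (x y : ℕ) (Ys : List (ProperClause (WW w₀) j))
    (hYs : Ys.length = y) {a : ℝ} (ha0 : 0 ≤ a) :
    ∑ g ∈ range (M + 1), lexp g (fun Gs : List (ProperClause (WW w₀) (j + 1)) =>
        phi (solL (eW e w₀) (solL (eW e w₀) S₀ Ys) Gs) *
          vv (eW e w₀) j x (solL (eW e w₀) (solL (eW e w₀) S₀ Ys) Gs) *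
          (psi (eW e w₀) (solL (eW e w₀) S₀ Ys) Gs + a + 1) ^ p * 1) ≤
      (x : ℝ) * ((a + 1) ^ p * (K₁ * b₁ ^ (U.card + (x + y) * j))) := by
  set e' := eW e w₀ with he'
  set RY := solL e' S₀ Ys with hRY
  have hcard : Fintype.card (WW w₀) = Fintype.card W - 1 := card_WW w₀
  have hn1 : j + 1 ≤ Fintype.card (WW w₀) := by omega
  have hcardR : (Fintype.card W : ℝ) = (Fintype.card (WW w₀) : ℝ) + 1 := by
    have : Fintype.card W = Fintype.card (WW w₀) + 1 := by omega
    exact_mod_cast this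
  have hn'1 : (1 : ℝ) ≤ (Fintype.card (WW w₀) : ℝ) := by
    have : 1 ≤ Fintype.card (WW w₀) := by omega
    exact_mod_cast this
  have hMn : (M : ℝ) ≤ (2 * C + 2) * (Fintype.card (WW w₀) : ℝ) := by
    rw [hcardR] at hM
    nlinarith
  have hNn : N₁ ≤ Fintype.card (WW w₀) := by omega
  have hsw : ∑ g ∈ range (M + 1), lexp g (fun Gs : List (ProperClause (WW w₀) (j + 1)) =>
        phi (solL e' RY Gs) * vv e' j x (solL e' RY Gs) * (psi e' RY Gs + a + 1) ^ p * 1) ≤
      ∑ s ∈ range x, lexp s (fun Ds : List (ProperClause (WW w₀) j) =>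
        ∑ g ∈ range (M + 1), lexp g (fun Gs : List (ProperClause (WW w₀) (j + 1)) =>
          (a + 1) ^ p * ((psi e' (solL e' RY Ds) Gs + 1) ^ p *
            zz e' (solL e' (solL e' RY Ds) Gs) ^ 2))) := by
    have h1 : ∑ g ∈ range (M + 1), lexp g (fun Gs : List (ProperClause (WW w₀) (j + 1)) =>
        phi (solL e' RY Gs) * vv e' j x (solL e' RY Gs) * (psi e' RY Gs + a + 1) ^ p * 1) ≤
      ∑ g ∈ range (M + 1), ∑ s ∈ range x, lexp g (fun Gs : List (ProperClause (WW w₀) (j + 1)) =>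
        lexp s (fun Ds : List (ProperClause (WW w₀) j) =>
          (a + 1) ^ p * ((psi e' (solL e' RY Ds) Gs + 1) ^ p *
            zz e' (solL e' (solL e' RY Ds) Gs) ^ 2))) := by
      apply Finset.sum_le_sum
      intro g _
      rw [← lexp_sum]
      apply lexp_mono
      intro Gs
      exact ptB hj hn1 RY Gs x p ha0
    refine h1.trans (le_of_eq ?_)
    rw [Finset.sum_comm]
    apply Finset.sum_congr rfl
    intro s _
    rw [lexp_sum]
    apply Finset.sum_congr rfl
    intro g _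
    exact lexp_comm g s _
  refine hsw.trans ?_
  have hnp : Nonempty (ProperClause (WW w₀) j) :=
    Fintype.card_pos_iff.1 (by
      exact_mod_cast card_clause_pos (W := WW w₀) (k := j) (by omega))
  have hterm : ∀ s ∈ range x, lexp s (fun Ds : List (ProperClause (WW w₀) j) =>
        ∑ g ∈ range (M + 1), lexp g (fun Gs : List (ProperClause (WW w₀) (j + 1)) =>
          (a + 1) ^ p * ((psi e' (solL e' RY Ds) Gs + 1) ^ p *
            zz e' (solL e' (solL e' RY Ds) Gs) ^ 2))) ≤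
      (a + 1) ^ p * (K₁ * b₁ ^ (U.card + (x + y) * j)) := by
    intro s hs
    have hsx : s ≤ x := (Finset.mem_range.1 hs).le
    have hbound : ∀ Ds : List (ProperClause (WW w₀) j), Ds.length = s →
        ∑ g ∈ range (M + 1), lexp g (fun Gs : List (ProperClause (WW w₀) (j + 1)) =>
          (a + 1) ^ p * ((psi e' (solL e' RY Ds) Gs + 1) ^ p *
            zz e' (solL e' (solL e' RY Ds) Gs) ^ 2)) ≤
        (a + 1) ^ p * (K₁ * b₁ ^ (U.card + (x + y) * j)) := by
      intro Ds hDs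
      simp only [lexp_mul_left]
      rw [← Finset.mul_sum]
      apply mul_le_mul_of_nonneg_left _ (by positivity)
      obtain ⟨U'', hU'', hc''⟩ := cylOut_solL (eW_injective he w₀) (cylOut_restrict hS w₀) Ys
      obtain ⟨U₃, hU₃, hc₃⟩ := cylOut_solL (eW_injective he w₀) hc'' Ds
      have hwt := h₁ (WW w₀) V e' (eW_injective he w₀) hNn U₃ (solL e' RY Ds) hc₃ M hMn
      refine hwt.trans ?_
      apply mul_le_mul_of_nonneg_left _ hK₁
      apply pow_le_pow_right₀ hb₁
      have h1 := card_subtype_le U w₀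
      rw [hYs] at hU''
      rw [hDs] at hU₃
      have h2 : s * j ≤ x * j := Nat.mul_le_mul_right j hsx
      have h3 : (x + y) * j = x * j + y * j := by ring
      omega
    have h1 := lexp_mono_len (m := s) hbound
    rwa [lexp_const] at h1
  refine (Finset.sum_le_sum hterm).trans (le_of_eq ?_)
  simp only [Finset.sum_const, Finset.card_range, nsmul_eq_mul]

/-- The good-literal estimate of Level B. -/
lemma coreB {p : ℕ} {C K₁ b₁ : ℝ} {N₁ : ℕ} (hj : 2 ≤ j) (hC : 0 < C) (hK₁ : 0 ≤ K₁) (hb₁ : 1 ≤ b₁)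
    (h₁ : WtdB j p (2 * C + 2) K₁ b₁ N₁) {e : W → V} (he : Function.Injective e)
    (hN : N₁ + 1 ≤ Fintype.card W) (hj3 : j + 3 ≤ Fintype.card W) {U : Finset W}
    {S₀ : Finset (V → Bool)} (hS : CylOut e U S₀) (l₀ : W × Bool) (hl : l₀.1 ∉ U) {M : ℕ}
    (hM : (M : ℝ) ≤ C * (Fintype.card W : ℝ)) :
    ∑ m ∈ range (M + 1), lexp m (fun ω : List (ProperClause W (j + 1)) =>
        if (solL e S₀ ω).Nonempty ∧ l₀ ∈ frozen e (solL e S₀ ω) then
          (psi e S₀ ω + 1) ^ p * 1 else 0) ≤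
      (K₁ * b₁ ^ U.card) * ((C / 2 + 1) ^ p *
        (Real.exp (C * ((j : ℝ) + 1) / 2 * (2 * 2 ^ p * b₁ ^ j)) *
          Real.exp (C * ((j : ℝ) + 1) / 2 * (2 ^ p * b₁ ^ j)))) := by
  have hnpos : (0 : ℝ) < Fintype.card W := by
    have : 0 < Fintype.card W := by omega
    exact_mod_cast this
  have hwm : MonotoneOn (fun u : ℝ => (u + 1) ^ p) (Set.Ici 0) := by
    intro u hu v _ huv
    have hu' : (0 : ℝ) ≤ u := hu
    exact pow_le_pow_left₀ (by linarith) (by linarith) p
  have hw0 : ∀ u : ℝ, 0 ≤ u → 0 ≤ (fun u : ℝ => (u + 1) ^ p) u := fun u hu => by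
    have : 0 ≤ u + 1 := by linarith
    exact pow_nonneg this p
  have hϑ : MonotoneOn (fun _ : ℝ => (1 : ℝ)) (Set.Ici 0) := fun _ _ _ _ _ => le_refl _
  have hϑ0 : ∀ u : ℝ, 0 ≤ u → 0 ≤ (fun _ : ℝ => (1 : ℝ)) u := fun _ _ => zero_le_one
  have hex := exch_sum (j := j) he (by omega : j + 2 ≤ Fintype.card W) l₀ (hS l₀.1 hl)
    (fun u : ℝ => (u + 1) ^ p) (fun _ : ℝ => (1 : ℝ)) hwm hw0 hϑ hϑ0 M
  refine hex.trans ?_
  set lam : ℝ := (M : ℝ) * (((j : ℝ) + 1) / (Fintype.card W : ℝ) / 2) with hlam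
  have hlam0 : 0 ≤ lam := by positivity
  have hlam1 : lam ≤ C * ((j : ℝ) + 1) / 2 := by
    rw [hlam]
    have h1 : (M : ℝ) / (Fintype.card W : ℝ) ≤ C := by
      rw [div_le_iff₀ hnpos]
      exact hM
    have h2 : (M : ℝ) * (((j : ℝ) + 1) / (Fintype.card W : ℝ) / 2) =
        ((M : ℝ) / (Fintype.card W : ℝ)) * ((j : ℝ) + 1) / 2 := by ring
    rw [h2]
    have : ((M : ℝ) / (Fintype.card W : ℝ)) * ((j : ℝ) + 1) ≤ C * ((j : ℝ) + 1) :=
      mul_le_mul_of_nonneg_right h1 (by positivity)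
    linarith
  have hA1 : (M : ℝ) / (2 * (Fintype.card W : ℝ)) ≤ C / 2 := by
    rw [div_le_iff₀ (by positivity)]
    nlinarith
  set F : ℕ → ℕ → ℝ := fun x y =>
    (x : ℝ) * ((((x : ℝ) + y) / 2 + C / 2 + 1) ^ p * (b₁ ^ j) ^ (x + y)) with hF
  have hFb : ∀ x y, F x y ≤ (C / 2 + 1) ^ p *
      ((2 * 2 ^ p * b₁ ^ j) ^ x * (2 ^ p * b₁ ^ j) ^ y) := by
    intro x y
    have h1 : (x : ℝ) ≤ 2 ^ x := by
      have := (Nat.lt_two_pow_self (n := x)).le
      exact_mod_cast this
    have h2 := weight_le hC.le p x y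
    have h3 : 0 ≤ (b₁ ^ j) ^ (x + y) := by positivity
    calc F x y ≤ (2 : ℝ) ^ x *
          (((C / 2 + 1) ^ p * ((2 ^ p) ^ x * (2 ^ p) ^ y)) * (b₁ ^ j) ^ (x + y)) := by
          apply mul_le_mul h1 (mul_le_mul_of_nonneg_right h2 h3) (by positivity) (by positivity)
      _ = (C / 2 + 1) ^ p * ((2 * 2 ^ p * b₁ ^ j) ^ x * (2 ^ p * b₁ ^ j) ^ y) := by
          rw [mul_pow (2 * 2 ^ p : ℝ), mul_pow (2 : ℝ), mul_pow ((2 : ℝ) ^ p), pow_add (b₁ ^ j)]
          ring
  have hpi := pi_sum hlam0 hlam1 (by positivity : 0 ≤ (C / 2 + 1) ^ p)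
    (by positivity : (0 : ℝ) ≤ 2 * 2 ^ p * b₁ ^ j) (by positivity : (0 : ℝ) ≤ 2 ^ p * b₁ ^ j) F hFb M
  have hKb : 0 ≤ K₁ * b₁ ^ U.card := by positivity
  have hnp : Nonempty (ProperClause (WW l₀.1) j) :=
    Fintype.card_pos_iff.1 (by
      exact_mod_cast card_clause_pos (W := WW l₀.1) (k := j) (by
        rw [card_WW]; omega))
  have hterm : ∀ x y : ℕ, lexp y (fun Ys : List (ProperClause (WW l₀.1) j) =>
        ∑ g ∈ range (M + 1), lexp g (fun Gs : List (ProperClause (WW l₀.1) (j + 1)) =>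
          phi (solL (eW e l₀.1) (solL (eW e l₀.1) S₀ Ys) Gs) *
            vv (eW e l₀.1) j x (solL (eW e l₀.1) (solL (eW e l₀.1) S₀ Ys) Gs) *
            (psi (eW e l₀.1) (solL (eW e l₀.1) S₀ Ys) Gs + ((x : ℝ) + y) / 2 +
              (M : ℝ) / (2 * (Fintype.card W : ℝ)) + 1) ^ p * 1)) ≤ (K₁ * b₁ ^ U.card) * F x y := by
    intro x y
    have hbound : ∀ Ys : List (ProperClause (WW l₀.1) j), Ys.length = y →
        ∑ g ∈ range (M + 1), lexp g (fun Gs : List (ProperClause (WW l₀.1) (j + 1)) =>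
          phi (solL (eW e l₀.1) (solL (eW e l₀.1) S₀ Ys) Gs) *
            vv (eW e l₀.1) j x (solL (eW e l₀.1) (solL (eW e l₀.1) S₀ Ys) Gs) *
            (psi (eW e l₀.1) (solL (eW e l₀.1) S₀ Ys) Gs + ((x : ℝ) + y) / 2 +
              (M : ℝ) / (2 * (Fintype.card W : ℝ)) + 1) ^ p * 1) ≤ (K₁ * b₁ ^ U.card) * F x y := by
      intro Ys hYs
      have ha0 : 0 ≤ ((x : ℝ) + y) / 2 + (M : ℝ) / (2 * (Fintype.card W : ℝ)) := by positivity
      have hin := innerB hj hK₁ hb₁ h₁ hC he hN hj3 hS l₀.1 hM x y Ys hYs ha0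
      have heq : ∑ g ∈ range (M + 1), lexp g (fun Gs : List (ProperClause (WW l₀.1) (j + 1)) =>
          phi (solL (eW e l₀.1) (solL (eW e l₀.1) S₀ Ys) Gs) *
            vv (eW e l₀.1) j x (solL (eW e l₀.1) (solL (eW e l₀.1) S₀ Ys) Gs) *
            (psi (eW e l₀.1) (solL (eW e l₀.1) S₀ Ys) Gs + ((x : ℝ) + y) / 2 +
              (M : ℝ) / (2 * (Fintype.card W : ℝ)) + 1) ^ p * 1) =
          ∑ g ∈ range (M + 1), lexp g (fun Gs : List (ProperClause (WW l₀.1) (j + 1)) =>
          phi (solL (eW e l₀.1) (solL (eW e l₀.1) S₀ Ys) Gs) *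
            vv (eW e l₀.1) j x (solL (eW e l₀.1) (solL (eW e l₀.1) S₀ Ys) Gs) *
            (psi (eW e l₀.1) (solL (eW e l₀.1) S₀ Ys) Gs + (((x : ℝ) + y) / 2 +
              (M : ℝ) / (2 * (Fintype.card W : ℝ))) + 1) ^ p * 1) := by
        apply Finset.sum_congr rfl
        intro g _
        apply lexp_congr_len
        intro l _
        rw [add_assoc (psi (eW e l₀.1) (solL (eW e l₀.1) S₀ Ys) l) (((x : ℝ) + y) / 2)]
      rw [heq]
      refine hin.trans ?_
      have ha1 : ((x : ℝ) + y) / 2 + (M : ℝ) / (2 * (Fintype.card W : ℝ)) + 1 ≤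
          ((x : ℝ) + y) / 2 + C / 2 + 1 := by linarith
      have hpow := pow_le_pow_left₀ (by positivity) ha1 p
      have hb2 : b₁ ^ (U.card + (x + y) * j) = b₁ ^ U.card * (b₁ ^ j) ^ (x + y) := by
        rw [pow_add, mul_comm (x + y) j, pow_mul]
      rw [hb2]
      simp only [hF]
      have h5 : 0 ≤ K₁ * (b₁ ^ U.card * (b₁ ^ j) ^ (x + y)) := by positivity
      calc (x : ℝ) * ((((x : ℝ) + y) / 2 + (M : ℝ) / (2 * (Fintype.card W : ℝ)) + 1) ^ p *
              (K₁ * (b₁ ^ U.card * (b₁ ^ j) ^ (x + y))))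
          ≤ (x : ℝ) * ((((x : ℝ) + y) / 2 + C / 2 + 1) ^ p * (K₁ * (b₁ ^ U.card * (b₁ ^ j) ^ (x + y)))) := by
            apply mul_le_mul_of_nonneg_left _ (by positivity)
            exact mul_le_mul_of_nonneg_right hpow h5
        _ = K₁ * b₁ ^ U.card * ((x : ℝ) *
            (((((x : ℝ) + y) / 2 + C / 2 + 1) ^ p) * (b₁ ^ j) ^ (x + y))) := by ring
    have h1 := lexp_mono_len (m := y) hbound
    rwa [lexp_const] at h1
  calc ∑ x ∈ range (M + 1), ∑ y ∈ range (M + 1),
        (lam ^ (x + y) / ((x.factorial : ℝ) * (y.factorial : ℝ))) *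
          lexp y (fun Ys : List (ProperClause (WW l₀.1) j) =>
            ∑ g ∈ range (M + 1), lexp g (fun Gs : List (ProperClause (WW l₀.1) (j + 1)) =>
              phi (solL (eW e l₀.1) (solL (eW e l₀.1) S₀ Ys) Gs) *
                vv (eW e l₀.1) j x (solL (eW e l₀.1) (solL (eW e l₀.1) S₀ Ys) Gs) *
                (psi (eW e l₀.1) (solL (eW e l₀.1) S₀ Ys) Gs + ((x : ℝ) + y) / 2 +
                  (M : ℝ) / (2 * (Fintype.card W : ℝ)) + 1) ^ p * 1))
      ≤ ∑ x ∈ range (M + 1), ∑ y ∈ range (M + 1),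
        (K₁ * b₁ ^ U.card) * (lam ^ (x + y) / ((x.factorial : ℝ) * (y.factorial : ℝ)) * F x y) := by
        apply Finset.sum_le_sum
        intro x _
        apply Finset.sum_le_sum
        intro y _
        have := mul_le_mul_of_nonneg_left (hterm x y)
          (by positivity : 0 ≤ lam ^ (x + y) / ((x.factorial : ℝ) * (y.factorial : ℝ)))
        linarith
    _ = (K₁ * b₁ ^ U.card) * ∑ x ∈ range (M + 1), ∑ y ∈ range (M + 1),
        (lam ^ (x + y) / ((x.factorial : ℝ) * (y.factorial : ℝ)) * F x y) := by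
        simp only [Finset.mul_sum]
    _ ≤ _ := mul_le_mul_of_nonneg_left hpi hKb

end CoreB

/-- Level B: the moment bound at `p` and (R3') at `p` (with constant `2 C + 2`) give the moment
bound at `p + 1`. -/
theorem momB_succ {j p : ℕ} (hj : 2 ≤ j) {C K b K₁ b₁ : ℝ} {N N₁ : ℕ} (hC : 0 < C) (hK : 0 ≤ K)
    (hb : 1 ≤ b) (hK₁ : 0 ≤ K₁) (hb₁ : 1 ≤ b₁)
    (h : MomB j p C K b N) (h₁ : WtdB j p (2 * C + 2) K₁ b₁ N₁) :
    ∃ (K' b' : ℝ) (N' : ℕ), 0 ≤ K' ∧ 1 ≤ b' ∧ MomB j (p + 1) C K' b' N' := by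
  set E : ℝ := (C / 2 + 1) ^ p *
        (Real.exp (C * ((j : ℝ) + 1) / 2 * (2 * 2 ^ p * b₁ ^ j)) *
          Real.exp (C * ((j : ℝ) + 1) / 2 * (2 ^ p * b₁ ^ j))) with hE
  have hE0 : 0 ≤ E := by positivity
  set Q : ℝ := ((p : ℝ) + 1) * (3 / 2) ^ p with hQ
  have hQ0 : 0 ≤ Q := by positivity
  refine ⟨1 + Q * (K₁ * E + (C + 1) * K), 2 * b * b₁, max N (max (N₁ + 1) (j + 3)), by positivity,
    by nlinarith, ?_⟩
  intro W V _ _ _ _ e he hN' U S₀ hS M hM
  have hN0 : N ≤ Fintype.card W := (le_max_left _ _).trans hN'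
  have hB := (le_max_right _ _).trans hN'
  have hN1 : N₁ + 1 ≤ Fintype.card W := (le_max_left _ _).trans hB
  have hj3 : j + 3 ≤ Fintype.card W := (le_max_right _ _).trans hB
  have hnpos : (0 : ℝ) < Fintype.card W := by
    have : 0 < Fintype.card W := by omega
    exact_mod_cast this
  have hn1R : (1 : ℝ) ≤ Fintype.card W := by
    have : 1 ≤ Fintype.card W := by omega
    exact_mod_cast this
  have hne : Nonempty (ProperClause W (j + 1)) :=
    Fintype.card_pos_iff.1 (by
      exact_mod_cast card_clause_pos (W := W) (k := j + 1) (by omega))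
  set n : ℝ := (Fintype.card W : ℝ) with hn
  -- recursion in the horizon
  have hrec : ∀ M' : ℕ, lexp M' (fun ω : List (ProperClause W (j + 1)) => (psi e S₀ ω + 1) ^ (p + 1)) ≤
      1 + Q * ∑ g ∈ range M', lexp g (fun ω : List (ProperClause W (j + 1)) =>
        (psi e S₀ ω + 1) ^ p * zz e (solL e S₀ ω)) := by
    intro M'
    induction M' with
    | zero => simp [lexp, psi]
    | succ M' ih =>
      rw [lexp_snoc, Finset.sum_range_succ, mul_add]
      have h1 : lexp M' (fun l : List (ProperClause W (j + 1)) =>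
          lavg (fun C' : ProperClause W (j + 1) => (psi e S₀ (l ++ [C']) + 1) ^ (p + 1))) ≤
          lexp M' (fun l : List (ProperClause W (j + 1)) => (psi e S₀ l + 1) ^ (p + 1)) +
            Q * lexp M' (fun l : List (ProperClause W (j + 1)) =>
              (psi e S₀ l + 1) ^ p * zz e (solL e S₀ l)) := by
        rw [← lexp_mul_left, ← lexp_add]
        apply lexp_mono
        intro l
        have h2 : lavg (fun C' : ProperClause W (j + 1) => (psi e S₀ (l ++ [C']) + 1) ^ (p + 1)) =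
            (psi e S₀ l + zz e (solL e S₀ l) + 1) ^ (p + 1) := by
          simp only [psi_snoc]
          exact lavg_const _
        rw [h2]
        have h3 := pow_step_le p (A := psi e S₀ l + 1) (z := zz e (solL e S₀ l))
          (by linarith [psi_nonneg e S₀ l]) (zz_nonneg _ _) (zz_le_half _ _)
        have h4 : psi e S₀ l + zz e (solL e S₀ l) + 1 = psi e S₀ l + 1 + zz e (solL e S₀ l) := by ring
        rw [h4]
        exact h3
      linarith
  refine (hrec M).trans ?_
  -- literal decomposition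
  set T : W × Bool → ℝ := fun l => ∑ g ∈ range (M + 1), lexp g (fun ω : List (ProperClause W (j + 1)) =>
      if (solL e S₀ ω).Nonempty ∧ l ∈ frozen e (solL e S₀ ω) then
        (psi e S₀ ω + 1) ^ p * 1 else 0) with hT
  have hT0 : ∀ g, 0 ≤ lexp g (fun ω : List (ProperClause W (j + 1)) =>
        (psi e S₀ ω + 1) ^ p * zz e (solL e S₀ ω)) := by
    intro g
    apply lexp_nonneg
    intro l
    have := psi_nonneg e S₀ l
    have h1 : 0 ≤ (psi e S₀ l + 1) ^ p := pow_nonneg (by linarith) p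
    exact mul_nonneg h1 (zz_nonneg _ _)
  have hrew : ∑ g ∈ range M, lexp g (fun ω : List (ProperClause W (j + 1)) =>
      (psi e S₀ ω + 1) ^ p * zz e (solL e S₀ ω)) ≤ (2 * n)⁻¹ * ∑ l, T l := by
    have h0 : ∑ g ∈ range M, lexp g (fun ω : List (ProperClause W (j + 1)) =>
        (psi e S₀ ω + 1) ^ p * zz e (solL e S₀ ω)) ≤
        ∑ g ∈ range (M + 1), lexp g (fun ω : List (ProperClause W (j + 1)) =>
        (psi e S₀ ω + 1) ^ p * zz e (solL e S₀ ω)) := by
      rw [Finset.sum_range_succ]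
      linarith [hT0 M]
    refine h0.trans (le_of_eq ?_)
    have h1 : ∀ g, lexp g (fun ω : List (ProperClause W (j + 1)) =>
        (psi e S₀ ω + 1) ^ p * zz e (solL e S₀ ω)) =
        (2 * n)⁻¹ * ∑ l : W × Bool, lexp g (fun ω : List (ProperClause W (j + 1)) =>
          if (solL e S₀ ω).Nonempty ∧ l ∈ frozen e (solL e S₀ ω) then
            (psi e S₀ ω + 1) ^ p * 1 else 0) := by
      intro g
      rw [← lexp_sum, ← lexp_mul_left]
      apply lexp_congr_len
      intro ω _
      have hz := zz_eq_sum e (by omega : 0 < Fintype.card W) (solL e S₀ ω)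
      have h2 : (∑ l : W × Bool, if (solL e S₀ ω).Nonempty ∧ l ∈ frozen e (solL e S₀ ω) then
            (psi e S₀ ω + 1) ^ p * 1 else 0) =
          ((psi e S₀ ω + 1) ^ p) *
            ∑ l : W × Bool, if (solL e S₀ ω).Nonempty ∧ l ∈ frozen e (solL e S₀ ω) then (1 : ℝ) else 0 := by
        rw [Finset.mul_sum]
        apply Finset.sum_congr rfl
        intro l _
        split_ifs <;> simp
      rw [h2]
      nth_rewrite 1 [hz]
      ring
    simp only [h1]
    rw [← Finset.mul_sum, hT]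
    congr 1
    rw [Finset.sum_comm]
  have hmomL : lexp M (fun ω : List (ProperClause W (j + 1)) => (psi e S₀ ω + 1) ^ p) ≤ K * b ^ U.card :=
    h W V e he hN0 U S₀ hS M hM
  have hKb : 0 ≤ K * b ^ U.card := by positivity
  have hwm : MonotoneOn (fun u : ℝ => (u + 1) ^ p) (Set.Ici 0) := by
    intro u hu v _ huv
    have hu' : (0 : ℝ) ≤ u := hu
    exact pow_le_pow_left₀ (by linarith) (by linarith) p
  have hbad : ∀ l : W × Bool, T l ≤ ((M : ℝ) + 1) * (K * b ^ U.card) := by
    intro l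
    have h1 : T l ≤ ∑ _g ∈ range (M + 1), (K * b ^ U.card) := by
      apply Finset.sum_le_sum
      intro g hg
      have h2 : lexp g (fun ω : List (ProperClause W (j + 1)) =>
          if (solL e S₀ ω).Nonempty ∧ l ∈ frozen e (solL e S₀ ω) then
            (psi e S₀ ω + 1) ^ p * 1 else 0) ≤
          lexp g (fun ω : List (ProperClause W (j + 1)) => ((psi e S₀ ω + 1) ^ p)) := by
        apply lexp_mono
        intro ω
        have h3 : 0 ≤ (psi e S₀ ω + 1) ^ p := pow_nonneg (by linarith [psi_nonneg e S₀ ω]) p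
        split_ifs
        · linarith
        · exact h3
      refine h2.trans ?_
      exact (lexp_psi_mono e (by omega : j + 1 ≤ Fintype.card W) (fun u : ℝ => (u + 1) ^ p) hwm S₀
        (by have := Finset.mem_range.1 hg; omega)).trans hmomL
    refine h1.trans (le_of_eq ?_)
    simp only [Finset.sum_const, Finset.card_range, nsmul_eq_mul]
    push_cast
    ring
  have hKb₁ : 0 ≤ K₁ * b₁ ^ U.card := by positivity
  have hgood : ∀ l : W × Bool, l.1 ∉ U → T l ≤ (K₁ * b₁ ^ U.card) * E := by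
    intro l hl
    exact coreB hj hC hK₁ hb₁ h₁ he hN1 hj3 hS l hl hM
  have hE1 : ∀ l : W × Bool, T l ≤ (K₁ * b₁ ^ U.card) * E +
      (if l.1 ∈ U then ((M : ℝ) + 1) * (K * b ^ U.card) else 0) := by
    intro l
    have hE2 : 0 ≤ (K₁ * b₁ ^ U.card) * E := by positivity
    have hB2 : 0 ≤ ((M : ℝ) + 1) * (K * b ^ U.card) := by positivity
    by_cases hl : l.1 ∈ U
    · rw [if_pos hl]
      linarith [hbad l]
    · rw [if_neg hl]
      linarith [hgood l hl]
  have hsum : ∑ l, T l ≤ (2 * n) * ((K₁ * b₁ ^ U.card) * E) +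
      (2 * (U.card : ℝ)) * (((M : ℝ) + 1) * (K * b ^ U.card)) := by
    refine (Finset.sum_le_sum (fun l _ => hE1 l)).trans ?_
    rw [Finset.sum_add_distrib]
    apply add_le_add
    · simp only [Finset.sum_const, Finset.card_univ, Fintype.card_prod, Fintype.card_bool, nsmul_eq_mul]
      push_cast
      apply le_of_eq
      rw [hn]
      ring
    · rw [Finset.sum_ite, Finset.sum_const_zero, add_zero, Finset.sum_const, nsmul_eq_mul]
      apply le_of_eq
      congr 1
      have hc : (univ.filter (fun l : W × Bool => l.1 ∈ U)) = U ×ˢ (univ : Finset Bool) := by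
        ext l
        simp
      rw [hc, Finset.card_product]
      simp
      ring
  have hfinal : (2 * n)⁻¹ * ((2 * n) * ((K₁ * b₁ ^ U.card) * E) +
      (2 * (U.card : ℝ)) * (((M : ℝ) + 1) * (K * b ^ U.card))) ≤
      (K₁ * E + (C + 1) * K) * (2 * b * b₁) ^ U.card := by
    have h1 : (2 * n)⁻¹ * ((2 * n) * ((K₁ * b₁ ^ U.card) * E) +
      (2 * (U.card : ℝ)) * (((M : ℝ) + 1) * (K * b ^ U.card))) =
      (K₁ * b₁ ^ U.card) * E + (U.card : ℝ) * ((((M : ℝ) + 1) / n) * (K * b ^ U.card)) := by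
      field_simp
    rw [h1]
    have h2 : ((M : ℝ) + 1) / n ≤ C + 1 := by
      rw [div_le_iff₀ (by positivity)]
      nlinarith
    have hb1 : b₁ ^ U.card ≤ (2 * b * b₁) ^ U.card :=
      pow_le_pow_left₀ (by linarith) (by nlinarith) _
    have h3 : (U.card : ℝ) * b ^ U.card ≤ (2 * b * b₁) ^ U.card := by
      rw [mul_pow, mul_pow]
      have h4 : (U.card : ℝ) ≤ 2 ^ U.card := by
        have := (Nat.lt_two_pow_self (n := U.card)).le
        exact_mod_cast this
      have h5 : (1 : ℝ) ≤ b₁ ^ U.card := one_le_pow₀ hb₁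
      have h6 : 0 ≤ b ^ U.card := by positivity
      calc (U.card : ℝ) * b ^ U.card ≤ 2 ^ U.card * b ^ U.card :=
            mul_le_mul_of_nonneg_right h4 h6
        _ = 2 ^ U.card * b ^ U.card * 1 := by ring
        _ ≤ 2 ^ U.card * b ^ U.card * b₁ ^ U.card :=
            mul_le_mul_of_nonneg_left h5 (by positivity)
    have h5 : (U.card : ℝ) * ((((M : ℝ) + 1) / n) * (K * b ^ U.card)) ≤
        (C + 1) * K * (2 * b * b₁) ^ U.card := by
      have h6 : (U.card : ℝ) * ((((M : ℝ) + 1) / n) * (K * b ^ U.card)) ≤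
          (U.card : ℝ) * ((C + 1) * (K * b ^ U.card)) :=
        mul_le_mul_of_nonneg_left (mul_le_mul_of_nonneg_right h2 hKb) (by positivity)
      have h7 : (U.card : ℝ) * ((C + 1) * (K * b ^ U.card)) =
          (C + 1) * K * ((U.card : ℝ) * b ^ U.card) := by ring
      rw [h7] at h6
      exact h6.trans (mul_le_mul_of_nonneg_left h3 (by positivity))
    have h8 : (K₁ * b₁ ^ U.card) * E ≤ K₁ * E * (2 * b * b₁) ^ U.card := by
      have : K₁ * E * b₁ ^ U.card ≤ K₁ * E * (2 * b * b₁) ^ U.card :=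
        mul_le_mul_of_nonneg_left hb1 (by positivity)
      linarith [show (K₁ * b₁ ^ U.card) * E = K₁ * E * b₁ ^ U.card by ring]
    rw [add_mul]
    linarith
  have hall : ∑ g ∈ range M, lexp g (fun ω : List (ProperClause W (j + 1)) =>
      (psi e S₀ ω + 1) ^ p * zz e (solL e S₀ ω)) ≤ (K₁ * E + (C + 1) * K) * (2 * b * b₁) ^ U.card :=
    hrew.trans ((mul_le_mul_of_nonneg_left hsum (by positivity)).trans hfinal)
  have hone : (1 : ℝ) ≤ (2 * b * b₁) ^ U.card := one_le_pow₀ (by nlinarith)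
  have hQ2 := mul_le_mul_of_nonneg_left hall hQ0
  calc 1 + Q * ∑ g ∈ range M, lexp g (fun ω : List (ProperClause W (j + 1)) =>
        (psi e S₀ ω + 1) ^ p * zz e (solL e S₀ ω))
      ≤ (2 * b * b₁) ^ U.card + Q * ((K₁ * E + (C + 1) * K) * (2 * b * b₁) ^ U.card) := by linarith
    _ = (1 + Q * (K₁ * E + (C + 1) * K)) * (2 * b * b₁) ^ U.card := by ring

/-- All moments. -/
theorem mom_all {j : ℕ} (hj : 2 ≤ j) (p : ℕ) {C : ℝ} (hC : 0 < C) :
    ∃ (K b : ℝ) (N : ℕ), 0 ≤ K ∧ 1 ≤ b ∧ MomB j p C K b N := by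
  induction p generalizing C with
  | zero => exact ⟨1, 1, j + 1, by norm_num, le_refl _, momB_zero j C⟩
  | succ p ih =>
    obtain ⟨K, b, N, hK, hb, hm⟩ := ih (C := C) hC
    have hC2 : 0 < 2 * (2 * C + 2) + 2 := by positivity
    obtain ⟨K₂, b₂, N₂, hK₂, hb₂, hm₂⟩ := ih (C := 2 * (2 * C + 2) + 2) hC2
    obtain ⟨K₁, b₁, N₁, hK₁, hb₁, hw⟩ :=
      wtdB_of_momB (C := 2 * C + 2) hj (by positivity) hK₂ hb₂ hm₂
    exact momB_succ hj hC hK hb hK₁ hb₁ hm hw


section Death

variable {W V : Type} [Fintype W] [DecidableEq W] [Fintype V] [DecidableEq V] {j : ℕ}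

/-- The sum in the case of the trivial weight, with small horizon. -/
lemma m3d_double_sum {lam d : ℝ} (h0 : 0 ≤ lam) (h1 : lam ≤ 1 / 16) (hd0 : 0 ≤ d) (hd : d ≤ 1 / 14) (M : ℕ) :
    ∑ x ∈ range (M + 1), ∑ y ∈ range (M + 1),
      lam ^ (x + y) / ((x.factorial : ℝ) * (y.factorial : ℝ)) * ((x : ℝ) + d) ≤ 2 / 5 := by
  have hSy : ∑ y ∈ range (M + 1), lam ^ y / (y.factorial : ℝ) ≤ Real.exp lam :=
    Real.sum_le_exp_of_nonneg h0 _
  have h2l : ∑ x ∈ range (M + 1), (2 * lam) ^ x / (x.factorial : ℝ) ≤ Real.exp (2 * lam) :=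
    Real.sum_le_exp_of_nonneg (by positivity) _
  have hone : 1 ≤ ∑ x ∈ range (M + 1), lam ^ x / (x.factorial : ℝ) := by
    have h3 := Finset.single_le_sum (f := fun x : ℕ => lam ^ x / (x.factorial : ℝ))
      (s := range (M + 1)) (fun x _ => by positivity) (Finset.mem_range.2 (Nat.succ_pos M))
    simpa using h3
  have hexp1 : Real.exp lam ≤ 16 / 15 := by
    have h3 : Real.exp lam ≤ Real.exp (1 / 16) := Real.exp_le_exp.2 h1
    have h4 := Real.exp_bound_div_one_sub_of_interval (x := 1 / 16) (by norm_num) (by norm_num)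
    norm_num at h4 ⊢
    linarith
  have hexp2 : Real.exp (2 * lam) ≤ 8 / 7 := by
    have h3 : Real.exp (2 * lam) ≤ Real.exp (1 / 8) := Real.exp_le_exp.2 (by linarith)
    have h4 := Real.exp_bound_div_one_sub_of_interval (x := 1 / 8) (by norm_num) (by norm_num)
    norm_num at h4 ⊢
    linarith
  have hSxx : ∑ x ∈ range (M + 1), (x : ℝ) * (lam ^ x / (x.factorial : ℝ)) ≤ 1 / 7 := by
    have h3 : ∑ x ∈ range (M + 1), (x : ℝ) * (lam ^ x / (x.factorial : ℝ)) ≤
        ∑ x ∈ range (M + 1), ((2 * lam) ^ x / (x.factorial : ℝ) - lam ^ x / (x.factorial : ℝ)) := by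
      apply Finset.sum_le_sum
      intro x _
      have h4 : (x : ℝ) + 1 ≤ 2 ^ x := by
        have h5 : x + 1 ≤ 2 ^ x := Nat.lt_two_pow_self (n := x)
        exact_mod_cast h5
      have h6 : 0 ≤ lam ^ x / (x.factorial : ℝ) := by positivity
      have h7 : (2 * lam) ^ x / (x.factorial : ℝ) = 2 ^ x * (lam ^ x / (x.factorial : ℝ)) := by
        rw [mul_pow]
        ring
      rw [h7]
      nlinarith
    rw [Finset.sum_sub_distrib] at h3
    linarith
  have h3 : ∑ x ∈ range (M + 1), ∑ y ∈ range (M + 1),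
      lam ^ (x + y) / ((x.factorial : ℝ) * (y.factorial : ℝ)) * ((x : ℝ) + d) =
      (∑ y ∈ range (M + 1), lam ^ y / (y.factorial : ℝ)) *
        (∑ x ∈ range (M + 1), (x : ℝ) * (lam ^ x / (x.factorial : ℝ)) +
          d * ∑ x ∈ range (M + 1), lam ^ x / (x.factorial : ℝ)) := by
    rw [Finset.mul_sum (a := d), ← Finset.sum_add_distrib, mul_comm, Finset.sum_mul]
    apply Finset.sum_congr rfl
    intro x _
    rw [Finset.mul_sum]
    apply Finset.sum_congr rfl
    intro y _
    rw [pow_add]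
    field_simp
  rw [h3]
  have hSy0 : 0 ≤ ∑ y ∈ range (M + 1), lam ^ y / (y.factorial : ℝ) :=
    Finset.sum_nonneg (fun y _ => by positivity)
  have hSx0 : 0 ≤ ∑ x ∈ range (M + 1), lam ^ x / (x.factorial : ℝ) := by linarith
  have h4 : ∑ x ∈ range (M + 1), (x : ℝ) * (lam ^ x / (x.factorial : ℝ)) +
      d * ∑ x ∈ range (M + 1), lam ^ x / (x.factorial : ℝ) ≤ 1 / 7 + 1 / 14 * (16 / 15) := by
    have h5 : ∑ x ∈ range (M + 1), lam ^ x / (x.factorial : ℝ) ≤ 16 / 15 := hSy.trans hexp1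
    have h6 : d * ∑ x ∈ range (M + 1), lam ^ x / (x.factorial : ℝ) ≤ 1 / 14 * (16 / 15) :=
      mul_le_mul hd h5 hSx0 (by norm_num)
    linarith
  have h5 := mul_le_mul (hSy.trans hexp1) h4 (add_nonneg
    (Finset.sum_nonneg (fun x _ => by positivity)) (mul_nonneg hd0 hSx0)) (by norm_num)
  refine h5.trans ?_
  norm_num

/-- The sum of squared densities for small horizons. -/
lemma m3d_sum_zz {e : W → V} (he : Function.Injective e) (hj : 1 ≤ j)
    (hn : 56 * (j + 2) ≤ Fintype.card W) {S₀ : Finset (V → Bool)} (hS : ∀ w, CylAt (e w) S₀) {M : ℕ}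
    (hM : (M : ℝ) ≤ (Fintype.card W : ℝ) / (8 * ((j : ℝ) + 1))) :
    ∑ g ∈ range (M + 1), lexp g (fun ω : List (ProperClause W (j + 1)) => zz e (solL e S₀ ω) ^ 2) ≤
      2 / 5 := by
  have hnN : 0 < Fintype.card W := by omega
  have hnpos : (0 : ℝ) < Fintype.card W := by exact_mod_cast hnN
  set n : ℝ := (Fintype.card W : ℝ) with hndef
  have hj1 : (0 : ℝ) < (j : ℝ) + 1 := by positivity
  set T : W × Bool → ℝ := fun l => ∑ g ∈ range (M + 1), lexp g (fun ω : List (ProperClause W (j + 1)) =>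
      if (solL e S₀ ω).Nonempty ∧ l ∈ frozen e (solL e S₀ ω) then
        (1 : ℝ) * zz e (solL e S₀ ω) else 0) with hT
  have hrew : ∑ g ∈ range (M + 1), lexp g (fun ω : List (ProperClause W (j + 1)) =>
      zz e (solL e S₀ ω) ^ 2) = (2 * n)⁻¹ * ∑ l, T l := by
    have h1 : ∀ g, lexp g (fun ω : List (ProperClause W (j + 1)) =>
        zz e (solL e S₀ ω) ^ 2) =
        (2 * n)⁻¹ * ∑ l : W × Bool, lexp g (fun ω : List (ProperClause W (j + 1)) =>
          if (solL e S₀ ω).Nonempty ∧ l ∈ frozen e (solL e S₀ ω) then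
            (1 : ℝ) * zz e (solL e S₀ ω) else 0) := by
      intro g
      rw [← lexp_sum, ← lexp_mul_left]
      apply lexp_congr_len
      intro ω _
      have hz := zz_eq_sum e hnN (solL e S₀ ω)
      have h2 : (∑ l : W × Bool, if (solL e S₀ ω).Nonempty ∧ l ∈ frozen e (solL e S₀ ω) then
            (1 : ℝ) * zz e (solL e S₀ ω) else 0) =
          zz e (solL e S₀ ω) *
            ∑ l : W × Bool, if (solL e S₀ ω).Nonempty ∧ l ∈ frozen e (solL e S₀ ω) then (1 : ℝ) else 0 := by
        rw [Finset.mul_sum]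
        apply Finset.sum_congr rfl
        intro l _
        split_ifs <;> simp
      rw [h2, sq]
      nth_rewrite 2 [hz]
      ring
    simp only [h1]
    rw [← Finset.mul_sum, hT]
    congr 1
    rw [Finset.sum_comm]
  rw [hrew]
  have hgood : ∀ l : W × Bool, T l ≤ 2 / 5 := by
    intro l
    have hϑ : MonotoneOn (fun u : ℝ => u) (Set.Ici 0) := fun _ _ _ _ huv => huv
    have hϑ0 : ∀ u : ℝ, 0 ≤ u → 0 ≤ (fun u : ℝ => u) u := fun _ hu => hu
    have hwm : MonotoneOn (fun _ : ℝ => (1 : ℝ)) (Set.Ici 0) := fun _ _ _ _ _ => le_refl _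
    have hw0 : ∀ u : ℝ, 0 ≤ u → 0 ≤ (fun _ : ℝ => (1 : ℝ)) u := fun _ _ => zero_le_one
    have hex := exch_sum (j := j) he (by omega : j + 2 ≤ Fintype.card W) l (hS l.1)
      (fun _ : ℝ => (1 : ℝ)) (fun u : ℝ => u) hwm hw0 hϑ hϑ0 M
    refine hex.trans ?_
    have hcard : Fintype.card (WW l.1) = Fintype.card W - 1 := card_WW l.1
    have hn1 : j + 1 ≤ Fintype.card (WW l.1) := by omega
    have hcardR : n = (Fintype.card (WW l.1) : ℝ) + 1 := by
      have : Fintype.card W = Fintype.card (WW l.1) + 1 := by omega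
      rw [hndef]
      exact_mod_cast this
    set n' : ℝ := (Fintype.card (WW l.1) : ℝ) with hn'
    have hn'large : 56 * ((j : ℝ) + 2) ≤ n' + 1 := by
      rw [← hcardR, hndef]
      exact_mod_cast hn
    have hn'pos : 0 < n' := by
      have : (0 : ℝ) ≤ j := by positivity
      linarith
    set c : ℝ := ((j : ℝ) + 1) / (2 * n') with hc
    have hc0 : 0 ≤ c := by positivity
    set lam : ℝ := (M : ℝ) * (((j : ℝ) + 1) / n / 2) with hlam
    have hlam0 : 0 ≤ lam := by positivity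
    have hlam1 : lam ≤ 1 / 16 := by
      rw [hlam]
      have h1 : (M : ℝ) * (((j : ℝ) + 1) / n / 2) ≤ (n / (8 * ((j : ℝ) + 1))) * (((j : ℝ) + 1) / n / 2) :=
        mul_le_mul_of_nonneg_right hM (by positivity)
      refine h1.trans (le_of_eq ?_)
      field_simp
      norm_num
    have hd : ((M : ℝ) + 1) * c ≤ 1 / 14 := by
      rw [hc]
      have h1 : ((M : ℝ) + 1) * (((j : ℝ) + 1) / (2 * n')) ≤
          (n / (8 * ((j : ℝ) + 1)) + 1) * (((j : ℝ) + 1) / (2 * n')) :=
        mul_le_mul_of_nonneg_right (by linarith) (by positivity)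
      refine h1.trans ?_
      have h2 : (n / (8 * ((j : ℝ) + 1)) + 1) * (((j : ℝ) + 1) / (2 * n')) =
          (n / 8 + ((j : ℝ) + 1)) / (2 * n') := by
        field_simp
      rw [h2, div_le_iff₀ (by positivity), hcardR]
      nlinarith
    have hd0 : 0 ≤ ((M : ℝ) + 1) * c := by positivity
    have hDS := m3d_double_sum hlam0 hlam1 hd0 hd M
    refine le_trans ?_ hDS
    apply Finset.sum_le_sum
    intro x _
    apply Finset.sum_le_sum
    intro y _
    apply mul_le_mul_of_nonneg_left _ (by positivity)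
    have hnp : Nonempty (ProperClause (WW l.1) j) :=
      Fintype.card_pos_iff.1 (by
        exact_mod_cast card_clause_pos (W := WW l.1) (k := j) (by omega))
    have hnp1 : Nonempty (ProperClause (WW l.1) (j + 1)) :=
      Fintype.card_pos_iff.1 (by
        exact_mod_cast card_clause_pos (W := WW l.1) (k := j + 1) hn1)
    have hbound : ∀ Ys : List (ProperClause (WW l.1) j), Ys.length = y →
        ∑ g ∈ range (M + 1), lexp g (fun Gs : List (ProperClause (WW l.1) (j + 1)) =>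
          phi (solL (eW e l.1) (solL (eW e l.1) S₀ Ys) Gs) *
            vv (eW e l.1) j x (solL (eW e l.1) (solL (eW e l.1) S₀ Ys) Gs) * 1 *
            (zz (eW e l.1) (solL (eW e l.1) (solL (eW e l.1) S₀ Ys) Gs) + 1 / (2 * n))) ≤
          (x : ℝ) + ((M : ℝ) + 1) * c := by
      intro Ys _
      set e' := eW e l.1 with he'
      set RY := solL e' S₀ Ys with hRY
      have hwm1 : MonotoneOn (fun _ : ℝ => (1 : ℝ)) (Set.Ici 0) := fun _ _ _ _ _ => le_refl _
      have hR2 := weighted_R2 e' hj hn1 (fun _ : ℝ => (1 : ℝ)) hwm1 hw0 RY (M + 1) x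
      have hconst : lexp (M + 1) (fun _ : List (ProperClause (WW l.1) (j + 1)) => (1 : ℝ)) = 1 :=
        lexp_const _ _
      have hpt : ∀ g, lexp g (fun Gs : List (ProperClause (WW l.1) (j + 1)) =>
            phi (solL e' RY Gs) * vv e' j x (solL e' RY Gs) * 1 *
              (zz e' (solL e' RY Gs) + 1 / (2 * n))) ≤
          lexp g (fun Gs : List (ProperClause (WW l.1) (j + 1)) =>
            1 * (ztil e' j (solL e' RY Gs) * vv e' j x (solL e' RY Gs))) + c := by
        intro g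
        have h1 : c = lexp g (fun _ : List (ProperClause (WW l.1) (j + 1)) => c) := (lexp_const _ _).symm
        rw [h1, ← lexp_add]
        apply lexp_mono
        intro Gs
        set R := solL e' RY Gs
        have hz := zz_le_ztil e' hn1 R
        have hc2 : (j : ℝ) / (2 * n') + 1 / (2 * n) ≤ c := by
          have h3 : 1 / (2 * n) ≤ 1 / (2 * n') := by
            apply div_le_div_of_nonneg_left (by norm_num) (by positivity)
            rw [hcardR]
            linarith
          have h2 : c = (j : ℝ) / (2 * n') + 1 / (2 * n') := by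
            rw [hc]
            ring
          linarith
        have hv0 := vv_nonneg e' (by omega : j ≤ Fintype.card (WW l.1)) x R
        have hv1 := vv_le_one e' (j := j) x R
        have hph0 := phi_nonneg R
        have hph1 := phi_le_one R
        have h3 : zz e' R + 1 / (2 * n) ≤ ztil e' j R + c := by
          have : zz e' R ≤ ztil e' j R + (j : ℝ) / (2 * n') := hz
          linarith
        have h30 : 0 ≤ zz e' R + 1 / (2 * n) := by
          have := zz_nonneg e' R
          positivity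
        have h4 : phi R * vv e' j x R ≤ vv e' j x R := by nlinarith
        calc phi R * vv e' j x R * 1 * (zz e' R + 1 / (2 * n))
            = (phi R * vv e' j x R) * (zz e' R + 1 / (2 * n)) := by ring
          _ ≤ vv e' j x R * (ztil e' j R + c) := mul_le_mul h4 h3 h30 hv0
          _ ≤ 1 * (ztil e' j R * vv e' j x R) + c := by nlinarith
      have hsum : ∑ g ∈ range (M + 1), lexp g (fun Gs : List (ProperClause (WW l.1) (j + 1)) =>
            phi (solL e' RY Gs) * vv e' j x (solL e' RY Gs) * 1 *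
              (zz e' (solL e' RY Gs) + 1 / (2 * n))) ≤
          ∑ g ∈ range (M + 1), (lexp g (fun Gs : List (ProperClause (WW l.1) (j + 1)) =>
            1 * (ztil e' j (solL e' RY Gs) * vv e' j x (solL e' RY Gs))) + c) :=
        Finset.sum_le_sum (fun g _ => hpt g)
      refine hsum.trans ?_
      rw [Finset.sum_add_distrib]
      simp only [Finset.sum_const, Finset.card_range, nsmul_eq_mul]
      rw [hconst] at hR2
      push_cast
      linarith
    have h1 := lexp_mono_len (m := y) hbound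
    rw [lexp_const] at h1
    refine le_trans (le_of_eq ?_) h1
    apply lexp_congr_len
    intro Ys _
    apply Finset.sum_congr rfl
    intro g _
    apply lexp_congr_len
    intro l' _
    rfl
  have hsum : ∑ l, T l ≤ (2 * n) * (2 / 5) := by
    refine (Finset.sum_le_sum (fun l _ => hgood l)).trans (le_of_eq ?_)
    simp only [Finset.sum_const, Finset.card_univ, Fintype.card_prod, Fintype.card_bool, nsmul_eq_mul]
    push_cast
    rw [hndef]
    ring
  calc (2 * n)⁻¹ * ∑ l, T l ≤ (2 * n)⁻¹ * ((2 * n) * (2 / 5)) :=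
        mul_le_mul_of_nonneg_left hsum (by positivity)
    _ = 2 / 5 := by
        field_simp

end Death

/-- Explicit smallness for small horizons (used for positivity of the threshold). -/
theorem death_small {j : ℕ} (hj : 2 ≤ j) :
    ∃ (c₀ : ℝ) (N : ℕ), 0 < c₀ ∧ ∀ n, N ≤ n → (3 / 5 : ℝ) ≤ satProb (j + 1) n ⌊c₀ * (n : ℝ)⌋₊ := by
  refine ⟨1 / (8 * ((j : ℝ) + 1)), 56 * (j + 2), by positivity, ?_⟩
  intro n hn
  have hcard : Fintype.card (Fin n) = n := Fintype.card_fin n
  set M : ℕ := ⌊1 / (8 * ((j : ℝ) + 1)) * (n : ℝ)⌋₊ with hMdef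
  have hM : (M : ℝ) ≤ (Fintype.card (Fin n) : ℝ) / (8 * ((j : ℝ) + 1)) := by
    have h1 : (M : ℝ) ≤ 1 / (8 * ((j : ℝ) + 1)) * (n : ℝ) := Nat.floor_le (by positivity)
    rw [hcard]
    refine h1.trans (le_of_eq ?_)
    ring
  have hnc : 56 * (j + 2) ≤ Fintype.card (Fin n) := by rw [hcard]; exact hn
  have hS : ∀ w : Fin n, CylAt ((id : Fin n → Fin n) w) (univ : Finset (Fin n → Bool)) :=
    fun w σ _ => Finset.mem_univ _
  have hsum := m3d_sum_zz (j := j) (e := (id : Fin n → Fin n)) Function.injective_id (by omega) hnc hS hM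
  have hj1n : j + 1 ≤ Fintype.card (Fin n) := by omega
  have hP : satProb (j + 1) n M = 1 - vv (id : Fin n → Fin n) (j + 1) M univ := by
    unfold vv
    rw [avg_pow_eq (k := j + 1) (id : Fin n → Fin n) Function.injective_id]
    ring
  rw [hP]
  have huniv : (univ : Finset (Fin n → Bool)).Nonempty := ⟨fun _ => true, Finset.mem_univ _⟩
  have htel : vv (id : Fin n → Fin n) (j + 1) M univ =
      ∑ s ∈ range M, (vv (id : Fin n → Fin n) (j + 1) (s + 1) univ -
        vv (id : Fin n → Fin n) (j + 1) s univ) := by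
    rw [Finset.sum_range_sub (fun s => vv (id : Fin n → Fin n) (j + 1) s univ),
      vv_zero_of_nonempty _ huniv, sub_zero]
  have hle : vv (id : Fin n → Fin n) (j + 1) M univ ≤
      ∑ g ∈ range (M + 1), lexp g (fun ω : List (ProperClause (Fin n) (j + 1)) =>
        zz (id : Fin n → Fin n) (solL (id : Fin n → Fin n) univ ω) ^ 2) := by
    rw [htel, Finset.sum_range_succ]
    have hnn : 0 ≤ lexp M (fun ω : List (ProperClause (Fin n) (j + 1)) =>
        zz (id : Fin n → Fin n) (solL (id : Fin n → Fin n) univ ω) ^ 2) :=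
      lexp_nonneg (fun l => by positivity)
    have hs : ∑ s ∈ range M, (vv (id : Fin n → Fin n) (j + 1) (s + 1) univ -
        vv (id : Fin n → Fin n) (j + 1) s univ) ≤
        ∑ g ∈ range M, lexp g (fun ω : List (ProperClause (Fin n) (j + 1)) =>
        zz (id : Fin n → Fin n) (solL (id : Fin n → Fin n) univ ω) ^ 2) := by
      apply Finset.sum_le_sum
      intro s _
      rw [vv_succ_sub _ hj1n s univ]
      apply lexp_mono
      intro l
      by_cases hT : (solL (id : Fin n → Fin n) univ l).Nonempty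
      · rw [if_pos hT]
        have hk := kappa_le_zz_pow (id : Fin n → Fin n) hj1n (by omega) hT
        have hz0 := zz_nonneg (id : Fin n → Fin n) (solL (id : Fin n → Fin n) univ l)
        have hz1 := zz_le_half (id : Fin n → Fin n) (solL (id : Fin n → Fin n) univ l)
        exact hk.trans (pow_le_pow_of_le_one hz0 (by linarith) (by omega))
      · rw [if_neg hT]
        positivity
    linarith
  linarith

end Bounds

end Vale.Agent.Lib.P170
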