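import Mathlib
import Vale.Agent.Lib.P170.W.Level

/-!
M4: Efron-Stein with swap symmetry: variance of the death time.  Abstract clause system.
-/

set_option linter.unusedSectionVars false

open Finset

namespace Vale.Agent.Lib.P170

section ES

variable {A X : Type} [DecidableEq A] [Fintype X] [Nonempty X]

/-- Uniform average over tuples. -/
noncomputable def avgT {M : ℕ} (f : (Fin M → X) → ℝ) : ℝ :=
  ((Fintype.card X : ℝ) ^ M)⁻¹ * ∑ ω, f ω

/-- average over one coordinate -/
noncomputable def es_avg (h : X → ℝ) : ℝ := (Fintype.card X : ℝ)⁻¹ * ∑ x, h x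

lemma es_card_ne : (Fintype.card X : ℝ) ≠ 0 := by
  exact_mod_cast Fintype.card_ne_zero

lemma es_avgT_succ {M : ℕ} (F : (Fin (M + 1) → X) → ℝ) :
    avgT F = es_avg (fun x => avgT (fun l : Fin M → X => F (Fin.cons x l))) := by
  unfold avgT es_avg
  have h : ∑ ω, F ω = ∑ x : X, ∑ l : Fin M → X, F (Fin.cons x l) := by
    rw [← Fintype.sum_prod_type']
    exact (Fintype.sum_equiv (Fin.consEquiv (fun _ => X)) _ _ (fun p => rfl)).symm
  rw [h, Finset.mul_sum, Finset.mul_sum]
  apply Finset.sum_congr rfl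
  intro x _
  rw [Finset.mul_sum, Finset.mul_sum, Finset.mul_sum]
  apply Finset.sum_congr rfl
  intro l _
  rw [pow_succ, mul_inv]
  ring

lemma es_avgT_zero (f : (Fin 0 → X) → ℝ) : avgT f = f (fun i => i.elim0) := by
  unfold avgT
  simp only [pow_zero, inv_one, one_mul]
  rw [Fintype.sum_unique]
  exact congrArg f (Subsingleton.elim _ _)

lemma es_avgT_mono {M : ℕ} {f g : (Fin M → X) → ℝ} (h : ∀ ω, f ω ≤ g ω) : avgT f ≤ avgT g := by
  unfold avgT
  apply mul_le_mul_of_nonneg_left (Finset.sum_le_sum (fun ω _ => h ω)) (by positivity)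

lemma es_avg_mono {f g : X → ℝ} (h : ∀ x, f x ≤ g x) : es_avg f ≤ es_avg g := by
  unfold es_avg
  apply mul_le_mul_of_nonneg_left (Finset.sum_le_sum (fun ω _ => h ω)) (by positivity)

lemma es_avgT_const {M : ℕ} (c : ℝ) : avgT (fun _ : Fin M → X => c) = c := by
  unfold avgT
  simp only [Finset.sum_const, Finset.card_univ, Fintype.card_pi, Finset.prod_const, nsmul_eq_mul]
  have : (Fintype.card X : ℝ) ≠ 0 := es_card_ne
  simp only [Fintype.card_fin, Nat.cast_pow]
  field_simp

lemma es_avg_const (c : ℝ) : es_avg (fun _ : X => c) = c := by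
  unfold es_avg
  have : (Fintype.card X : ℝ) ≠ 0 := es_card_ne
  simp only [Finset.sum_const, Finset.card_univ, nsmul_eq_mul]
  field_simp

lemma es_avgT_add {M : ℕ} (f g : (Fin M → X) → ℝ) :
    avgT (fun ω => f ω + g ω) = avgT f + avgT g := by
  unfold avgT
  rw [Finset.sum_add_distrib, mul_add]

lemma es_avgT_mul_left {M : ℕ} (c : ℝ) (f : (Fin M → X) → ℝ) :
    avgT (fun ω => c * f ω) = c * avgT f := by
  unfold avgT
  rw [← Finset.mul_sum]
  ring

lemma es_avg_add (f g : X → ℝ) :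
    es_avg (fun ω => f ω + g ω) = es_avg f + es_avg g := by
  unfold es_avg
  rw [Finset.sum_add_distrib, mul_add]

lemma es_avg_mul_left (c : ℝ) (f : X → ℝ) :
    es_avg (fun ω => c * f ω) = c * es_avg f := by
  unfold es_avg
  rw [← Finset.mul_sum]
  ring

lemma es_avg_sum {ι : Type} (s : Finset ι) (h : ι → X → ℝ) :
    es_avg (fun x => ∑ i ∈ s, h i x) = ∑ i ∈ s, es_avg (h i) := by
  unfold es_avg
  rw [Finset.sum_comm, Finset.mul_sum]

/-- variance identity: for any constant `c`, `E (f-c)^2 = E (f - Ef)^2 + (Ef-c)^2`. -/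
lemma es_avgT_sq_decomp {M : ℕ} (f : (Fin M → X) → ℝ) (c : ℝ) :
    avgT (fun ω => (f ω - c) ^ 2) = avgT (fun ω => (f ω - avgT f) ^ 2) + (avgT f - c) ^ 2 := by
  have e1 : (fun ω => (f ω - c) ^ 2) =
      fun ω => f ω ^ 2 + (-2 * c * f ω + c ^ 2) := by funext ω; ring
  have e2 : (fun ω => (f ω - avgT f) ^ 2) =
      fun ω => f ω ^ 2 + (-2 * avgT f * f ω + avgT f ^ 2) := by funext ω; ring
  rw [e1, e2, es_avgT_add, es_avgT_add, es_avgT_add, es_avgT_add, es_avgT_mul_left, es_avgT_mul_left,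
    es_avgT_const, es_avgT_const]
  ring

lemma es_avg_sq_decomp (f : X → ℝ) (c : ℝ) :
    es_avg (fun ω => (f ω - c) ^ 2) = es_avg (fun ω => (f ω - es_avg f) ^ 2) + (es_avg f - c) ^ 2 := by
  have e1 : (fun ω => (f ω - c) ^ 2) =
      fun ω => f ω ^ 2 + (-2 * c * f ω + c ^ 2) := by funext ω; ring
  have e2 : (fun ω => (f ω - es_avg f) ^ 2) =
      fun ω => f ω ^ 2 + (-2 * es_avg f * f ω + es_avg f ^ 2) := by funext ω; ring
  rw [e1, e2, es_avg_add, es_avg_add, es_avg_add, es_avg_add, es_avg_mul_left, es_avg_mul_left,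
    es_avg_const, es_avg_const]
  ring

/-- Jensen: `(E g)^2 ≤ E g^2`. -/
lemma es_avgT_sq_le {M : ℕ} (g : (Fin M → X) → ℝ) : (avgT g) ^ 2 ≤ avgT (fun ω => g ω ^ 2) := by
  have h := es_avgT_sq_decomp g 0
  have h2 : 0 ≤ avgT (fun ω => (g ω - avgT g) ^ 2) := by
    have := es_avgT_mono (f := fun _ : Fin M → X => (0 : ℝ)) (g := fun ω => (g ω - avgT g) ^ 2)
      (fun ω => sq_nonneg _)
    rwa [es_avgT_const] at this
  simp only [sub_zero] at h
  linarith

/-- Efron-Stein (jackknife form): `f i` does not depend on coordinate `i`. -/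
theorem efron_stein {M : ℕ} (f : (Fin M → X) → ℝ) (fi : Fin M → (Fin M → X) → ℝ)
    (hfi : ∀ i ω y, fi i (Function.update ω i y) = fi i ω) :
    avgT (fun ω => (f ω - avgT f) ^ 2) ≤ ∑ i, avgT (fun ω => (f ω - fi i ω) ^ 2) := by
  induction M with
  | zero =>
    simp only [Finset.univ_eq_empty, Finset.sum_empty]
    have : avgT f = f (fun i => i.elim0) := es_avgT_zero f
    rw [es_avgT_zero, this]
    have e : f (fun i => i.elim0) = f (fun i => i.elim0) := rfl
    simp
  | succ M ih =>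
    classical
    -- notation
    set h : X → ℝ := fun x => avgT (fun l : Fin M → X => f (Fin.cons x l)) with hh
    have hmean : avgT f = es_avg h := es_avgT_succ f
    -- decomposition
    have hdec : avgT (fun ω => (f ω - avgT f) ^ 2) =
        es_avg (fun x => avgT (fun l : Fin M → X => (f (Fin.cons x l) - h x) ^ 2)) +
          es_avg (fun x => (h x - es_avg h) ^ 2) := by
      rw [es_avgT_succ, ← es_avg_add]
      congr 1
      funext x
      rw [hmean]
      exact es_avgT_sq_decomp (fun l : Fin M → X => f (Fin.cons x l)) (es_avg h)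
    -- term 1
    have hterm1 : ∀ x, avgT (fun l : Fin M → X => (f (Fin.cons x l) - h x) ^ 2) ≤
        ∑ i : Fin M, avgT (fun l : Fin M → X =>
          (f (Fin.cons x l) - fi i.succ (Fin.cons x l)) ^ 2) := by
      intro x
      apply ih (fun l => f (Fin.cons x l)) (fun i l => fi i.succ (Fin.cons x l))
      intro i ω y
      rw [Fin.cons_update, hfi]
    -- term 2
    obtain ⟨x₀⟩ := ‹Nonempty X›
    set e : (Fin M → X) → ℝ := fun l => fi 0 (Fin.cons x₀ l) with he
    have hfi0 : ∀ x l, fi 0 (Fin.cons x l) = e l := by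
      intro x l
      have := hfi 0 (Fin.cons x l) x₀
      rw [← this, Fin.update_cons_zero]
    have hterm2 : es_avg (fun x => (h x - es_avg h) ^ 2) ≤
        avgT (fun ω => (f ω - fi 0 ω) ^ 2) := by
      have h1 : es_avg (fun x => (h x - es_avg h) ^ 2) ≤ es_avg (fun x => (h x - avgT e) ^ 2) := by
        rw [es_avg_sq_decomp h (avgT e)]
        nlinarith [sq_nonneg (es_avg h - avgT e)]
      refine h1.trans ?_
      rw [es_avgT_succ]
      apply es_avg_mono
      intro x
      have h2 : h x - avgT e = avgT (fun l : Fin M → X => f (Fin.cons x l) - e l) := by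
        have := es_avgT_add (fun l : Fin M → X => f (Fin.cons x l)) (fun l => (-1) * e l)
        rw [es_avgT_mul_left] at this
        have e3 : (fun l : Fin M → X => f (Fin.cons x l) + (-1) * e l) =
            fun l => f (Fin.cons x l) - e l := by funext l; ring
        rw [e3] at this
        rw [this]
        ring
      rw [h2]
      refine (es_avgT_sq_le _).trans (le_of_eq ?_)
      congr 1
      funext l
      rw [hfi0]
    -- assemble
    rw [hdec, Fin.sum_univ_succ]
    have hsum : es_avg (fun x => avgT (fun l : Fin M → X => (f (Fin.cons x l) - h x) ^ 2)) ≤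
        ∑ i : Fin M, avgT (fun ω => (f ω - fi i.succ ω) ^ 2) := by
      refine (es_avg_mono hterm1).trans (le_of_eq ?_)
      rw [es_avg_sum]
      apply Finset.sum_congr rfl
      intro i _
      rw [es_avgT_succ (fun ω => (f ω - fi i.succ ω) ^ 2)]
    linarith

/-- Solutions of the clauses of `ω` with index in `I`. -/
noncomputable def solT (sat : X → Finset A) (S₀ : Finset A) {M : ℕ} (ω : Fin M → X)
    (I : Finset (Fin M)) : Finset A :=
  S₀.filter (fun σ => ∀ k ∈ I, σ ∈ sat (ω k))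

/-- Prefix solution set: the clauses of index `< m`. -/
noncomputable def preT (sat : X → Finset A) (S₀ : Finset A) {M : ℕ} (ω : Fin M → X) (m : ℕ) :
    Finset A :=
  S₀.filter (fun σ => ∀ k : Fin M, k.val < m → σ ∈ sat (ω k))

/-- The clipped death time: the number of alive prefixes of length `< M`. -/
noncomputable def tauT (sat : X → Finset A) (S₀ : Finset A) {M : ℕ} (ω : Fin M → X) : ℝ :=
  ∑ m ∈ range M, phi (preT sat S₀ ω m)

lemma m4b_avgT_mono {M : ℕ} {f g : (Fin M → X) → ℝ} (h : ∀ ω, f ω ≤ g ω) : avgT f ≤ avgT g := by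
  unfold avgT
  apply mul_le_mul_of_nonneg_left _ (by positivity)
  exact Finset.sum_le_sum (fun ω _ => h ω)

lemma m4b_avgT_nonneg {M : ℕ} {f : (Fin M → X) → ℝ} (h : ∀ ω, 0 ≤ f ω) : 0 ≤ avgT f := by
  unfold avgT
  apply mul_nonneg (by positivity)
  exact Finset.sum_nonneg (fun ω _ => h ω)

lemma m4b_avgT_sum {M : ℕ} {ι : Type} (s : Finset ι) (f : ι → (Fin M → X) → ℝ) :
    avgT (fun ω => ∑ i ∈ s, f i ω) = ∑ i ∈ s, avgT (f i) := by
  unfold avgT
  rw [Finset.sum_comm, Finset.mul_sum]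

lemma m4b_phi_mono {S S' : Finset A} (h : S ⊆ S') : phi S ≤ phi S' := by
  by_cases hS : S.Nonempty
  · rw [phi_nonempty hS, phi_nonempty (hS.mono h)]
  · rw [Finset.not_nonempty_iff_eq_empty] at hS
    rw [hS, phi_empty]
    exact phi_nonneg _

/-- The prefix without the clause of index `i`. -/
noncomputable def m4b_preR (sat : X → Finset A) (S₀ : Finset A) {M : ℕ} (ω : Fin M → X) (i : Fin M)
    (m : ℕ) : Finset A :=
  S₀.filter (fun σ => ∀ k : Fin M, k.val < m → k ≠ i → σ ∈ sat (ω k))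

/-- The death time without the clause of index `i`. -/
noncomputable def m4b_fR (sat : X → Finset A) (S₀ : Finset A) {M : ℕ} (ω : Fin M → X) (i : Fin M) : ℝ :=
  ∑ m ∈ range M, phi (m4b_preR sat S₀ ω i m)

/-- Increase of the death time by removing the clause of index `i`. -/
noncomputable def m4b_dd (sat : X → Finset A) (S₀ : Finset A) {M : ℕ} (ω : Fin M → X) (i : Fin M) : ℝ :=
  m4b_fR sat S₀ ω i - tauT sat S₀ ω

lemma m4b_mem_preT (sat : X → Finset A) (S₀ : Finset A) {M : ℕ} (ω : Fin M → X) (m : ℕ) (σ : A) :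
    σ ∈ preT sat S₀ ω m ↔ σ ∈ S₀ ∧ ∀ k : Fin M, k.val < m → σ ∈ sat (ω k) := by
  simp [preT]

lemma m4b_mem_preR (sat : X → Finset A) (S₀ : Finset A) {M : ℕ} (ω : Fin M → X) (i : Fin M) (m : ℕ)
    (σ : A) : σ ∈ m4b_preR sat S₀ ω i m ↔ σ ∈ S₀ ∧ ∀ k : Fin M, k.val < m → k ≠ i → σ ∈ sat (ω k) := by
  simp [m4b_preR]

lemma m4b_preT_anti (sat : X → Finset A) (S₀ : Finset A) {M : ℕ} (ω : Fin M → X) {m m' : ℕ}
    (h : m ≤ m') : preT sat S₀ ω m' ⊆ preT sat S₀ ω m := by
  intro σ hσ
  rw [m4b_mem_preT] at hσ ⊢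
  exact ⟨hσ.1, fun k hk => hσ.2 k (by omega)⟩

lemma m4b_preR_anti (sat : X → Finset A) (S₀ : Finset A) {M : ℕ} (ω : Fin M → X) (i : Fin M)
    {m m' : ℕ} (h : m ≤ m') : m4b_preR sat S₀ ω i m' ⊆ m4b_preR sat S₀ ω i m := by
  intro σ hσ
  rw [m4b_mem_preR] at hσ ⊢
  exact ⟨hσ.1, fun k hk => hσ.2 k (by omega)⟩

lemma m4b_preT_sub (sat : X → Finset A) (S₀ : Finset A) {M : ℕ} (ω : Fin M → X) (i : Fin M) (m : ℕ) :
    preT sat S₀ ω m ⊆ m4b_preR sat S₀ ω i m := by
  intro σ hσ
  rw [m4b_mem_preT] at hσ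
  rw [m4b_mem_preR]
  exact ⟨hσ.1, fun k hk _ => hσ.2 k hk⟩

lemma m4b_fR_update (sat : X → Finset A) (S₀ : Finset A) {M : ℕ} (ω : Fin M → X) (i : Fin M) (y : X) :
    m4b_fR sat S₀ (Function.update ω i y) i = m4b_fR sat S₀ ω i := by
  unfold m4b_fR
  apply Finset.sum_congr rfl
  intro m _
  congr 1
  ext σ
  rw [m4b_mem_preR, m4b_mem_preR]
  constructor
  · rintro ⟨h0, h1⟩
    refine ⟨h0, fun k hk hki => ?_⟩
    have := h1 k hk hki
    rwa [Function.update_of_ne hki] at this
  · rintro ⟨h0, h1⟩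
    refine ⟨h0, fun k hk hki => ?_⟩
    rw [Function.update_of_ne hki]
    exact h1 k hk hki

lemma m4b_dd_nonneg (sat : X → Finset A) (S₀ : Finset A) {M : ℕ} (ω : Fin M → X) (i : Fin M) :
    0 ≤ m4b_dd sat S₀ ω i := by
  unfold m4b_dd m4b_fR tauT
  rw [sub_nonneg]
  exact Finset.sum_le_sum (fun m _ => m4b_phi_mono (m4b_preT_sub sat S₀ ω i m))

/-- A removal changing the death time forces a death event, at an index at least `i`. -/
lemma m4b_cover (sat : X → Finset A) (S₀ : Finset A) {M : ℕ} (ω : Fin (M + 1) → X) (i : Fin (M + 1))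
    (hd : m4b_dd sat S₀ ω i ≠ 0) :
    ∃ t : Fin M, i.val ≤ t.val ∧ (preT sat S₀ ω t.val).Nonempty ∧ preT sat S₀ ω (t.val + 1) = ∅ ∧
      (m4b_preR sat S₀ ω i (t.val + 1)).Nonempty := by
  classical
  have h1 : ∃ m ∈ range (M + 1), phi (m4b_preR sat S₀ ω i m) ≠ phi (preT sat S₀ ω m) := by
    by_contra hcon
    push Not at hcon
    apply hd
    unfold m4b_dd m4b_fR tauT
    rw [sub_eq_zero]
    exact Finset.sum_congr rfl hcon
  obtain ⟨m, hm, hne⟩ := h1
  have hmM : m ≤ M := by
    have := Finset.mem_range.1 hm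
    omega
  have hR : (m4b_preR sat S₀ ω i m).Nonempty := by
    by_contra hcon
    rw [Finset.not_nonempty_iff_eq_empty] at hcon
    have h2 : preT sat S₀ ω m = ∅ :=
      Finset.subset_empty.1 (by rw [← hcon]; exact m4b_preT_sub sat S₀ ω i m)
    rw [hcon, h2] at hne
    exact hne rfl
  have hT : preT sat S₀ ω m = ∅ := by
    by_contra hcon
    have hcon' : (preT sat S₀ ω m).Nonempty := Finset.nonempty_iff_ne_empty.2 hcon
    rw [phi_nonempty hR, phi_nonempty hcon'] at hne
    exact hne rfl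
  have hex : ∃ m', preT sat S₀ ω m' = ∅ := ⟨m, hT⟩
  set m0 := Nat.find hex with hm0
  have hm0spec : preT sat S₀ ω m0 = ∅ := Nat.find_spec hex
  have hm0le : m0 ≤ m := Nat.find_min' hex hT
  have hm0pos : m0 ≠ 0 := by
    intro h0
    rw [h0] at hm0spec
    obtain ⟨σ, hσ⟩ := hR
    rw [m4b_mem_preR] at hσ
    have : σ ∈ preT sat S₀ ω 0 := by
      rw [m4b_mem_preT]
      exact ⟨hσ.1, fun k hk => absurd hk (by omega)⟩
    rw [hm0spec] at this
    simp at this
  obtain ⟨t, ht⟩ : ∃ t, m0 = t + 1 := ⟨m0 - 1, by omega⟩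
  have htM : t < M := by omega
  have halive : (preT sat S₀ ω t).Nonempty := by
    have := Nat.find_min hex (m := t) (by omega)
    exact Finset.nonempty_iff_ne_empty.2 this
  have hdead : preT sat S₀ ω (t + 1) = ∅ := by rw [← ht]; exact hm0spec
  have hcrit : (m4b_preR sat S₀ ω i (t + 1)).Nonempty :=
    hR.mono (m4b_preR_anti sat S₀ ω i (by omega))
  refine ⟨⟨t, htM⟩, ?_, halive, hdead, hcrit⟩
  show i.val ≤ t
  by_contra hit
  push Not at hit
  obtain ⟨σ, hσ⟩ := hcrit
  rw [m4b_mem_preR] at hσ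
  have : σ ∈ preT sat S₀ ω (t + 1) := by
    rw [m4b_mem_preT]
    refine ⟨hσ.1, fun k hk => hσ.2 k hk ?_⟩
    intro hki
    rw [hki] at hk
    omega
  rw [hdead] at this
  simp at this

/-- Transport of the condition on all clauses with index in a set by a swap. -/
lemma m4b_swap_forall {M : ℕ} (ω : Fin M → X) (sat : X → Finset A) (s : Equiv.Perm (Fin M))
    (hs : ∀ k, s (s k) = k) (P Q : Fin M → Prop) (hPQ : ∀ k, P k ↔ Q (s k)) (σ : A) :
    (∀ k, P k → σ ∈ sat (ω (s k))) ↔ (∀ k, Q k → σ ∈ sat (ω k)) := by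
  constructor
  · intro h k hk
    have := h (s k) ((hPQ _).2 (by rwa [hs]))
    rwa [hs] at this
  · intro h k hk
    exact h (s k) ((hPQ k).1 hk)

/-- Facts on the swap. -/
lemma m4b_swap_val {M : ℕ} (i j k : Fin M) :
    (Equiv.swap i j k).val = if k = i then j.val else if k = j then i.val else k.val := by
  rw [Equiv.swap_apply_def]
  split_ifs <;> rfl

lemma m4b_swap_swap {M : ℕ} (i j k : Fin M) : Equiv.swap i j (Equiv.swap i j k) = k :=
  Equiv.swap_apply_self i j k

/-- The swap symmetry on the event `E`. -/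
lemma m4b_swap_event (sat : X → Finset A) (S₀ : Finset A) {M : ℕ} (ω : Fin (M + 1) → X)
    (i : Fin (M + 1)) (t : Fin M) (hit : i.val ≤ t.val)
    (halive : (preT sat S₀ ω t.val).Nonempty) (hdead : preT sat S₀ ω (t.val + 1) = ∅)
    (hcrit : (m4b_preR sat S₀ ω i (t.val + 1)).Nonempty) :
    (preT sat S₀ (ω ∘ Equiv.swap i t.castSucc) t.val).Nonempty ∧
      preT sat S₀ (ω ∘ Equiv.swap i t.castSucc) (t.val + 1) = ∅ ∧
      m4b_dd sat S₀ (ω ∘ Equiv.swap i t.castSucc) t.castSucc = m4b_dd sat S₀ ω i := by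
  set j : Fin (M + 1) := t.castSucc with hj
  have hjv : j.val = t.val := rfl
  set s : Equiv.Perm (Fin (M + 1)) := Equiv.swap i j with hs
  have hss : ∀ k, s (s k) = k := fun k => m4b_swap_swap i j k
  have hsv : ∀ k, (s k).val = if k = i then j.val else if k = j then i.val else k.val :=
    fun k => m4b_swap_val i j k
  set ω' : Fin (M + 1) → X := ω ∘ s with hω'
  -- (a)
  have ha : preT sat S₀ ω' (t.val + 1) = preT sat S₀ ω (t.val + 1) := by
    ext σ
    rw [m4b_mem_preT, m4b_mem_preT]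
    apply and_congr_right
    intro _
    apply m4b_swap_forall ω sat s hss
    intro k
    rw [hsv]
    split_ifs with h1 h2
    · subst h1; omega
    · subst h2; omega
    · exact Iff.rfl
  -- (b)
  have hb : preT sat S₀ ω' t.val = m4b_preR sat S₀ ω i (t.val + 1) := by
    ext σ
    rw [m4b_mem_preT, m4b_mem_preR]
    apply and_congr_right
    intro _
    have := m4b_swap_forall ω sat s hss (fun k => k.val < t.val)
      (fun k => k.val < t.val + 1 ∧ k ≠ i) (by
        intro k
        show k.val < t.val ↔ (s k).val < t.val + 1 ∧ s k ≠ i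
        have hsi : s k ≠ i ↔ k ≠ j := by
          rw [hs, ne_eq, ne_eq, Equiv.swap_apply_eq_iff, Equiv.swap_apply_left]
        rw [hsi, hsv]
        by_cases h1 : k = i
        · subst h1
          by_cases h2 : k = j
          · subst h2; simp; omega
          · have h3 : k.val ≠ j.val := fun h => h2 (Fin.ext h)
            simp [h2]; omega
        · by_cases h2 : k = j
          · subst h2; simp [h1]; omega
          · have h3 : k.val ≠ j.val := fun h => h2 (Fin.ext h)
            simp [h1, h2]; omega) σ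
    constructor
    · intro h k hk hki
      exact this.1 h k ⟨hk, hki⟩
    · intro h k hk
      exact this.2 (fun k hk' => h k hk'.1 hk'.2) k hk
  -- (c)
  have hc : ∀ m, t.val + 1 ≤ m → m4b_preR sat S₀ ω' j m = m4b_preR sat S₀ ω i m := by
    intro m hm
    ext σ
    rw [m4b_mem_preR, m4b_mem_preR]
    apply and_congr_right
    intro _
    have := m4b_swap_forall ω sat s hss (fun k => k.val < m ∧ k ≠ j)
      (fun k => k.val < m ∧ k ≠ i) (by
        intro k
        show k.val < m ∧ k ≠ j ↔ (s k).val < m ∧ s k ≠ i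
        have hsi : s k ≠ i ↔ k ≠ j := by
          rw [hs, ne_eq, ne_eq, Equiv.swap_apply_eq_iff, Equiv.swap_apply_left]
        rw [hsi, hsv]
        apply and_congr_left
        intro hkj
        by_cases h1 : k = i
        · subst h1; simp; omega
        · simp [h1, hkj]) σ
    constructor
    · intro h k hk hki
      exact this.1 (fun k hk' => h k hk'.1 hk'.2) k ⟨hk, hki⟩
    · intro h k hk hkj
      exact this.2 (fun k hk' => h k hk'.1 hk'.2) k ⟨hk, hkj⟩
  have hA : (preT sat S₀ ω' t.val).Nonempty := by rw [hb]; exact hcrit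
  have hD : preT sat S₀ ω' (t.val + 1) = ∅ := by rw [ha]; exact hdead
  refine ⟨hA, hD, ?_⟩
  unfold m4b_dd m4b_fR tauT
  have hterm1 : ∀ m ∈ range (M + 1), phi (m4b_preR sat S₀ ω' j m) = phi (m4b_preR sat S₀ ω i m) := by
    intro m _
    by_cases hm : t.val + 1 ≤ m
    · rw [hc m hm]
    · have hm' : m ≤ t.val := by omega
      rw [phi_nonempty ((hA.mono (m4b_preT_anti sat S₀ ω' hm')).mono (m4b_preT_sub sat S₀ ω' j m)),
        phi_nonempty ((halive.mono (m4b_preT_anti sat S₀ ω hm')).mono (m4b_preT_sub sat S₀ ω i m))]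
  have hterm2 : ∀ m ∈ range (M + 1), phi (preT sat S₀ ω' m) = phi (preT sat S₀ ω m) := by
    intro m _
    by_cases hm : t.val + 1 ≤ m
    · have h1 : preT sat S₀ ω' m = ∅ :=
        Finset.subset_empty.1 (by rw [← hD]; exact m4b_preT_anti sat S₀ ω' hm)
      have h2 : preT sat S₀ ω m = ∅ :=
        Finset.subset_empty.1 (by rw [← hdead]; exact m4b_preT_anti sat S₀ ω hm)
      rw [h1, h2]
    · have hm' : m ≤ t.val := by omega
      rw [phi_nonempty (hA.mono (m4b_preT_anti sat S₀ ω' hm')),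
        phi_nonempty (halive.mono (m4b_preT_anti sat S₀ ω hm'))]
  rw [Finset.sum_congr rfl hterm1, Finset.sum_congr rfl hterm2]

/-- The event term at the last clause. -/
noncomputable def m4b_B (sat : X → Finset A) (S₀ : Finset A) {M : ℕ} (t : Fin M) (ω : Fin (M + 1) → X) : ℝ :=
  if (preT sat S₀ ω t.val).Nonempty ∧ preT sat S₀ ω (t.val + 1) = ∅ then
    (m4b_dd sat S₀ ω t.castSucc) ^ 2 else 0

lemma m4b_B_nonneg (sat : X → Finset A) (S₀ : Finset A) {M : ℕ} (t : Fin M) (ω : Fin (M + 1) → X) :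
    0 ≤ m4b_B sat S₀ t ω := by
  unfold m4b_B
  split_ifs <;> positivity

/-- Reindexing an average by a permutation of the coordinates. -/
lemma m4b_avgT_swap {M : ℕ} (i j : Fin M) (h : (Fin M → X) → ℝ) :
    avgT (fun ω => h (ω ∘ Equiv.swap i j)) = avgT h := by
  unfold avgT
  congr 1
  let E : (Fin M → X) ≃ (Fin M → X) :=
    { toFun := fun ω => ω ∘ Equiv.swap i j
      invFun := fun ω => ω ∘ Equiv.swap i j
      left_inv := fun ω => by
        funext k
        simp
      right_inv := fun ω => by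
        funext k
        simp }
  exact Equiv.sum_comp E h

/-- Swap bound. -/
lemma m4b_term_swap (sat : X → Finset A) (S₀ : Finset A) {M : ℕ} (i : Fin (M + 1)) (t : Fin M) :
    avgT (fun ω : Fin (M + 1) → X =>
        if i.val ≤ t.val ∧ (preT sat S₀ ω t.val).Nonempty ∧ preT sat S₀ ω (t.val + 1) = ∅ ∧
            (m4b_preR sat S₀ ω i (t.val + 1)).Nonempty then (m4b_dd sat S₀ ω i) ^ 2 else 0) ≤
      avgT (m4b_B sat S₀ t) := by
  rw [← m4b_avgT_swap i t.castSucc (m4b_B sat S₀ t)]
  apply m4b_avgT_mono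
  intro ω
  split_ifs with h
  · obtain ⟨h1, h2, h3, h4⟩ := h
    obtain ⟨h5, h6, h7⟩ := m4b_swap_event sat S₀ ω i t h1 h2 h3 h4
    unfold m4b_B
    rw [if_pos ⟨h5, h6⟩, h7]
  · exact m4b_B_nonneg _ _ _ _

/-- The main pointwise cover. -/
lemma m4b_sq_le (sat : X → Finset A) (S₀ : Finset A) {M : ℕ} (i : Fin (M + 1)) (ω : Fin (M + 1) → X) :
    (m4b_dd sat S₀ ω i) ^ 2 ≤ ∑ t : Fin M,
      if i.val ≤ t.val ∧ (preT sat S₀ ω t.val).Nonempty ∧ preT sat S₀ ω (t.val + 1) = ∅ ∧
          (m4b_preR sat S₀ ω i (t.val + 1)).Nonempty then (m4b_dd sat S₀ ω i) ^ 2 else 0 := by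
  by_cases hd : m4b_dd sat S₀ ω i = 0
  · rw [hd]
    have : (0 : ℝ) ^ 2 = 0 := by norm_num
    rw [this]
    apply Finset.sum_nonneg
    intro t _
    split_ifs <;> norm_num
  · obtain ⟨t, h1, h2, h3, h4⟩ := m4b_cover sat S₀ ω i hd
    have hnn : ∀ t' ∈ (univ : Finset (Fin M)), (0 : ℝ) ≤
        if i.val ≤ t'.val ∧ (preT sat S₀ ω t'.val).Nonempty ∧ preT sat S₀ ω (t'.val + 1) = ∅ ∧
          (m4b_preR sat S₀ ω i (t'.val + 1)).Nonempty then (m4b_dd sat S₀ ω i) ^ 2 else 0 := by
      intro t' _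
      split_ifs <;> positivity
    have := Finset.single_le_sum hnn (Finset.mem_univ t)
    rwa [if_pos ⟨h1, h2, h3, h4⟩] at this

/-- The total variance bound by the death-event terms. -/
lemma m4b_sum_dd (sat : X → Finset A) (S₀ : Finset A) {M : ℕ} :
    ∑ i : Fin (M + 1), avgT (fun ω : Fin (M + 1) → X => (m4b_dd sat S₀ ω i) ^ 2) ≤
      ((M : ℝ) + 1) * ∑ t : Fin M, avgT (m4b_B (X := X) sat S₀ t) := by
  have h1 : ∀ i : Fin (M + 1), avgT (fun ω : Fin (M + 1) → X => (m4b_dd sat S₀ ω i) ^ 2) ≤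
      ∑ t : Fin M, avgT (m4b_B (X := X) sat S₀ t) := by
    intro i
    calc avgT (fun ω : Fin (M + 1) → X => (m4b_dd sat S₀ ω i) ^ 2)
        ≤ avgT (fun ω : Fin (M + 1) → X => ∑ t : Fin M,
            if i.val ≤ t.val ∧ (preT sat S₀ ω t.val).Nonempty ∧ preT sat S₀ ω (t.val + 1) = ∅ ∧
              (m4b_preR sat S₀ ω i (t.val + 1)).Nonempty then (m4b_dd sat S₀ ω i) ^ 2 else 0) :=
          m4b_avgT_mono (fun ω => m4b_sq_le sat S₀ i ω)
      _ = ∑ t : Fin M, avgT (fun ω : Fin (M + 1) → X =>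
            if i.val ≤ t.val ∧ (preT sat S₀ ω t.val).Nonempty ∧ preT sat S₀ ω (t.val + 1) = ∅ ∧
              (m4b_preR sat S₀ ω i (t.val + 1)).Nonempty then (m4b_dd sat S₀ ω i) ^ 2 else 0) :=
          m4b_avgT_sum _ _
      _ ≤ ∑ t : Fin M, avgT (m4b_B (X := X) sat S₀ t) :=
          Finset.sum_le_sum (fun t _ => m4b_term_swap sat S₀ i t)
  calc ∑ i : Fin (M + 1), avgT (fun ω : Fin (M + 1) → X => (m4b_dd sat S₀ ω i) ^ 2)
      ≤ ∑ _i : Fin (M + 1), ∑ t : Fin M, avgT (m4b_B (X := X) sat S₀ t) :=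
        Finset.sum_le_sum (fun i _ => h1 i)
    _ = ((M : ℝ) + 1) * ∑ t : Fin M, avgT (m4b_B (X := X) sat S₀ t) := by
        simp [Finset.card_univ]

/-- The value of the succAbove map. -/
lemma m4b_succAbove_val {M : ℕ} (t k : Fin M) :
    (t.castSucc.succAbove k).val = if k.val < t.val then k.val else k.val + 1 := by
  by_cases h : k.val < t.val
  · rw [if_pos h, Fin.succAbove_of_castSucc_lt _ _ (by exact_mod_cast h)]
    rfl
  · rw [if_neg h, Fin.succAbove_of_le_castSucc _ _ (by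
      show t.val ≤ k.val
      omega)]
    rfl

lemma m4b_insert_ne {M : ℕ} (t k : Fin M) : t.castSucc.succAbove k ≠ t.castSucc :=
  Fin.succAbove_ne _ _

/-- Prefixes before the inserted index. -/
lemma m4b_preT_ins_le (sat : X → Finset A) (S₀ : Finset A) {M : ℕ} (t : Fin M) (x : X) (l : Fin M → X)
    {m : ℕ} (hm : m ≤ t.val) :
    preT sat S₀ (t.castSucc.insertNth x l : Fin (M + 1) → X) m = preT sat S₀ l m := by
  ext σ
  rw [m4b_mem_preT, m4b_mem_preT]
  apply and_congr_right
  intro _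
  rw [Fin.forall_iff_succAbove t.castSucc]
  constructor
  · rintro ⟨_, h⟩ k hk
    have := h k (by
      rw [m4b_succAbove_val]
      split_ifs <;> omega)
    rwa [Fin.insertNth_apply_succAbove] at this
  · intro h
    refine ⟨fun h0 => ?_, fun k hk => ?_⟩
    · have : t.castSucc.val = t.val := rfl
      omega
    · rw [Fin.insertNth_apply_succAbove]
      apply h k
      rw [m4b_succAbove_val] at hk
      split_ifs at hk <;> omega

/-- Prefix including the inserted index. -/
lemma m4b_preT_ins_succ (sat : X → Finset A) (S₀ : Finset A) {M : ℕ} (t : Fin M) (x : X) (l : Fin M → X) :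
    preT sat S₀ (t.castSucc.insertNth x l : Fin (M + 1) → X) (t.val + 1) =
      preT sat S₀ l t.val ∩ sat x := by
  ext σ
  rw [m4b_mem_preT, Finset.mem_inter, m4b_mem_preT]
  rw [Fin.forall_iff_succAbove t.castSucc]
  rw [Fin.insertNth_apply_same]
  constructor
  · rintro ⟨h0, h1, h2⟩
    refine ⟨⟨h0, fun k hk => ?_⟩, h1 (by
      show t.val < t.val + 1
      omega)⟩
    have := h2 k (by
      rw [m4b_succAbove_val, if_pos hk]
      omega)
    rwa [Fin.insertNth_apply_succAbove] at this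
  · rintro ⟨⟨h0, h1⟩, h2⟩
    refine ⟨h0, fun _ => h2, fun k hk => ?_⟩
    rw [Fin.insertNth_apply_succAbove]
    apply h1
    rw [m4b_succAbove_val] at hk
    split_ifs at hk with h3
    · exact h3
    · omega

/-- The removal prefix. -/
lemma m4b_preR_ins_le (sat : X → Finset A) (S₀ : Finset A) {M : ℕ} (t : Fin M) (x : X) (l : Fin M → X)
    {m : ℕ} (hm : m ≤ t.val) :
    m4b_preR sat S₀ (t.castSucc.insertNth x l : Fin (M + 1) → X) t.castSucc m = preT sat S₀ l m := by
  ext σ
  rw [m4b_mem_preR, m4b_mem_preT]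
  apply and_congr_right
  intro _
  rw [Fin.forall_iff_succAbove t.castSucc]
  constructor
  · rintro ⟨_, h⟩ k hk
    have := h k (by
      rw [m4b_succAbove_val]
      split_ifs <;> omega) (m4b_insert_ne t k)
    rwa [Fin.insertNth_apply_succAbove] at this
  · intro h
    refine ⟨fun _ h0 => absurd rfl h0, fun k hk _ => ?_⟩
    rw [Fin.insertNth_apply_succAbove]
    apply h k
    rw [m4b_succAbove_val] at hk
    split_ifs at hk <;> omega

lemma m4b_preR_ins_gt (sat : X → Finset A) (S₀ : Finset A) {M : ℕ} (t : Fin M) (x : X) (l : Fin M → X)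
    {s : ℕ} (hs : t.val ≤ s) :
    m4b_preR sat S₀ (t.castSucc.insertNth x l : Fin (M + 1) → X) t.castSucc (s + 1) = preT sat S₀ l s := by
  ext σ
  rw [m4b_mem_preR, m4b_mem_preT]
  apply and_congr_right
  intro _
  rw [Fin.forall_iff_succAbove t.castSucc]
  constructor
  · rintro ⟨_, h⟩ k hk
    have := h k (by
      rw [m4b_succAbove_val]
      split_ifs <;> omega) (m4b_insert_ne t k)
    rwa [Fin.insertNth_apply_succAbove] at this
  · intro h
    refine ⟨fun _ h0 => absurd rfl h0, fun k hk _ => ?_⟩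
    rw [Fin.insertNth_apply_succAbove]
    apply h k
    rw [m4b_succAbove_val] at hk
    split_ifs at hk <;> omega

/-- Remaining life after `t` along `l`. -/
noncomputable def m4b_rr (sat : X → Finset A) (S₀ : Finset A) {M : ℕ} (t : Fin M) (l : Fin M → X) : ℝ :=
  ∑ s ∈ range M, if t.val ≤ s then phi (preT sat S₀ l s) else 0

/-- The increase at a fatal clause is the remaining life. -/
lemma m4b_dd_ins (sat : X → Finset A) (S₀ : Finset A) {M : ℕ} (t : Fin M) (x : X) (l : Fin M → X)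
    (halive : (preT sat S₀ l t.val).Nonempty) (hdead : preT sat S₀ l t.val ∩ sat x = ∅) :
    m4b_dd sat S₀ (t.castSucc.insertNth x l : Fin (M + 1) → X) t.castSucc = m4b_rr sat S₀ t l := by
  unfold m4b_dd m4b_fR tauT m4b_rr
  rw [← Finset.sum_sub_distrib, Finset.sum_range_succ']
  have h0 : phi (m4b_preR sat S₀ (t.castSucc.insertNth x l : Fin (M + 1) → X) t.castSucc 0) -
      phi (preT sat S₀ (t.castSucc.insertNth x l : Fin (M + 1) → X) 0) = 0 := by
    rw [m4b_preR_ins_le sat S₀ t x l (Nat.zero_le _), m4b_preT_ins_le sat S₀ t x l (Nat.zero_le _)]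
    ring
  rw [h0, add_zero]
  apply Finset.sum_congr rfl
  intro s _
  by_cases hs : t.val ≤ s
  · rw [if_pos hs, m4b_preR_ins_gt sat S₀ t x l hs]
    have h1 : preT sat S₀ (t.castSucc.insertNth x l : Fin (M + 1) → X) (s + 1) = ∅ := by
      apply Finset.subset_empty.1
      have h2 := m4b_preT_anti sat S₀ (t.castSucc.insertNth x l : Fin (M + 1) → X)
        (show t.val + 1 ≤ s + 1 by omega)
      rw [m4b_preT_ins_succ, hdead] at h2
      exact h2
    rw [h1, phi_empty, sub_zero]
  · rw [if_neg hs]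
    have hs' : s + 1 ≤ t.val := by omega
    rw [m4b_preR_ins_le sat S₀ t x l hs', m4b_preT_ins_le sat S₀ t x l hs']
    ring

/-- Averaging out the inserted coordinate. -/
lemma m4b_avgT_succ {M : ℕ} (t : Fin (M + 1)) (g : (Fin (M + 1) → X) → ℝ) :
    avgT g = avgT (fun l : Fin M → X => (Fintype.card X : ℝ)⁻¹ * ∑ x, g (t.insertNth x l)) := by
  unfold avgT
  rw [← Equiv.sum_comp (Fin.insertNthEquiv (fun _ => X) t) g]
  rw [Fintype.sum_prod_type, Finset.sum_comm, pow_succ, mul_inv, mul_assoc, ← Finset.mul_sum]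
  rfl

/-- One-clause kill average. -/
lemma m4b_kill_avg (sat : X → Finset A) (S : Finset A) :
    (Fintype.card X : ℝ)⁻¹ * ∑ x, (if S ∩ sat x = ∅ then (1 : ℝ) else 0) = 1 - avgOp sat phi S := by
  have hc : (Fintype.card X : ℝ) ≠ 0 := by exact_mod_cast Fintype.card_ne_zero
  rw [avgOp_apply]
  have h1 : ∀ x, (if S ∩ sat x = ∅ then (1 : ℝ) else 0) = 1 - phi (S ∩ sat x) := by
    intro x
    by_cases h : S ∩ sat x = ∅
    · rw [if_pos h, h, phi_empty]
      ring
    · rw [if_neg h, phi_nonempty (Finset.nonempty_iff_ne_empty.2 h)]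
      ring
  simp only [h1]
  rw [Finset.sum_sub_distrib, mul_sub]
  simp [Finset.card_univ, hc]

/-- Bound of the death-event average by a function of the shorter tuple. -/
lemma m4b_B_le (sat : X → Finset A) (S₀ : Finset A) (z : Finset A → ℝ)
    (hκ : ∀ S, S.Nonempty → 1 - avgOp sat phi S ≤ z S ^ 3) {M : ℕ} (t : Fin M) :
    avgT (m4b_B (X := X) sat S₀ t) ≤ avgT (fun l : Fin M → X =>
      if (preT sat S₀ l t.val).Nonempty then z (preT sat S₀ l t.val) ^ 3 * (m4b_rr sat S₀ t l) ^ 2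
        else 0) := by
  rw [m4b_avgT_succ t.castSucc]
  apply m4b_avgT_mono
  intro l
  by_cases halive : (preT sat S₀ l t.val).Nonempty
  · rw [if_pos halive]
    have h1 : ∀ x, m4b_B sat S₀ t (t.castSucc.insertNth x l : Fin (M + 1) → X) =
        (if preT sat S₀ l t.val ∩ sat x = ∅ then (1 : ℝ) else 0) * (m4b_rr sat S₀ t l) ^ 2 := by
      intro x
      unfold m4b_B
      rw [m4b_preT_ins_le sat S₀ t x l (le_refl _), m4b_preT_ins_succ]
      by_cases hd : preT sat S₀ l t.val ∩ sat x = ∅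
      · rw [if_pos ⟨halive, hd⟩, if_pos hd, m4b_dd_ins sat S₀ t x l halive hd]
        ring
      · rw [if_neg (fun h => hd h.2), if_neg hd]
        ring
    simp only [h1]
    rw [← Finset.sum_mul, ← mul_assoc, m4b_kill_avg]
    exact mul_le_mul_of_nonneg_right (hκ _ halive) (by positivity)
  · rw [if_neg halive]
    have h1 : ∀ x, m4b_B sat S₀ t (t.castSucc.insertNth x l : Fin (M + 1) → X) = 0 := by
      intro x
      unfold m4b_B
      rw [m4b_preT_ins_le sat S₀ t x l (le_refl _)]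
      rw [if_neg (fun h => halive h.1)]
    simp [h1]

/-- The pointwise cubic bound. -/
lemma m4b_cubic (sat : X → Finset A) (S₀ : Finset A) (z : Finset A → ℝ) (hz0 : ∀ S, 0 ≤ z S)
    (hzmono : ∀ S S', S' ⊆ S → S'.Nonempty → z S ≤ z S') {M : ℕ} (l : Fin M → X) :
    ∑ t : Fin M, (if (preT sat S₀ l t.val).Nonempty then
        z (preT sat S₀ l t.val) ^ 3 * (m4b_rr sat S₀ t l) ^ 2 else 0) ≤
      (∑ i ∈ range M, z (preT sat S₀ l i)) ^ 3 := by
  set Y := ∑ i ∈ range M, z (preT sat S₀ l i) with hY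
  have hY0 : 0 ≤ Y := Finset.sum_nonneg (fun i _ => hz0 _)
  have hYF : Y = ∑ t : Fin M, z (preT sat S₀ l t.val) := by
    rw [hY]
    exact (Fin.sum_univ_eq_sum_range (fun i => z (preT sat S₀ l i)) M).symm
  have hterm : ∀ t : Fin M, (if (preT sat S₀ l t.val).Nonempty then
        z (preT sat S₀ l t.val) ^ 3 * (m4b_rr sat S₀ t l) ^ 2 else 0) ≤
      z (preT sat S₀ l t.val) * Y ^ 2 := by
    intro t
    split_ifs with halive
    · have hr0 : 0 ≤ m4b_rr sat S₀ t l := by
        unfold m4b_rr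
        apply Finset.sum_nonneg
        intro s _
        split_ifs
        · exact phi_nonneg _
        · exact le_refl _
      have hzr : z (preT sat S₀ l t.val) * m4b_rr sat S₀ t l ≤ Y := by
        unfold m4b_rr
        rw [Finset.mul_sum, hY]
        apply Finset.sum_le_sum
        intro s _
        by_cases hs : t.val ≤ s
        · rw [if_pos hs]
          by_cases hal : (preT sat S₀ l s).Nonempty
          · rw [phi_nonempty hal, mul_one]
            exact hzmono _ _ (m4b_preT_anti sat S₀ l hs) hal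
          · rw [Finset.not_nonempty_iff_eq_empty] at hal
            rw [hal, phi_empty, mul_zero]
            exact hz0 _
        · rw [if_neg hs, mul_zero]
          exact hz0 _
      have hz := hz0 (preT sat S₀ l t.val)
      have h1 : (z (preT sat S₀ l t.val) * m4b_rr sat S₀ t l) ^ 2 ≤ Y ^ 2 :=
        pow_le_pow_left₀ (mul_nonneg hz hr0) hzr 2
      calc z (preT sat S₀ l t.val) ^ 3 * m4b_rr sat S₀ t l ^ 2
          = z (preT sat S₀ l t.val) * (z (preT sat S₀ l t.val) * m4b_rr sat S₀ t l) ^ 2 := by ring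
        _ ≤ z (preT sat S₀ l t.val) * Y ^ 2 := mul_le_mul_of_nonneg_left h1 hz
    · exact mul_nonneg (hz0 _) (by positivity)
  calc _ ≤ ∑ t : Fin M, z (preT sat S₀ l t.val) * Y ^ 2 := Finset.sum_le_sum (fun t _ => hterm t)
    _ = Y ^ 3 := by
      rw [← Finset.sum_mul, ← hYF]
      ring

theorem m4b_var_tau_le (sat : X → Finset A) (S₀ : Finset A) (z : Finset A → ℝ) (hz0 : ∀ S, 0 ≤ z S)
    (hzmono : ∀ S S', S' ⊆ S → S'.Nonempty → z S ≤ z S')
    (hκ : ∀ S, S.Nonempty → 1 - avgOp sat phi S ≤ z S ^ 3) (M : ℕ) :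
    avgT (fun ω : Fin (M + 1) → X => (tauT sat S₀ ω - avgT (M := M + 1) (tauT sat S₀)) ^ 2) ≤
      ((M : ℝ) + 1) * avgT (fun l : Fin M → X => (∑ i ∈ range M, z (preT sat S₀ l i)) ^ 3) := by
  have hES := efron_stein (X := X) (M := M + 1) (tauT sat S₀) (fun i ω => m4b_fR sat S₀ ω i)
    (fun i ω y => m4b_fR_update sat S₀ ω i y)
  have h1 : ∑ i : Fin (M + 1), avgT (fun ω : Fin (M + 1) → X => (tauT sat S₀ ω - m4b_fR sat S₀ ω i) ^ 2) =
      ∑ i : Fin (M + 1), avgT (fun ω : Fin (M + 1) → X => (m4b_dd sat S₀ ω i) ^ 2) := by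
    apply Finset.sum_congr rfl
    intro i _
    congr 1
    funext ω
    unfold m4b_dd
    ring
  rw [h1] at hES
  refine hES.trans ((m4b_sum_dd sat S₀).trans ?_)
  apply mul_le_mul_of_nonneg_left _ (by positivity)
  calc ∑ t : Fin M, avgT (m4b_B (X := X) sat S₀ t)
      ≤ ∑ t : Fin M, avgT (fun l : Fin M → X =>
          if (preT sat S₀ l t.val).Nonempty then
            z (preT sat S₀ l t.val) ^ 3 * (m4b_rr sat S₀ t l) ^ 2 else 0) :=
        Finset.sum_le_sum (fun t _ => m4b_B_le sat S₀ z hκ t)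
    _ = avgT (fun l : Fin M → X => ∑ t : Fin M,
          if (preT sat S₀ l t.val).Nonempty then
            z (preT sat S₀ l t.val) ^ 3 * (m4b_rr sat S₀ t l) ^ 2 else 0) :=
        (m4b_avgT_sum _ _).symm
    _ ≤ _ := m4b_avgT_mono (fun l => m4b_cubic sat S₀ z hz0 hzmono l)


/-- Var τ ≤ (M+1) E[Y³], where `Y` is the sum of `z` along the alive prefixes. -/
theorem var_tau_le (sat : X → Finset A) (S₀ : Finset A) (z : Finset A → ℝ) (hz0 : ∀ S, 0 ≤ z S)
    (hzmono : ∀ S S', S' ⊆ S → S'.Nonempty → z S ≤ z S')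
    (hκ : ∀ S, S.Nonempty → 1 - avgOp sat phi S ≤ z S ^ 3) (M : ℕ) :
    avgT (fun ω : Fin (M + 1) → X => (tauT sat S₀ ω - avgT (M := M + 1) (tauT sat S₀)) ^ 2) ≤
      ((M : ℝ) + 1) * avgT (fun l : Fin M → X => (∑ i ∈ range M, z (preT sat S₀ l i)) ^ 3) :=
  m4b_var_tau_le sat S₀ z hz0 hzmono hκ M

end ES

section Bridge

variable {n j : ℕ}

lemma preT_zero {A X : Type} [DecidableEq A] (sat : X → Finset A) (S₀ : Finset A) {M : ℕ}
    (ω : Fin M → X) : preT sat S₀ ω 0 = S₀ := by
  unfold preT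
  apply Finset.filter_true_of_mem
  intro σ _ k hk
  exact absurd hk (Nat.not_lt_zero _)

lemma preT_succ {A X : Type} [DecidableEq A] (sat : X → Finset A) (S₀ : Finset A) {M : ℕ}
    (ω : Fin (M + 1) → X) (m : ℕ) :
    preT sat S₀ ω (m + 1) = preT sat (S₀ ∩ sat (ω 0)) (fun i => ω i.succ) m := by
  unfold preT
  ext σ
  simp only [Finset.mem_filter, Finset.mem_inter]
  constructor
  · rintro ⟨h1, h2⟩
    refine ⟨⟨h1, h2 0 (by simp)⟩, fun k hk => h2 k.succ (by simpa using hk)⟩
  · rintro ⟨⟨h1, h3⟩, h2⟩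
    refine ⟨h1, fun k hk => ?_⟩
    refine Fin.cases (fun _ => h3) (fun i hi => h2 i (by simpa using hi)) k hk

lemma solL_take (S₀ : Finset (Fin n → Bool)) {M : ℕ}
    (l : Fin M → ProperClause (Fin n) (j + 1)) (m : ℕ) :
    solL (id : Fin n → Fin n) S₀ ((List.ofFn l).take m) =
      preT (satOf (k := j + 1) id) S₀ l m := by
  induction M generalizing S₀ m with
  | zero =>
    simp only [List.ofFn_zero, List.take_nil]
    show S₀ = _
    unfold preT
    symm
    apply Finset.filter_true_of_mem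
    intro σ _ k
    exact k.elim0
  | succ M ih =>
    cases m with
    | zero => simp only [List.take_zero]; rw [preT_zero]; rfl
    | succ m =>
      rw [List.ofFn_succ, List.take_succ_cons, preT_succ]
      show solL _ (S₀ ∩ satOf id (l 0)) _ = _
      exact ih _ _ _

lemma lexp_take {X : Type} [Fintype X] [Nonempty X] (g : List X → ℝ) (m r : ℕ) :
    lexp (m + r) (fun l => g (l.take m)) = lexp m g := by
  induction r with
  | zero =>
    apply lexp_congr_len
    intro l hl
    simp only [Nat.add_zero] at hl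
    rw [← hl, List.take_length]
  | succ r ih =>
    rw [← Nat.add_assoc, lexp_snoc, ← ih]
    apply lexp_congr_len
    intro l hl
    have : ∀ x : X, (l ++ [x]).take m = l.take m := by
      intro x
      rw [List.take_append_of_le_length (by omega)]
    simp only [this]
    exact lavg_const _

/-- Bridge: the accumulated density along a tuple. -/
lemma psi_ofFn (hn : j + 1 ≤ n) (S₀ : Finset (Fin n → Bool)) {M : ℕ}
    (l : Fin M → ProperClause (Fin n) (j + 1)) :
    psi (id : Fin n → Fin n) S₀ (List.ofFn l) =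
      ∑ i ∈ range M, zz (id : Fin n → Fin n) (preT (satOf (k := j + 1) id) S₀ l i) := by
  induction M generalizing S₀ with
  | zero => simp [psi]
  | succ M ih =>
    rw [List.ofFn_succ]
    show zz _ S₀ + psi _ (S₀ ∩ satOf id (l 0)) _ = _
    rw [ih, Finset.sum_range_succ', preT_zero]
    simp only [preT_succ]
    ring

/-- Bridge: alive prefix probability is the satisfiability probability. -/
lemma avgT_phi_preT (hn : j + 1 ≤ n) {M m : ℕ} (hm : m ≤ M) :
    avgT (X := ProperClause (Fin n) (j + 1)) (fun ω : Fin M → ProperClause (Fin n) (j + 1) =>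
        phi (preT (satOf (k := j + 1) id) (univ : Finset (Fin n → Bool)) ω m)) =
      satProb (j + 1) n m := by
  have : Nonempty (ProperClause (Fin n) (j + 1)) := by
    have h := card_clause_pos (W := Fin n) (k := j + 1) (by simpa using hn)
    have h2 : 0 < Fintype.card (ProperClause (Fin n) (j + 1)) := by exact_mod_cast h
    exact Fintype.card_pos_iff.1 h2
  obtain ⟨r, rfl⟩ := Nat.exists_eq_add_of_le hm
  rw [← avg_pow_eq (k := j + 1) (id : Fin n → Fin n) Function.injective_id m,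
    ← lexp_avgOp_pow, ← lexp_take _ m r, lexp_eq_tuple]
  unfold avgT
  congr 1
  apply Finset.sum_congr rfl
  intro ω _
  rw [solL_take]

section BrAvg

variable {X : Type} [Fintype X] [Nonempty X]

lemma br_avgT_mono {M : ℕ} {f g : (Fin M → X) → ℝ} (h : ∀ ω, f ω ≤ g ω) : avgT f ≤ avgT g := by
  unfold avgT
  exact mul_le_mul_of_nonneg_left (Finset.sum_le_sum (fun ω _ => h ω)) (by positivity)

lemma br_avgT_mul_right {M : ℕ} (f : (Fin M → X) → ℝ) (c : ℝ) :
    avgT (fun ω => f ω * c) = avgT f * c := by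
  unfold avgT
  rw [← Finset.sum_mul]
  ring

lemma br_avgT_sum {M : ℕ} {ι : Type} (s : Finset ι) (f : ι → (Fin M → X) → ℝ) :
    avgT (fun ω => ∑ i ∈ s, f i ω) = ∑ i ∈ s, avgT (f i) := by
  unfold avgT
  rw [Finset.sum_comm, Finset.mul_sum]

lemma br_avgT_const {M : ℕ} (c : ℝ) : avgT (fun _ : Fin M → X => c) = c := by
  unfold avgT
  have h : (Fintype.card X : ℝ) ≠ 0 := by exact_mod_cast Fintype.card_ne_zero
  simp [Finset.card_univ, Fintype.card_fun, h]

lemma br_avgT_sub {M : ℕ} (f g : (Fin M → X) → ℝ) :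
    avgT (fun ω => f ω - g ω) = avgT f - avgT g := by
  unfold avgT
  rw [Finset.sum_sub_distrib]
  ring

end BrAvg

lemma br_preT_anti {A X : Type} [DecidableEq A] (sat : X → Finset A) (S₀ : Finset A) {M : ℕ}
    (ω : Fin M → X) {a b : ℕ} (h : a ≤ b) : preT sat S₀ ω b ⊆ preT sat S₀ ω a := by
  intro σ hσ
  unfold preT at hσ ⊢
  rw [Finset.mem_filter] at hσ ⊢
  exact ⟨hσ.1, fun k hk => hσ.2 k (lt_of_lt_of_le hk h)⟩

lemma br_tau_ge {A X : Type} [DecidableEq A] (sat : X → Finset A) (S₀ : Finset A) {M : ℕ}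
    (ω : Fin M → X) {m : ℕ} (hm : m ≤ M) (h : (preT sat S₀ ω m).Nonempty) :
    (m : ℝ) ≤ tauT sat S₀ ω := by
  unfold tauT
  have h1 : ∑ i ∈ range m, phi (preT sat S₀ ω i) ≤ ∑ i ∈ range M, phi (preT sat S₀ ω i) :=
    Finset.sum_le_sum_of_subset_of_nonneg (Finset.range_subset_range.2 hm)
      (fun _ _ _ => phi_nonneg _)
  have h2 : ∑ i ∈ range m, phi (preT sat S₀ ω i) = (m : ℝ) := by
    rw [Finset.sum_congr rfl (g := fun _ => (1 : ℝ))]
    · simp
    · intro i hi
      exact phi_nonempty (h.mono (br_preT_anti sat S₀ ω (Finset.mem_range.1 hi).le))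
  linarith

lemma br_tau_le {A X : Type} [DecidableEq A] (sat : X → Finset A) (S₀ : Finset A) {M : ℕ}
    (ω : Fin M → X) {m : ℕ} (hm : m ≤ M) (h : ¬ (preT sat S₀ ω m).Nonempty) :
    tauT sat S₀ ω ≤ (m : ℝ) := by
  unfold tauT
  have h0 : ∀ i, m ≤ i → phi (preT sat S₀ ω i) = 0 := by
    intro i hi
    have : preT sat S₀ ω i = ∅ := by
      apply Finset.subset_empty.1
      have h3 := br_preT_anti sat S₀ ω hi
      rwa [Finset.not_nonempty_iff_eq_empty.1 h] at h3
    rw [this, phi_empty]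
  have h1 : ∑ i ∈ range M, phi (preT sat S₀ ω i) = ∑ i ∈ range m, phi (preT sat S₀ ω i) := by
    symm
    apply Finset.sum_subset (Finset.range_subset_range.2 hm)
    intro i _ hi
    exact h0 i (by simpa using hi)
  rw [h1]
  calc ∑ i ∈ range m, phi (preT sat S₀ ω i) ≤ ∑ i ∈ range m, (1 : ℝ) :=
        Finset.sum_le_sum (fun _ _ => phi_le_one _)
    _ = (m : ℝ) := by simp

/-- Chebyshev in terms of `satProb` alone.  `μ = Σ_{i<M} P(n,i)` is the mean of the clipped death
time; `K n` bounds its variance. -/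
theorem cheb_bounds (hj : 2 ≤ j) {C : ℝ} (hC : 0 < C) :
    ∃ (K : ℝ) (N : ℕ), 0 < K ∧ ∀ n, N ≤ n → ∀ M : ℕ, (M : ℝ) ≤ C * (n : ℝ) → ∀ m, m < M →
      (let μ : ℝ := ∑ i ∈ range M, satProb (j + 1) n i
       (μ < (m : ℝ) → satProb (j + 1) n m * ((m : ℝ) - μ) ^ 2 ≤ K * (n : ℝ)) ∧
       ((m : ℝ) < μ → (1 - satProb (j + 1) n m) * (μ - (m : ℝ)) ^ 2 ≤ K * (n : ℝ))) := by
  obtain ⟨K0, b, N0, hK0, hb, hmom⟩ := mom_all hj 3 hC
  refine ⟨C * K0 + 1, max N0 (j + 1), by positivity, ?_⟩
  intro n hn M hM m hm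
  have hn0 : N0 ≤ n := le_trans (le_max_left _ _) hn
  have hn1 : j + 1 ≤ n := le_trans (le_max_right _ _) hn
  have hnpos : (0 : ℝ) ≤ (n : ℝ) := by positivity
  have hNE : Nonempty (ProperClause (Fin n) (j + 1)) := by
    have h := card_clause_pos (W := Fin n) (k := j + 1) (by simpa using hn1)
    have h2 : 0 < Fintype.card (ProperClause (Fin n) (j + 1)) := by exact_mod_cast h
    exact Fintype.card_pos_iff.1 h2
  obtain ⟨M', rfl⟩ : ∃ M', M = M' + 1 := ⟨M - 1, by omega⟩
  intro μ
  set sat := satOf (k := j + 1) (id : Fin n → Fin n) with hsat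
  set τ : (Fin (M' + 1) → ProperClause (Fin n) (j + 1)) → ℝ :=
    tauT sat (univ : Finset (Fin n → Bool)) with hτ
  -- the mean
  have hmean : avgT τ = μ := by
    rw [hτ]
    unfold tauT
    rw [br_avgT_sum]
    apply Finset.sum_congr rfl
    intro i hi
    exact avgT_phi_preT hn1 (Finset.mem_range.1 hi).le
  -- the moment bound
  have hmom3 : avgT (fun l : Fin M' → ProperClause (Fin n) (j + 1) =>
      (∑ i ∈ range M', zz (id : Fin n → Fin n) (preT sat univ l i)) ^ 3) ≤ K0 := by
    have hM' : ((M' : ℕ) : ℝ) ≤ C * (Fintype.card (Fin n) : ℝ) := by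
      rw [Fintype.card_fin]
      have : ((M' : ℕ) : ℝ) ≤ ((M' + 1 : ℕ) : ℝ) := by exact_mod_cast Nat.le_succ _
      linarith
    have h1 := hmom (Fin n) (Fin n) (id : Fin n → Fin n) Function.injective_id
      (by simpa using hn0) ∅ univ (cylOut_univ _ _) M' hM'
    rw [lexp_eq_tuple] at h1
    simp only [Finset.card_empty, pow_zero, mul_one] at h1
    refine le_trans ?_ h1
    apply mul_le_mul_of_nonneg_left _ (by positivity)
    apply Finset.sum_le_sum
    intro l _
    rw [psi_ofFn hn1 univ l]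
    apply pow_le_pow_left₀ (Finset.sum_nonneg (fun _ _ => zz_nonneg _ _))
    linarith
  -- the variance bound
  have hvar : avgT (fun ω => (τ ω - μ) ^ 2) ≤ C * K0 * (n : ℝ) := by
    have hv := var_tau_le sat univ (zz (id : Fin n → Fin n)) (zz_nonneg _)
      (fun S S' h h' => zz_mono _ h h') (by
        intro S hS
        rw [avg_phi_nonempty _ (by simpa using hn1) hS]
        have hW : 0 < Fintype.card (Fin n) := by
          rw [Fintype.card_fin]; omega
        have h1 := kappa_le_zz_pow (j := j + 1) (id : Fin n → Fin n) (by simpa using hn1) hW hS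
        have h2 : zz (id : Fin n → Fin n) S ^ (j + 1) ≤ zz (id : Fin n → Fin n) S ^ 3 :=
          pow_le_pow_of_le_one (zz_nonneg _ _) (by linarith [zz_le_half (id : Fin n → Fin n) S])
            (by omega)
        linarith) M'
    rw [← hτ, hmean] at hv
    refine le_trans hv ?_
    have h1 : ((M' : ℝ) + 1) ≤ C * (n : ℝ) := by
      have : (((M' + 1 : ℕ)) : ℝ) = (M' : ℝ) + 1 := by push_cast; ring
      linarith
    calc ((M' : ℝ) + 1) * _ ≤ ((M' : ℝ) + 1) * K0 :=
          mul_le_mul_of_nonneg_left hmom3 (by positivity)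
      _ ≤ (C * (n : ℝ)) * K0 := mul_le_mul_of_nonneg_right h1 hK0
      _ = C * K0 * (n : ℝ) := by ring
  have hfin : C * K0 * (n : ℝ) ≤ (C * K0 + 1) * (n : ℝ) := by nlinarith
  have hP : avgT (fun ω : Fin (M' + 1) → ProperClause (Fin n) (j + 1) =>
      phi (preT sat univ ω m)) = satProb (j + 1) n m := avgT_phi_preT hn1 hm.le
  constructor
  · intro hlt
    have h1 : satProb (j + 1) n m * ((m : ℝ) - μ) ^ 2 ≤ avgT (fun ω => (τ ω - μ) ^ 2) := by
      rw [← hP, ← br_avgT_mul_right]
      apply br_avgT_mono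
      intro ω
      by_cases hne : (preT sat univ ω m).Nonempty
      · rw [phi_nonempty hne, one_mul]
        have h2 : (m : ℝ) ≤ τ ω := br_tau_ge sat univ ω hm.le hne
        apply pow_le_pow_left₀ (by linarith) (by linarith)
      · rw [Finset.not_nonempty_iff_eq_empty.1 hne, phi_empty, zero_mul]
        positivity
    linarith
  · intro hlt
    have h1 : (1 - satProb (j + 1) n m) * (μ - (m : ℝ)) ^ 2 ≤ avgT (fun ω => (τ ω - μ) ^ 2) := by
      have h3 : 1 - satProb (j + 1) n m =
          avgT (fun ω : Fin (M' + 1) → ProperClause (Fin n) (j + 1) =>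
            1 - phi (preT sat univ ω m)) := by
        rw [br_avgT_sub, br_avgT_const, hP]
      rw [h3, ← br_avgT_mul_right]
      apply br_avgT_mono
      intro ω
      by_cases hne : (preT sat univ ω m).Nonempty
      · rw [phi_nonempty hne]
        simp only [sub_self, zero_mul]
        positivity
      · rw [Finset.not_nonempty_iff_eq_empty.1 hne, phi_empty, sub_zero, one_mul]
        have h2 : τ ω ≤ (m : ℝ) := br_tau_le sat univ ω hm.le (by
          rw [Finset.not_nonempty_iff_eq_empty]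
          exact Finset.not_nonempty_iff_eq_empty.1 hne)
        have : (μ - (m : ℝ)) ^ 2 = ((m : ℝ) - μ) ^ 2 := by ring
        have h5 : (τ ω - μ) ^ 2 = (μ - τ ω) ^ 2 := by ring
        rw [h5]
        apply pow_le_pow_left₀ (by linarith) (by linarith)
    linarith

end Bridge

end Vale.Agent.Lib.P170
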