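import Mathlib

/-!
Numerical lemmas for `aN_super` (M5b).
-/

namespace Vale.Agent.Lib.P170.SuperAux

open Real

lemma gap_aux {a Q c A K' sK E r s : ℝ} (hsK : 0 ≤ sK) (hE : 0 ≤ E)
    (hQ : Q ≤ c * r ^ 2 + E * r + 1) (ha : A * r ^ 2 - 2 * sK * r < a + 1)
    (hdiff : A - c = K' / s) (hs0 : 0 < s) (hsr : s ≤ r) (hr1 : 1 ≤ r) (hK0 : 0 < K')
    (hK2 : 2 * (2 * sK + E + 2) ≤ K') :
    (K' / 2) * (r ^ 2 / s) < a - Q := by
  have hgapbase : (K' / s) * r ^ 2 - (2 * sK + E) * r - 2 < a - Q := by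
    rw [← hdiff]
    have h1 : (A - c) * r ^ 2 = A * r ^ 2 - c * r ^ 2 := by ring
    have h2 : (2 * sK + E) * r = 2 * sK * r + E * r := by ring
    linarith
  have hrs : r ≤ r ^ 2 / s := by
    rw [le_div_iff₀ hs0, sq]
    exact mul_le_mul_of_nonneg_left hsr (by linarith)
  have hG : (2 * sK + E) * r + 2 ≤ (K' / 2) * (r ^ 2 / s) := by
    have h1 : (2 * sK + E + 2) * (r ^ 2 / s) ≤ (K' / 2) * (r ^ 2 / s) :=
      mul_le_mul_of_nonneg_right (by linarith) (by positivity)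
    have h2 : (2 * sK + E + 2) * r ≤ (2 * sK + E + 2) * (r ^ 2 / s) :=
      mul_le_mul_of_nonneg_left hrs (by positivity)
    have h3 : (2 * sK + E + 2) * r = (2 * sK + E) * r + 2 * r := by ring
    linarith
  have hK'split : (K' / s) * r ^ 2 = (K' / 2) * (r ^ 2 / s) + (K' / 2) * (r ^ 2 / s) := by
    field_simp
    ring
  linarith

lemma mean_aux {N₁ N₂ M c e E r w : ℝ} (hNt : 0 < N₁ + N₂) (hq0 : 0 ≤ N₁ / (N₁ + N₂))
    (hq1 : N₁ / (N₁ + N₂) ≤ 1) (hE : 0 ≤ E) (hM : M ≤ c * (N₁ + N₂) + e) (he : e ≤ E * w + 1)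
    (hr2 : r ^ 2 = N₁) (hw2 : w ^ 2 = N₁ + N₂) (hr1 : 1 ≤ r) (hrw : r ≤ w) :
    M * (N₁ / (N₁ + N₂)) ≤ c * r ^ 2 + E * r + 1 := by
  have hw0 : 0 < w := by linarith
  have hwq : w * (N₁ / (N₁ + N₂)) ≤ r := by
    rw [← hw2, ← hr2, mul_div_assoc', div_le_iff₀ (by positivity)]
    have h0 : 0 ≤ r := by linarith
    have h1 : w * r ^ 2 = r * (w * r) := by ring
    have h2 : r * w ^ 2 = r * (w * w) := by ring
    rw [h1, h2]
    exact mul_le_mul_of_nonneg_left (mul_le_mul_of_nonneg_left hrw hw0.le) h0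
  have hcq : c * (N₁ + N₂) * (N₁ / (N₁ + N₂)) = c * r ^ 2 := by
    rw [hr2]
    field_simp
  have h1 : M * (N₁ / (N₁ + N₂)) ≤ (c * (N₁ + N₂) + e) * (N₁ / (N₁ + N₂)) :=
    mul_le_mul_of_nonneg_right hM hq0
  have h2 : e * (N₁ / (N₁ + N₂)) ≤ (E * w + 1) * (N₁ / (N₁ + N₂)) :=
    mul_le_mul_of_nonneg_right he hq0
  have h3 : E * (w * (N₁ / (N₁ + N₂))) ≤ E * r := mul_le_mul_of_nonneg_left hwq hE
  have h4 : (c * (N₁ + N₂) + e) * (N₁ / (N₁ + N₂)) =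
      c * (N₁ + N₂) * (N₁ / (N₁ + N₂)) + e * (N₁ / (N₁ + N₂)) := by ring
  have h5 : (E * w + 1) * (N₁ / (N₁ + N₂)) =
      E * (w * (N₁ / (N₁ + N₂))) + N₁ / (N₁ + N₂) := by ring
  linarith

lemma num_aux {N₁ N₂ M c e E C ν w : ℝ} (hNt1 : 1 ≤ N₁ + N₂) (hN₁ : 0 ≤ N₁) (hN₂ : 0 ≤ N₂)
    (hν0 : 0 ≤ ν) (hνmul : N₁ * N₂ ≤ ν * (N₁ + N₂)) (hE : 0 ≤ E) (hC : 0 ≤ C)
    (hcC : c ≤ C) (hM0 : 0 ≤ M) (hM : M ≤ c * (N₁ + N₂) + e) (he : e ≤ E * w + 1)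
    (hw2 : w ^ 2 = N₁ + N₂) (hw1 : 1 ≤ w) :
    M * (N₁ / (N₁ + N₂)) * (N₂ / (N₁ + N₂)) ≤ (C + E + 1) * ν := by
  have hNt : 0 < N₁ + N₂ := by linarith
  have hME : M ≤ (C + E + 1) * (N₁ + N₂) := by
    have h1 : c * (N₁ + N₂) ≤ C * (N₁ + N₂) := mul_le_mul_of_nonneg_right hcC hNt.le
    have h2 : w ≤ N₁ + N₂ := by
      rw [← hw2, sq]
      exact le_mul_of_one_le_left (by linarith) hw1
    have h3 : E * w ≤ E * (N₁ + N₂) := mul_le_mul_of_nonneg_left h2 hE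
    have h4 : (C + E + 1) * (N₁ + N₂) = C * (N₁ + N₂) + E * (N₁ + N₂) + (N₁ + N₂) := by ring
    linarith
  have heq : M * (N₁ / (N₁ + N₂)) * (N₂ / (N₁ + N₂)) = M * (N₁ * N₂) / (N₁ + N₂) ^ 2 := by
    field_simp
  rw [heq, div_le_iff₀ (by positivity)]
  have h1 : M * (N₁ * N₂) ≤ ((C + E + 1) * (N₁ + N₂)) * (ν * (N₁ + N₂)) :=
    mul_le_mul hME hνmul (by positivity) (by positivity)
  have h2 : ((C + E + 1) * (N₁ + N₂)) * (ν * (N₁ + N₂)) = (C + E + 1) * ν * (N₁ + N₂) ^ 2 := by ring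
  linarith

lemma tail_final {num g K' C E δ ν G : ℝ} (hδ : 0 < δ) (hν0 : 0 < ν) (hK1 : 1 ≤ K')
    (hK3 : 24 * (C + E + 1) / δ ≤ K') (hnum : num ≤ (C + E + 1) * ν)
    (hG0 : 0 < G) (hg : G < g) (hG2 : (K' ^ 2 / 4) * ν ≤ G ^ 2) :
    num / g ^ 2 ≤ δ / 6 := by
  have hg0 : 0 < g := lt_trans hG0 hg
  have hKK : 24 * (C + E + 1) ≤ δ * K' ^ 2 := by
    have h1 := (div_le_iff₀ hδ).1 hK3
    have h2 : K' ≤ K' ^ 2 := by
      rw [sq]; exact le_mul_of_one_le_left (by linarith) hK1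
    have h3 : K' * δ ≤ K' ^ 2 * δ := mul_le_mul_of_nonneg_right h2 hδ.le
    linarith
  have h4 : G ^ 2 ≤ g ^ 2 := pow_le_pow_left₀ hG0.le hg.le 2
  rw [div_le_iff₀ (by positivity)]
  have h5 : (C + E + 1) ≤ δ / 6 * (K' ^ 2 / 4) := by
    have : δ / 6 * (K' ^ 2 / 4) = δ * K' ^ 2 / 24 := by ring
    rw [this]
    linarith
  calc num ≤ (C + E + 1) * ν := hnum
    _ ≤ δ / 6 * (K' ^ 2 / 4) * ν := mul_le_mul_of_nonneg_right h5 hν0.le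
    _ = δ / 6 * ((K' ^ 2 / 4) * ν) := by ring
    _ ≤ δ / 6 * g ^ 2 :=
        mul_le_mul_of_nonneg_left (hG2.trans h4) (by positivity)

lemma G2_aux {K' r s ν : ℝ} (hK0 : 0 < K') (hs0 : 0 < s) (hsr : s ≤ r) (hs2 : s ^ 2 = ν) :
    (K' ^ 2 / 4) * ν ≤ ((K' / 2) * (r ^ 2 / s)) ^ 2 := by
  have hr0 : 0 < r := by linarith
  have hrs : s ≤ r ^ 2 / s := by
    rw [le_div_iff₀ hs0]
    have : s * s ≤ r * r := mul_le_mul hsr hsr hs0.le hr0.le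
    nlinarith
  have h3 : s ^ 2 ≤ (r ^ 2 / s) ^ 2 := pow_le_pow_left₀ hs0.le hrs 2
  have h4 : ((K' / 2) * (r ^ 2 / s)) ^ 2 = (K' ^ 2 / 4) * (r ^ 2 / s) ^ 2 := by ring
  rw [h4, ← hs2]
  exact mul_le_mul_of_nonneg_left h3 (by positivity)

/-- One side of the binomial split: the mean gap is positive and the Chebyshev tail is small. -/
lemma side_bound {N₁ N₂ M a c A K' sK E C δ e ν : ℝ}
    (hN₂ : 1 ≤ N₂) (hν1 : 1 ≤ ν) (hνN₁ : ν ≤ N₁) (hνmul : N₁ * N₂ ≤ ν * (N₁ + N₂))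
    (hsK : 0 ≤ sK) (hE : 0 ≤ E) (hC : 0 ≤ C) (hδ : 0 < δ)
    (hc : c = A - K' / √ν) (hcC : c ≤ C)
    (hM0 : 0 ≤ M) (hM : M ≤ c * (N₁ + N₂) + e) (he : e ≤ E * √(N₁ + N₂) + 1)
    (ha : A * N₁ - 2 * sK * √N₁ < a + 1)
    (hK1 : 1 ≤ K') (hK2 : 2 * (2 * sK + E + 2) ≤ K') (hK3 : 24 * (C + E + 1) / δ ≤ K') :
    0 < a - M * (N₁ / (N₁ + N₂)) ∧
      M * (N₁ / (N₁ + N₂)) * (N₂ / (N₁ + N₂)) / (a - M * (N₁ / (N₁ + N₂))) ^ 2 ≤ δ / 6 := by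
  have hN₁ : 1 ≤ N₁ := hν1.trans hνN₁
  have hNt : 0 < N₁ + N₂ := by linarith
  have hNt1 : 1 ≤ N₁ + N₂ := by linarith
  obtain ⟨r, hr⟩ : ∃ r, r = √N₁ := ⟨_, rfl⟩
  obtain ⟨s, hs⟩ : ∃ s, s = √ν := ⟨_, rfl⟩
  obtain ⟨w, hw⟩ : ∃ w, w = √(N₁ + N₂) := ⟨_, rfl⟩
  have hr2 : r ^ 2 = N₁ := by rw [hr]; exact Real.sq_sqrt (by linarith)
  have hs2 : s ^ 2 = ν := by rw [hs]; exact Real.sq_sqrt (by linarith)
  have hw2 : w ^ 2 = N₁ + N₂ := by rw [hw]; exact Real.sq_sqrt hNt.le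
  have hr1 : 1 ≤ r := by rw [hr]; exact Real.one_le_sqrt.2 hN₁
  have hs1 : 1 ≤ s := by rw [hs]; exact Real.one_le_sqrt.2 hν1
  have hw1 : 1 ≤ w := by rw [hw]; exact Real.one_le_sqrt.2 hNt1
  have hsr : s ≤ r := by rw [hs, hr]; exact Real.sqrt_le_sqrt hνN₁
  have hrw : r ≤ w := by rw [hr, hw]; exact Real.sqrt_le_sqrt (by linarith)
  rw [← hs] at hc
  rw [← hr] at ha
  rw [← hw] at he
  have hq0 : 0 ≤ N₁ / (N₁ + N₂) := by positivity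
  have hq1 : N₁ / (N₁ + N₂) ≤ 1 := by
    rw [div_le_one hNt]; linarith
  have hs0 : 0 < s := by linarith
  have hK0 : 0 < K' := by linarith
  have hdiff : A - c = K' / s := by rw [hc]; ring
  have hMq := mean_aux hNt hq0 hq1 hE hM he hr2 hw2 hr1 hrw
  have ha' : A * r ^ 2 - 2 * sK * r < a + 1 := by rw [hr2]; exact ha
  have hgap := gap_aux hsK hE hMq ha' hdiff hs0 hsr hr1 hK0 hK2
  have hGpos : 0 < (K' / 2) * (r ^ 2 / s) := by positivity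
  have hgap0 : 0 < a - M * (N₁ / (N₁ + N₂)) := lt_trans hGpos hgap
  refine ⟨hgap0, ?_⟩
  have hnum := num_aux hNt1 (by linarith) (by linarith) (by linarith) hνmul hE hC hcC hM0 hM he hw2 hw1
  have hG2 := G2_aux hK0 hs0 hsr hs2
  exact tail_final hδ (by linarith) hK1 hK3 hnum hGpos hgap hG2

/-- The term with `e₀`. -/
lemma gamma_term {m f e C G D δ w : ℝ} (hC : 0 < C) (hG : 0 < G) (hD : 0 < D) (hδ : 0 < δ)
    (hw : 0 < w) (hm0 : 0 ≤ m) (hm : m ≤ C * w ^ 2) (hf : D * w / 2 ≤ f) (he0 : 0 ≤ e)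
    (he : (6 * C * G / (δ * D)) * w ≤ e + 1) :
    m * (G / f) / (e + 1) ≤ δ / 3 := by
  have hf0 : 0 < f := lt_of_lt_of_le (by positivity) hf
  have he1 : 0 < e + 1 := by linarith
  rw [div_le_iff₀ he1]
  have h1 : G / f ≤ G / (D * w / 2) := div_le_div_of_nonneg_left hG.le (by positivity) hf
  have h2 : m * (G / f) ≤ (C * w ^ 2) * (G / (D * w / 2)) :=
    mul_le_mul hm h1 (by positivity) (by positivity)
  have h3 : (C * w ^ 2) * (G / (D * w / 2)) = δ / 3 * ((6 * C * G / (δ * D)) * w) := by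
    field_simp
    ring
  have h4 : δ / 3 * ((6 * C * G / (δ * D)) * w) ≤ δ / 3 * (e + 1) :=
    mul_le_mul_of_nonneg_left he (by positivity)
  linarith

lemma one_add_pow_chord {t : ℝ} (h0 : 0 ≤ t) (h1 : t ≤ 1) (k : ℕ) :
    (1 + t) ^ k ≤ 1 + (2 ^ k - 1) * t := by
  induction k with
  | zero => simp
  | succ k ih =>
    have h2 : (1 : ℝ) ≤ 2 ^ k := one_le_pow₀ (by norm_num)
    rw [pow_succ]
    have h3 : (1 + t) ^ k * (1 + t) ≤ (1 + (2 ^ k - 1) * t) * (1 + t) :=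
      mul_le_mul_of_nonneg_right ih (by linarith)
    have h4 : (2 ^ k - 1) * t * t ≤ (2 ^ k - 1) * t * 1 :=
      mul_le_mul_of_nonneg_left h1 (mul_nonneg (by linarith) h0)
    have h5 : (2 : ℝ) ^ (k + 1) = 2 * 2 ^ k := by ring
    rw [h5]
    nlinarith

/-- The ratio estimate. -/
lemma ratio_aux {f a : ℝ} (k : ℕ) (ha : 0 ≤ a) (hf : 0 < f) (hfa : 2 * a ≤ f) :
    (f / (f - a)) ^ k - 1 ≤ 3 / 4 * ((4 / 3 * 2 ^ k * (2 * a)) / f) := by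
  have hfa' : 0 < f - a := by
    rcases eq_or_lt_of_le ha with h | h
    · rw [← h]; linarith
    · linarith
  have ht0 : 0 ≤ a / (f - a) := by positivity
  have ht1 : a / (f - a) ≤ 1 := by
    rw [div_le_one hfa']; linarith
  have heq : f / (f - a) = 1 + a / (f - a) := by
    field_simp
    ring
  rw [heq]
  have h1 := one_add_pow_chord ht0 ht1 k
  have h2 : a / (f - a) ≤ 2 * a / f := by
    rw [div_le_div_iff₀ hfa' hf]
    nlinarith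
  have h3 : (1 : ℝ) ≤ 2 ^ k := one_le_pow₀ (by norm_num)
  have h4 : (2 ^ k - 1) * (a / (f - a)) ≤ 2 ^ k * (2 * a / f) := by
    have h5 : (2 ^ k - 1) * (a / (f - a)) ≤ 2 ^ k * (a / (f - a)) :=
      mul_le_mul_of_nonneg_right (by linarith) ht0
    have h6 : (2 : ℝ) ^ k * (a / (f - a)) ≤ 2 ^ k * (2 * a / f) :=
      mul_le_mul_of_nonneg_left h2 (by positivity)
    linarith
  have h7 : 3 / 4 * ((4 / 3 * 2 ^ k * (2 * a)) / f) = 2 ^ k * (2 * a / f) := by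
    field_simp
  rw [h7]
  linarith

/-- The last step. -/
lemma final_aux {A K' sK b w s : ℝ} (hsK : 0 ≤ sK) (hw : 1 ≤ w) (hs : 0 < s) (hsw : s ≤ w)
    (h : (A - K' / s) * w ^ 2 < b * w ^ 2 + 2 * sK * w + 1) :
    A - (K' + 2 * sK + 1) / s ≤ b := by
  have hw0 : 0 < w := by linarith
  have h1 : (A - K' / s) < b + (2 * sK * w + 1) / w ^ 2 := by
    have h2 : (b + (2 * sK * w + 1) / w ^ 2) * w ^ 2 = b * w ^ 2 + 2 * sK * w + 1 := by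
      field_simp
      ring
    have h3 : (A - K' / s) * w ^ 2 < (b + (2 * sK * w + 1) / w ^ 2) * w ^ 2 := by
      rw [h2]; exact h
    exact lt_of_mul_lt_mul_right h3 (by positivity)
  have h4 : (2 * sK * w + 1) / w ^ 2 ≤ (2 * sK + 1) / s := by
    rw [div_le_div_iff₀ (by positivity) hs]
    have h5 : (2 * sK * w + 1) * s ≤ (2 * sK * w + w) * w := by
      have h6 : 2 * sK * w + 1 ≤ 2 * sK * w + w := by linarith
      exact mul_le_mul h6 hsw hs.le (by positivity)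
    nlinarith
  have h7 : (K' + 2 * sK + 1) / s = K' / s + (2 * sK + 1) / s := by ring
  rw [h7]
  linarith

end Vale.Agent.Lib.P170.SuperAux
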