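import Mathlib
import Vale.Agent.Lib.P170.Main
import Vale.Agent.Lib.P170.W.SuperAux

/-!
M5b: almost superadditivity of a mean density from its two Chebyshev bounds.
-/

set_option linter.unusedSectionVars false

open Finset

namespace Vale.Agent.Lib.P170.SuperAN

open Vale.Agent.Lib.P170

/-- Facts about `f₀ = ⌊D w⌋`. -/
lemma f_facts {f₀ : ℕ} {x k a' G : ℝ} (hk0 : 0 ≤ k) (ha' : 0 ≤ a') (hG : 0 ≤ G)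
    (hL : 2 * (2 * k + 2 * a' + G) + 2 ≤ x) (hf₀ : f₀ = ⌊x⌋₊) :
    (f₀ : ℝ) ≤ x ∧ x / 2 ≤ f₀ ∧ 2 * k ≤ f₀ ∧ 2 * a' ≤ f₀ ∧ G ≤ f₀ ∧ 0 < (f₀ : ℝ) := by
  have hx0 : 0 ≤ x := by linarith
  have h1 : (f₀ : ℝ) ≤ x := by rw [hf₀]; exact Nat.floor_le hx0
  have h2 : x < (f₀ : ℝ) + 1 := by rw [hf₀]; exact Nat.lt_floor_add_one _
  refine ⟨h1, ?_, ?_, ?_, ?_, ?_⟩ <;> linarith

/-- Everything about the parameters of `supermult_core` besides the two Chebyshev tails. -/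
lemma step_core {k n₁ n₂ m e₀ a₀ b₀ f₀ : ℕ} {C D G E w : ℝ}
    (hk2 : 2 ≤ k) (hk₁ : k ≤ n₁) (hk₂ : k ≤ n₂) (ha' : 0 ≤ 2 * (k : ℝ) - 2)
    (hC0 : 0 < C) (hD0 : 0 < D) (hD2 : D ^ 2 = (1 / 4) / C) (hD1 : D ≤ 1)
    (hGdef : G = 4 / 3 * 2 ^ k * (2 * (2 * (k : ℝ) - 2))) (hG0 : 0 < G)
    (hEdef : E = 6 * C * G / ((1 / 4) * D))
    (hw2 : w ^ 2 = ((n₁ + n₂ : ℕ) : ℝ)) (hw1 : 1 ≤ w)
    (hf0 : 0 < (f₀ : ℝ)) (hf1 : (f₀ : ℝ) ≤ D * w) (hf7 : D * w / 2 ≤ f₀) (hf₀nat : 2 * k ≤ f₀)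
    (hf5 : 2 * (2 * (k : ℝ) - 2) ≤ f₀) (hf6 : G ≤ f₀)
    (hmC : (m : ℝ) ≤ C * ((n₁ + n₂ : ℕ) : ℝ)) (he1 : E * w ≤ (e₀ : ℝ))
    (hP₁ : (3 / 4 : ℝ) ≤ satProb k n₁ a₀) (hP₂ : (3 / 4 : ℝ) ≤ satProb k n₂ b₀)
    (hx0 : 0 < (a₀ : ℝ) - ((m + e₀ : ℕ) : ℝ) * ((n₁ : ℝ) / (n₁ + n₂ : ℕ)))
    (hy0 : 0 < (b₀ : ℝ) - ((m + e₀ : ℕ) : ℝ) * ((n₂ : ℝ) / (n₁ + n₂ : ℕ)))
    (htail1 : ((m + e₀ : ℕ) : ℝ) * ((n₁ : ℝ) / (n₁ + n₂ : ℕ)) * ((n₂ : ℝ) / (n₁ + n₂ : ℕ)) /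
      ((a₀ : ℝ) - ((m + e₀ : ℕ) : ℝ) * ((n₁ : ℝ) / (n₁ + n₂ : ℕ))) ^ 2 ≤ (1 / 4) / 6)
    (htail2 : ((m + e₀ : ℕ) : ℝ) * ((n₁ : ℝ) / (n₁ + n₂ : ℕ)) * ((n₂ : ℝ) / (n₁ + n₂ : ℕ)) /
      ((b₀ : ℝ) - ((m + e₀ : ℕ) : ℝ) * ((n₂ : ℝ) / (n₁ + n₂ : ℕ))) ^ 2 ≤ (1 / 4) / 6) :
    (27 / 64 : ℝ) ≤ satProb k (n₁ + n₂) m := by
  have hδ : (0 : ℝ) < 1 / 4 := by norm_num
  have hw0 : 0 < w := by linarith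
  have hnpos : (1 : ℝ) ≤ ((n₁ + n₂ : ℕ) : ℝ) := by
    rw [← hw2]; nlinarith
  have hfn : f₀ ≤ n₁ + n₂ := by
    have h1 : (f₀ : ℝ) ≤ ((n₁ + n₂ : ℕ) : ℝ) := by
      have h2 : w ≤ w ^ 2 := by nlinarith
      have h3 : D * w ≤ 1 * w := mul_le_mul_of_nonneg_right hD1 hw0.le
      linarith
    exact_mod_cast h1
  have hEE : C * (f₀ : ℝ) ^ 2 / (1 / 4) ≤ ((n₁ + n₂ : ℕ) : ℝ) := by
    have h1 : (f₀ : ℝ) ^ 2 ≤ (D * w) ^ 2 := pow_le_pow_left₀ hf0.le hf1 2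
    have h2 : (D * w) ^ 2 = (1 / 4) / C * ((n₁ + n₂ : ℕ) : ℝ) := by
      rw [mul_pow, hD2, hw2]
    rw [div_le_iff₀ hδ]
    have h3 : C * (f₀ : ℝ) ^ 2 ≤ C * ((1 / 4) / C * ((n₁ + n₂ : ℕ) : ℝ)) :=
      mul_le_mul_of_nonneg_left (by rw [← h2]; exact h1) hC0.le
    have h4 : C * ((1 / 4) / C * ((n₁ + n₂ : ℕ) : ℝ)) = ((n₁ + n₂ : ℕ) : ℝ) * (1 / 4) := by
      field_simp
    linarith
  have hn0 : 0 < n₁ + n₂ := by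
    have : (0 : ℝ) < ((n₁ + n₂ : ℕ) : ℝ) := by linarith
    exact_mod_cast this
  obtain ⟨hη1, hmη⟩ := eta_bounds (k := k) (f₀ := f₀) (n := n₁ + n₂) (m := m) (C := C) (δ := 1 / 4)
    hk2 hC0 hδ hfn hn0 hmC hEE
  have hγterm : (m : ℝ) * (G / (f₀ : ℝ)) / ((e₀ : ℝ) + 1) ≤ (1 / 4) / 3 :=
    SuperAux.gamma_term hC0 hG0 hD0 hδ hw0 (by positivity) (by rw [hw2]; exact hmC) hf7
      (by positivity) (by rw [← hEdef]; linarith)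
  have hγ0 : 0 ≤ G / (f₀ : ℝ) := by positivity
  have hγ1 : G / (f₀ : ℝ) ≤ 1 := by
    rw [div_le_one hf0]; exact hf6
  have hR : ((f₀ : ℝ) / ((f₀ : ℝ) - (2 * (k : ℝ) - 2))) ^ k - 1 ≤ 3 / 4 * (G / (f₀ : ℝ)) := by
    rw [hGdef]
    exact SuperAux.ratio_aux k ha' hf0 hf5
  have hcore := supermult_core (k := k) (n₁ := n₁) (n₂ := n₂) (m := m) (e₀ := e₀) (a₀ := a₀)
    (b₀ := b₀) (f₀ := f₀) (γ := G / (f₀ : ℝ)) (δ := 1 / 4) hk2 hk₁ hk₂ hf₀nat hγ0 hγ1 hR hδ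
    (by norm_num) hη1 hmη hγterm hx0 hy0 htail1 htail2
  have h1 : (3 / 4 : ℝ) * (3 / 4) ≤ satProb k n₁ a₀ * satProb k n₂ b₀ :=
    mul_le_mul hP₁ hP₂ (by norm_num) (satProb_nonneg _ _ _)
  generalize satProb k n₁ a₀ * satProb k n₂ b₀ = Q at *
  generalize satProb k (n₁ + n₂) m = P at *
  linarith

/-- The pair of sides. -/
lemma step_sides {n₁ n₂ m e₀ a₀ b₀ ν : ℕ} {c A K' sK E C s w : ℝ}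
    (hn₁R : (1 : ℝ) ≤ n₁) (hn₂R : (1 : ℝ) ≤ n₂) (hν1 : (1 : ℝ) ≤ ν)
    (hνn₁ : (ν : ℝ) ≤ n₁) (hνn₂ : (ν : ℝ) ≤ n₂) (hνmul : (n₁ : ℝ) * n₂ ≤ ν * ((n₁ : ℝ) + n₂))
    (hsK0 : 0 ≤ sK) (hE0 : 0 ≤ E) (hC0 : 0 ≤ C)
    (hs : s = Real.sqrt (ν : ℝ)) (hc : c = A - K' / s) (hcC : c ≤ C)
    (hw : w = Real.sqrt ((n₁ + n₂ : ℕ) : ℝ))
    (hm1 : (m : ℝ) ≤ c * ((n₁ + n₂ : ℕ) : ℝ)) (he2 : (e₀ : ℝ) ≤ E * w + 1)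
    (ha₁ : A * (n₁ : ℝ) - 2 * sK * Real.sqrt (n₁ : ℝ) < (a₀ : ℝ) + 1)
    (ha₂ : A * (n₂ : ℝ) - 2 * sK * Real.sqrt (n₂ : ℝ) < (b₀ : ℝ) + 1)
    (hK1 : 1 ≤ K') (hK2 : 2 * (2 * sK + E + 2) ≤ K') (hK3 : 24 * (C + E + 1) / (1 / 4) ≤ K') :
    0 < (a₀ : ℝ) - ((m + e₀ : ℕ) : ℝ) * ((n₁ : ℝ) / (n₁ + n₂ : ℕ)) ∧
    0 < (b₀ : ℝ) - ((m + e₀ : ℕ) : ℝ) * ((n₂ : ℝ) / (n₁ + n₂ : ℕ)) ∧
    ((m + e₀ : ℕ) : ℝ) * ((n₁ : ℝ) / (n₁ + n₂ : ℕ)) * ((n₂ : ℝ) / (n₁ + n₂ : ℕ)) /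
      ((a₀ : ℝ) - ((m + e₀ : ℕ) : ℝ) * ((n₁ : ℝ) / (n₁ + n₂ : ℕ))) ^ 2 ≤ (1 / 4) / 6 ∧
    ((m + e₀ : ℕ) : ℝ) * ((n₁ : ℝ) / (n₁ + n₂ : ℕ)) * ((n₂ : ℝ) / (n₁ + n₂ : ℕ)) /
      ((b₀ : ℝ) - ((m + e₀ : ℕ) : ℝ) * ((n₂ : ℝ) / (n₁ + n₂ : ℕ))) ^ 2 ≤ (1 / 4) / 6 := by
  have hδ : (0 : ℝ) < 1 / 4 := by norm_num
  have hnR : ((n₁ + n₂ : ℕ) : ℝ) = (n₁ : ℝ) + n₂ := by push_cast; ring
  have hnR' : ((n₁ + n₂ : ℕ) : ℝ) = (n₂ : ℝ) + n₁ := by push_cast; ring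
  have hνmul' : (n₂ : ℝ) * n₁ ≤ ν * ((n₂ : ℝ) + n₁) := by
    rw [mul_comm (n₂ : ℝ), add_comm (n₂ : ℝ)]
    exact hνmul
  have hMcast : ((m + e₀ : ℕ) : ℝ) = (m : ℝ) + e₀ := by push_cast; ring
  have hM0 : (0 : ℝ) ≤ ((m + e₀ : ℕ) : ℝ) := by positivity
  have hside₁ := SuperAux.side_bound (N₁ := (n₁ : ℝ)) (N₂ := (n₂ : ℝ))
    (M := ((m + e₀ : ℕ) : ℝ)) (a := (a₀ : ℝ)) (c := c) (A := A) (K' := K') (sK := sK) (E := E)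
    (C := C) (δ := 1 / 4) (e := (e₀ : ℝ)) (ν := (ν : ℝ)) hn₂R hν1 hνn₁ hνmul hsK0 hE0 hC0 hδ
    (by rw [← hs]; exact hc) hcC hM0
    (by rw [hMcast, ← hnR]; linarith)
    (by rw [← hnR, ← hw]; exact he2)
    ha₁ hK1 hK2 hK3
  have hside₂ := SuperAux.side_bound (N₁ := (n₂ : ℝ)) (N₂ := (n₁ : ℝ))
    (M := ((m + e₀ : ℕ) : ℝ)) (a := (b₀ : ℝ)) (c := c) (A := A) (K' := K') (sK := sK) (E := E)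
    (C := C) (δ := 1 / 4) (e := (e₀ : ℝ)) (ν := (ν : ℝ)) hn₁R hν1 hνn₂ hνmul' hsK0 hE0 hC0 hδ
    (by rw [← hs]; exact hc) hcC hM0
    (by rw [hMcast, ← hnR']; linarith)
    (by rw [← hnR', ← hw]; exact he2)
    ha₂ hK1 hK2 hK3
  rw [← hnR] at hside₁
  rw [← hnR'] at hside₂
  obtain ⟨hx0, htail1⟩ := hside₁
  obtain ⟨hy0, htail2⟩ := hside₂
  refine ⟨hx0, hy0, htail1, ?_⟩
  have : ((m + e₀ : ℕ) : ℝ) * ((n₁ : ℝ) / (n₁ + n₂ : ℕ)) * ((n₂ : ℝ) / (n₁ + n₂ : ℕ)) =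
      ((m + e₀ : ℕ) : ℝ) * ((n₂ : ℝ) / (n₁ + n₂ : ℕ)) * ((n₁ : ℝ) / (n₁ + n₂ : ℕ)) := by ring
  rw [this]
  exact htail2

/-- From a lower bound on the probability at `m` to a lower bound on the mean density at `n`. -/
lemma step_upper {k n m : ℕ} {a₁ c A K' sK Kc s w : ℝ} (hk' : k ≤ n) (hKc : 0 < Kc)
    (hsKdef : sK = Real.sqrt Kc) (hsK0 : 0 ≤ sK) (hw : w = Real.sqrt (n : ℝ)) (hw1 : 1 ≤ w)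
    (hs0 : 0 < s) (hsw : s ≤ w) (ha0 : 0 ≤ a₁) (hc : c = A - K' / s)
    (hm2 : c * (n : ℝ) < (m : ℝ) + 1)
    (hPn : (27 / 64 : ℝ) ≤ satProb k n m)
    (hU : satProb k n ⌈a₁ * (n : ℝ) + 2 * Real.sqrt (Kc * (n : ℝ))⌉₊ ≤ (1 / 4 : ℝ)) :
    A - (K' + 2 * sK + 1) / s ≤ a₁ := by
  have hw0 : 0 < w := by linarith
  have hw2 : w ^ 2 = (n : ℝ) := by
    rw [hw]; exact Real.sq_sqrt (Nat.cast_nonneg _)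
  have hsqn : Real.sqrt (Kc * (n : ℝ)) = sK * w := by
    rw [hsKdef, hw, Real.sqrt_mul hKc.le]
  rw [hsqn] at hU
  have hlt : m < ⌈a₁ * (n : ℝ) + 2 * (sK * w)⌉₊ := by
    by_contra hcon
    push Not at hcon
    have := satProb_anti hk' hcon
    linarith
  have hy0' : 0 ≤ a₁ * (n : ℝ) + 2 * (sK * w) := by positivity
  have hceil := Nat.ceil_lt_add_one hy0'
  have hlt' : (m : ℝ) + 1 ≤ (⌈a₁ * (n : ℝ) + 2 * (sK * w)⌉₊ : ℝ) := by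
    exact_mod_cast hlt
  have hfinal : (A - K' / s) * w ^ 2 < a₁ * w ^ 2 + 2 * sK * w + 1 := by
    rw [hw2, ← hc]
    linarith
  exact SuperAux.final_aux hsK0 hw1 hs0 hsw hfinal

/-- Size facts. -/
lemma nu_facts {n₁ n₂ ν : ℕ} (hν : ν = min n₁ n₂) (hn₁0 : 0 < n₁) (hn₂0 : 0 < n₂) :
    (ν : ℝ) ≤ n₁ ∧ (ν : ℝ) ≤ n₂ ∧ (1 : ℝ) ≤ ν ∧ (n₁ : ℝ) * n₂ ≤ ν * ((n₁ : ℝ) + n₂) := by
  have hn₁R : (0 : ℝ) ≤ n₁ := Nat.cast_nonneg _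
  have hn₂R : (0 : ℝ) ≤ n₂ := Nat.cast_nonneg _
  refine ⟨by exact_mod_cast (hν ▸ min_le_left n₁ n₂), by exact_mod_cast (hν ▸ min_le_right n₁ n₂),
    ?_, ?_⟩
  · have : 1 ≤ ν := by
      rw [hν]; exact le_min hn₁0 hn₂0
    exact_mod_cast this
  · rcases min_choice n₁ n₂ with h | h
    · rw [← hν] at h
      rw [h]
      nlinarith
    · rw [← hν] at h
      rw [h]
      nlinarith

/-- The main case for a fixed pair, `c > 0`. -/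
lemma pair_main {k n₁ n₂ ν : ℕ} {a : ℕ → ℝ} {Kc C D G E sK K' A c s : ℝ}
    (hk3 : 3 ≤ k) (hk₁ : k ≤ n₁) (hk₂ : k ≤ n₂) (hKc : 0 < Kc) (hC : 1 ≤ C)
    (hD0 : 0 < D) (hD2 : D ^ 2 = (1 / 4) / C) (hD1 : D ≤ 1)
    (hGdef : G = 4 / 3 * 2 ^ k * (2 * (2 * (k : ℝ) - 2))) (hG0 : 0 < G)
    (hEdef : E = 6 * C * G / ((1 / 4) * D)) (hE0 : 0 < E)
    (hsKdef : sK = Real.sqrt Kc) (hsK0 : 0 ≤ sK)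
    (hK1 : 1 ≤ K') (hK2 : 2 * (2 * sK + E + 2) ≤ K') (hK3 : 24 * (C + E + 1) / (1 / 4) ≤ K')
    (hLw : 2 * (2 * (k : ℝ) + 2 * (2 * (k : ℝ) - 2) + G) + 2 ≤ D * Real.sqrt ((n₁ + n₂ : ℕ) : ℝ))
    (hν : ν = min n₁ n₂) (hs : s = Real.sqrt (ν : ℝ))
    (hA : A = min (a n₁) (a n₂)) (hc : c = A - K' / s) (hc0 : 0 < c)
    (hcC : c ≤ C)
    (hlo₁ : (3 / 4 : ℝ) ≤ satProb k n₁ ⌊a n₁ * (n₁ : ℝ) - 2 * Real.sqrt (Kc * (n₁ : ℝ))⌋₊)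
    (hlo₂ : (3 / 4 : ℝ) ≤ satProb k n₂ ⌊a n₂ * (n₂ : ℝ) - 2 * Real.sqrt (Kc * (n₂ : ℝ))⌋₊)
    (hU : satProb k (n₁ + n₂) ⌈a (n₁ + n₂) * ((n₁ + n₂ : ℕ) : ℝ) +
      2 * Real.sqrt (Kc * ((n₁ + n₂ : ℕ) : ℝ))⌉₊ ≤ (1 / 4 : ℝ))
    (ha0 : 0 ≤ a (n₁ + n₂)) :
    A - (K' + 2 * sK + 1) / s ≤ a (n₁ + n₂) := by
  have hk2 : 2 ≤ k := by omega
  have hkR : (3 : ℝ) ≤ (k : ℝ) := by exact_mod_cast hk3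
  have ha'0 : 0 ≤ 2 * (k : ℝ) - 2 := by linarith
  have hC0 : 0 < C := by linarith
  have hn₁0 : 0 < n₁ := by omega
  have hn₂0 : 0 < n₂ := by omega
  have hn₁R : (1 : ℝ) ≤ n₁ := by exact_mod_cast hn₁0
  have hn₂R : (1 : ℝ) ≤ n₂ := by exact_mod_cast hn₂0
  have hnR : ((n₁ + n₂ : ℕ) : ℝ) = (n₁ : ℝ) + n₂ := by push_cast; ring
  have hnpos : (1 : ℝ) ≤ ((n₁ + n₂ : ℕ) : ℝ) := by rw [hnR]; linarith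
  obtain ⟨hνn₁, hνn₂, hν1, hνmul⟩ := nu_facts hν hn₁0 hn₂0
  have hs1 : 1 ≤ s := by rw [hs]; exact Real.one_le_sqrt.2 hν1
  have hs0 : 0 < s := by linarith
  have hcA : c ≤ A := by
    rw [hc]
    have : 0 ≤ K' / s := by positivity
    linarith
  have hA₁ : A ≤ a n₁ := hA ▸ min_le_left _ _
  have hA₂ : A ≤ a n₂ := hA ▸ min_le_right _ _
  obtain ⟨w, hwdef⟩ : ∃ w, w = Real.sqrt ((n₁ + n₂ : ℕ) : ℝ) := ⟨_, rfl⟩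
  rw [← hwdef] at hLw
  have hw2 : w ^ 2 = ((n₁ + n₂ : ℕ) : ℝ) := by rw [hwdef]; exact Real.sq_sqrt (by linarith)
  have hw1 : 1 ≤ w := by rw [hwdef]; exact Real.one_le_sqrt.2 hnpos
  have hw0 : 0 < w := by linarith
  have hsw : s ≤ w := by
    rw [hs, hwdef]
    apply Real.sqrt_le_sqrt
    rw [hnR]
    linarith
  obtain ⟨m, hm⟩ : ∃ m : ℕ, m = ⌊c * ((n₁ + n₂ : ℕ) : ℝ)⌋₊ := ⟨_, rfl⟩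
  have hm1 : (m : ℝ) ≤ c * ((n₁ + n₂ : ℕ) : ℝ) := by
    rw [hm]; exact Nat.floor_le (by positivity)
  have hm2 : c * ((n₁ + n₂ : ℕ) : ℝ) < (m : ℝ) + 1 := by
    rw [hm]; exact Nat.lt_floor_add_one _
  have hmC : (m : ℝ) ≤ C * ((n₁ + n₂ : ℕ) : ℝ) :=
    hm1.trans (mul_le_mul_of_nonneg_right hcC (by linarith))
  obtain ⟨f₀, hf₀def⟩ : ∃ f₀ : ℕ, f₀ = ⌊D * w⌋₊ := ⟨_, rfl⟩
  obtain ⟨hf1, hf7, hf4, hf5, hf6, hf0⟩ :=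
    f_facts (k := (k : ℝ)) (a' := 2 * (k : ℝ) - 2) (G := G) (by linarith) ha'0 hG0.le hLw hf₀def
  have hf₀nat : 2 * k ≤ f₀ := by exact_mod_cast hf4
  obtain ⟨e₀, he₀def⟩ : ∃ e₀ : ℕ, e₀ = ⌈E * w⌉₊ := ⟨_, rfl⟩
  have he1 : E * w ≤ (e₀ : ℝ) := by rw [he₀def]; exact Nat.le_ceil _
  have he2 : (e₀ : ℝ) ≤ E * w + 1 := by
    rw [he₀def]; exact (Nat.ceil_lt_add_one (by positivity)).le
  have hsq₁ : Real.sqrt (Kc * (n₁ : ℝ)) = sK * Real.sqrt (n₁ : ℝ) := by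
    rw [hsKdef, Real.sqrt_mul hKc.le]
  have hsq₂ : Real.sqrt (Kc * (n₂ : ℝ)) = sK * Real.sqrt (n₂ : ℝ) := by
    rw [hsKdef, Real.sqrt_mul hKc.le]
  have ha₁ := Nat.lt_floor_add_one (a n₁ * (n₁ : ℝ) - 2 * Real.sqrt (Kc * (n₁ : ℝ)))
  have ha₂ := Nat.lt_floor_add_one (a n₂ * (n₂ : ℝ) - 2 * Real.sqrt (Kc * (n₂ : ℝ)))
  generalize ⌊a n₁ * (n₁ : ℝ) - 2 * Real.sqrt (Kc * (n₁ : ℝ))⌋₊ = a₀ at hlo₁ ha₁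
  generalize ⌊a n₂ * (n₂ : ℝ) - 2 * Real.sqrt (Kc * (n₂ : ℝ))⌋₊ = b₀ at hlo₂ ha₂
  rw [hsq₁] at ha₁
  rw [hsq₂] at ha₂
  have ha₁' : A * (n₁ : ℝ) - 2 * sK * Real.sqrt (n₁ : ℝ) < (a₀ : ℝ) + 1 := by
    have h1 : A * (n₁ : ℝ) ≤ a n₁ * (n₁ : ℝ) :=
      mul_le_mul_of_nonneg_right hA₁ (by linarith)
    linarith
  have ha₂' : A * (n₂ : ℝ) - 2 * sK * Real.sqrt (n₂ : ℝ) < (b₀ : ℝ) + 1 := by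
    have h1 : A * (n₂ : ℝ) ≤ a n₂ * (n₂ : ℝ) :=
      mul_le_mul_of_nonneg_right hA₂ (by linarith)
    linarith
  obtain ⟨hx0, hy0, htail1, htail2⟩ := step_sides hn₁R hn₂R hν1 hνn₁ hνn₂ hνmul hsK0 hE0.le hC0.le hs hc hcC
    hwdef hm1 he2 ha₁' ha₂' hK1 hK2 hK3
  have hPn := step_core hk2 hk₁ hk₂ ha'0 hC0 hD0 hD2 hD1 hGdef hG0 hEdef hw2 hw1 hf0 hf1 hf7 hf₀nat
    hf5 hf6 hmC he1 hlo₁ hlo₂ hx0 hy0 htail1 htail2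
  exact step_upper (n := n₁ + n₂) (by omega) hKc hsKdef hsK0 hwdef hw1 hs0 hsw ha0 hc hm2 hPn hU

/-- Almost superadditivity from the two Chebyshev bounds. -/
theorem super_of_cheb {k : ℕ} (hk3 : 3 ≤ k) {Kc C : ℝ} {Nc : ℕ} (a : ℕ → ℝ) (hKc : 0 < Kc)
    (hC : 1 ≤ C)
    (hlow : ∀ n' : ℕ, Nc ≤ n' → 4 * Kc ≤ (n' : ℝ) → 0 < n' →
      (3 / 4 : ℝ) ≤ satProb k n' ⌊a n' * (n' : ℝ) - 2 * Real.sqrt (Kc * (n' : ℝ))⌋₊)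
    (hup : ∀ n' : ℕ, Nc ≤ n' → 4 * Kc ≤ (n' : ℝ) → 0 < n' →
      satProb k n' ⌈a n' * (n' : ℝ) + 2 * Real.sqrt (Kc * (n' : ℝ))⌉₊ ≤ (1 / 4 : ℝ))
    (ha0 : ∀ n, 0 ≤ a n) (haC : ∀ n, k ≤ n → 0 < n → a n ≤ C) :
    ∃ (K : ℝ) (N : ℕ), 0 < K ∧ ∀ n₁ n₂, N ≤ n₁ → N ≤ n₂ →
      min (a n₁) (a n₂) - K / Real.sqrt (min n₁ n₂ : ℕ) ≤ a (n₁ + n₂) := by
  have hkR : (3 : ℝ) ≤ (k : ℝ) := by exact_mod_cast hk3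
  have hC0 : 0 < C := by linarith
  have hδ : (0 : ℝ) < 1 / 4 := by norm_num
  obtain ⟨D, hDdef⟩ : ∃ D, D = Real.sqrt ((1 / 4) / C) := ⟨_, rfl⟩
  have hD0 : 0 < D := by rw [hDdef]; positivity
  have hD2 : D ^ 2 = (1 / 4) / C := by rw [hDdef]; exact Real.sq_sqrt (by positivity)
  have hD1 : D ≤ 1 := by
    rw [hDdef]
    apply Real.sqrt_le_one.2
    rw [div_le_one hC0]
    linarith
  have ha'0 : 0 < 2 * (k : ℝ) - 2 := by linarith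
  obtain ⟨G, hGdef⟩ : ∃ G, G = 4 / 3 * 2 ^ k * (2 * (2 * (k : ℝ) - 2)) := ⟨_, rfl⟩
  have hG0 : 0 < G := by rw [hGdef]; positivity
  obtain ⟨E, hEdef⟩ : ∃ E, E = 6 * C * G / ((1 / 4) * D) := ⟨_, rfl⟩
  have hE0 : 0 < E := by rw [hEdef]; positivity
  obtain ⟨sK, hsKdef⟩ : ∃ sK, sK = Real.sqrt Kc := ⟨_, rfl⟩
  have hsK0 : 0 ≤ sK := by rw [hsKdef]; positivity
  obtain ⟨K', hK'def⟩ : ∃ K', K' = 2 * (2 * sK + E + 2) + 24 * (C + E + 1) / (1 / 4) + 1 := ⟨_, rfl⟩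
  have hK3pos : 0 ≤ 24 * (C + E + 1) / ((1 : ℝ) / 4) := by positivity
  have hK1 : 1 ≤ K' := by rw [hK'def]; linarith
  have hK2 : 2 * (2 * sK + E + 2) ≤ K' := by rw [hK'def]; linarith
  have hK3 : 24 * (C + E + 1) / (1 / 4) ≤ K' := by rw [hK'def]; linarith
  obtain ⟨L, hLdef⟩ : ∃ L, L = 2 * (2 * (k : ℝ) + 2 * (2 * (k : ℝ) - 2) + G) + 2 := ⟨_, rfl⟩
  refine ⟨K' + 2 * sK + 1, max Nc (max k (max (⌈4 * Kc⌉₊ + 1) (⌈(L / D) ^ 2⌉₊ + 1))), by linarith, ?_⟩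
  intro n₁ n₂ hn₁ hn₂
  have hNc₁ : Nc ≤ n₁ := (le_max_left _ _).trans hn₁
  have hNc₂ : Nc ≤ n₂ := (le_max_left _ _).trans hn₂
  have hR₁ := (le_max_right _ _).trans hn₁
  have hR₂ := (le_max_right _ _).trans hn₂
  have hk₁ : k ≤ n₁ := (le_max_left _ _).trans hR₁
  have hk₂ : k ≤ n₂ := (le_max_left _ _).trans hR₂
  have hS₁ := (le_max_right _ _).trans hR₁
  have hS₂ := (le_max_right _ _).trans hR₂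
  have h4₁ : 4 * Kc ≤ (n₁ : ℝ) := ceil_bound ((le_max_left _ _).trans hS₁)
  have h4₂ : 4 * Kc ≤ (n₂ : ℝ) := ceil_bound ((le_max_left _ _).trans hS₂)
  have hL₁ : (L / D) ^ 2 ≤ (n₁ : ℝ) := ceil_bound ((le_max_right _ _).trans hS₁)
  have hn₁0 : 0 < n₁ := by omega
  have hn₂0 : 0 < n₂ := by omega
  have hnR : ((n₁ + n₂ : ℕ) : ℝ) = (n₁ : ℝ) + n₂ := by push_cast; ring
  have hn₂R' : (0 : ℝ) ≤ n₂ := Nat.cast_nonneg _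
  obtain ⟨ν, hνdef⟩ : ∃ ν : ℕ, ν = min n₁ n₂ := ⟨_, rfl⟩
  rw [← hνdef]
  obtain ⟨_, _, hν1, _⟩ := nu_facts hνdef hn₁0 hn₂0
  obtain ⟨s, hsdef⟩ : ∃ s, s = Real.sqrt (ν : ℝ) := ⟨_, rfl⟩
  have hs0 : 0 < s := by
    rw [hsdef]; exact Real.sqrt_pos.2 (by linarith)
  rw [← hsdef]
  obtain ⟨A, hAdef⟩ : ∃ A, A = min (a n₁) (a n₂) := ⟨_, rfl⟩
  rw [← hAdef]
  obtain ⟨c, hcdef⟩ : ∃ c, c = A - K' / s := ⟨_, rfl⟩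
  have hdivsplit : (K' + 2 * sK + 1) / s = K' / s + (2 * sK + 1) / s := by ring
  have hextra : 0 ≤ (2 * sK + 1) / s := by positivity
  by_cases hc : c ≤ 0
  · have h0 := ha0 (n₁ + n₂)
    rw [hdivsplit]
    linarith
  push Not at hc
  have hcC : c ≤ C := by
    have h1 := haC n₁ hk₁ hn₁0
    have h2 : A ≤ a n₁ := hAdef ▸ min_le_left _ _
    have h3 : 0 ≤ K' / s := by positivity
    linarith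
  have hLw : 2 * (2 * (k : ℝ) + 2 * (2 * (k : ℝ) - 2) + G) + 2 ≤ D * Real.sqrt ((n₁ + n₂ : ℕ) : ℝ) := by
    rw [← hLdef]
    have h1 : L / D ≤ Real.sqrt ((n₁ + n₂ : ℕ) : ℝ) := by
      apply Real.le_sqrt_of_sq_le
      rw [hnR]
      linarith
    have h2 := (div_le_iff₀ hD0).1 h1
    linarith
  have hKcn : 4 * Kc ≤ ((n₁ + n₂ : ℕ) : ℝ) := by rw [hnR]; linarith
  exact pair_main hk3 hk₁ hk₂ hKc hC hD0 hD2 hD1 hGdef hG0 hEdef hE0 hsKdef hsK0 hK1 hK2 hK3 hLw hνdef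
    hsdef hAdef hcdef hc hcC (hlow n₁ hNc₁ h4₁ hn₁0) (hlow n₂ hNc₂ h4₂ hn₂0)
    (hup (n₁ + n₂) (by omega) hKcn (by omega)) (ha0 _)

end Vale.Agent.Lib.P170.SuperAN
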