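import Mathlib
import Vale.Agent.Lib.P170.W.ES
import Vale.Agent.Lib.P170.Main
import Vale.Agent.Lib.P170.W.SuperAN

/-!
M5: from the variance bound to the limiting threshold.
-/

set_option linter.unusedSectionVars false

open Finset

namespace Vale.Agent.Lib.P170

/-- The horizon density. -/
noncomputable def Chor (k : ℕ) : ℝ := 2 ^ (k + 1) + 2

/-- The mean density of the clipped death time. -/
noncomputable def aN (k n : ℕ) : ℝ :=
  (∑ i ∈ range ⌊Chor k * (n : ℝ)⌋₊, satProb k n i) / (n : ℝ)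

lemma aN_nonneg (k n : ℕ) : 0 ≤ aN k n := by
  unfold aN
  exact div_nonneg (Finset.sum_nonneg (fun i _ => satProb_nonneg k n i)) (Nat.cast_nonneg n)

lemma aN_le {k n : ℕ} (hk : k ≤ n) (hn : 0 < n) : aN k n ≤ Chor k := by
  unfold aN
  have hnR : (0 : ℝ) < n := by exact_mod_cast hn
  rw [div_le_iff₀ hnR]
  have hC : 0 ≤ Chor k * (n : ℝ) := by unfold Chor; positivity
  calc ∑ i ∈ range ⌊Chor k * (n : ℝ)⌋₊, satProb k n i
      ≤ ∑ _i ∈ range ⌊Chor k * (n : ℝ)⌋₊, (1 : ℝ) :=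
        Finset.sum_le_sum (fun i _ => satProb_le_one hk i)
    _ = (⌊Chor k * (n : ℝ)⌋₊ : ℝ) := by simp
    _ ≤ Chor k * n := Nat.floor_le hC

/-- Above density `2^(k+1)` the satisfiability probability is exponentially small. -/
lemma satProb_very_large {k n m : ℕ} (hk : k ≤ n) (hm : 2 ^ (k + 1) * n ≤ m) :
    satProb k n m ≤ (1 / 2 : ℝ) ^ n := by
  have h1 := satProb_first_moment hk m
  have hx0 : (0 : ℝ) ≤ 1 - (2 : ℝ)⁻¹ ^ k := by
    have : (2 : ℝ)⁻¹ ^ k ≤ 1 := pow_le_one₀ (by norm_num) (by norm_num)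
    linarith
  have hx1 : 1 - (2 : ℝ)⁻¹ ^ k ≤ 1 := by
    have : (0 : ℝ) ≤ (2 : ℝ)⁻¹ ^ k := by positivity
    linarith
  have h2 : (1 - (2 : ℝ)⁻¹ ^ k) ^ m ≤ (1 - (2 : ℝ)⁻¹ ^ k) ^ (2 ^ (k + 1) * n) :=
    pow_le_pow_of_le_one hx0 hx1 hm
  have h3 : (1 - (2 : ℝ)⁻¹ ^ k) ≤ Real.exp (-((2 : ℝ)⁻¹ ^ k)) := Real.one_sub_le_exp_neg _
  have h4 : (1 - (2 : ℝ)⁻¹ ^ k) ^ (2 ^ (k + 1) * n) ≤
      (Real.exp (-((2 : ℝ)⁻¹ ^ k))) ^ (2 ^ (k + 1) * n) :=
    pow_le_pow_left₀ hx0 h3 _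
  have h5 : (Real.exp (-((2 : ℝ)⁻¹ ^ k))) ^ (2 ^ (k + 1) * n) = Real.exp (-(2 * n)) := by
    rw [← Real.exp_nat_mul]
    congr 1
    push_cast
    rw [pow_succ, inv_pow]
    field_simp
  have h7 : Real.exp (-(2 * (n : ℝ))) = (Real.exp (-2)) ^ n := by
    rw [← Real.exp_nat_mul]
    congr 1
    ring
  have h8 : Real.exp (-2) ≤ 1 / 4 := by
    have h9 : (4 : ℝ) ≤ Real.exp 2 := by
      have := Real.add_one_le_exp (1 : ℝ)
      have h10 : Real.exp 2 = Real.exp 1 * Real.exp 1 := by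
        rw [← Real.exp_add]; norm_num
      rw [h10]
      nlinarith
    rw [Real.exp_neg, inv_eq_one_div]
    exact one_div_le_one_div_of_le (by norm_num) h9
  have h6 : (2 : ℝ) ^ n * Real.exp (-(2 * n)) ≤ (1 / 2 : ℝ) ^ n := by
    rw [h7, ← mul_pow]
    exact pow_le_pow_left₀ (by positivity) (by linarith) n
  calc satProb k n m ≤ 2 ^ n * (1 - (2 : ℝ)⁻¹ ^ k) ^ m := h1
    _ ≤ 2 ^ n * Real.exp (-(2 * n)) := by
        apply mul_le_mul_of_nonneg_left _ (by positivity)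
        calc (1 - (2 : ℝ)⁻¹ ^ k) ^ m ≤ (1 - (2 : ℝ)⁻¹ ^ k) ^ (2 ^ (k + 1) * n) := h2
          _ ≤ (Real.exp (-((2 : ℝ)⁻¹ ^ k))) ^ (2 ^ (k + 1) * n) := h4
          _ = Real.exp (-(2 * n)) := h5
    _ ≤ (1 / 2 : ℝ) ^ n := h6

/-- Concentration around the mean: lower side and upper side, with variance constant `K`. -/
theorem aN_cheb {j : ℕ} (hj : 2 ≤ j) :
    ∃ (K : ℝ) (N : ℕ), 0 < K ∧ ∀ n, N ≤ n → ∀ x : ℝ, 0 < x → x ≤ n →
      (((x : ℝ) ^ 2 * (1 - satProb (j + 1) n ⌊aN (j + 1) n * (n : ℝ) - x⌋₊) ≤ K * (n : ℝ)) ∧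
       ((x : ℝ) ^ 2 * satProb (j + 1) n ⌈aN (j + 1) n * (n : ℝ) + x⌉₊ ≤ K * (n : ℝ))) := by
  have hC : (0 : ℝ) < Chor (j + 1) := by unfold Chor; positivity
  obtain ⟨K₀, N₀, hK₀, hcheb⟩ := cheb_bounds (j := j) hj hC
  refine ⟨max K₀ 1, max N₀ (j + 1), lt_max_of_lt_right one_pos, ?_⟩
  intro n hn x hx hxn
  have hN₀ : N₀ ≤ n := (le_max_left _ _).trans hn
  have hkn : j + 1 ≤ n := (le_max_right _ _).trans hn
  have hnpos : 0 < n := by omega
  have hnR : (0 : ℝ) < n := by exact_mod_cast hnpos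
  have hCn : 0 ≤ Chor (j + 1) * (n : ℝ) := by positivity
  set M : ℕ := ⌊Chor (j + 1) * (n : ℝ)⌋₊ with hM
  have hMle : (M : ℝ) ≤ Chor (j + 1) * (n : ℝ) := Nat.floor_le hCn
  have hc := hcheb n hN₀ M hMle
  simp only at hc
  set μ : ℝ := ∑ i ∈ range M, satProb (j + 1) n i with hμ
  have haN : aN (j + 1) n * (n : ℝ) = μ := by
    unfold aN
    rw [div_mul_cancel₀ _ hnR.ne']
  rw [haN]
  have hμM : μ ≤ M := by
    calc μ ≤ ∑ _i ∈ range M, (1 : ℝ) :=
          Finset.sum_le_sum (fun i _ => satProb_le_one hkn i)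
      _ = (M : ℝ) := by simp
  have hK1 : K₀ * (n : ℝ) ≤ max K₀ 1 * (n : ℝ) :=
    mul_le_mul_of_nonneg_right (le_max_left _ _) hnR.le
  have hK2 : (n : ℝ) ≤ max K₀ 1 * (n : ℝ) := by
    have := mul_le_mul_of_nonneg_right (le_max_right K₀ 1) hnR.le
    linarith
  have hx2 : 0 ≤ x ^ 2 := by positivity
  constructor
  · -- lower side
    by_cases hpos : μ - x ≤ 0
    · rw [Nat.floor_of_nonpos hpos, satProb_zero hkn]
      simp only [sub_self, mul_zero]
      positivity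
    · push Not at hpos
      set m : ℕ := ⌊μ - x⌋₊ with hm
      have hmle : (m : ℝ) ≤ μ - x := Nat.floor_le hpos.le
      have hmμ : (m : ℝ) < μ := by linarith
      have hmM : m < M := by
        have : (m : ℝ) < M := lt_of_lt_of_le hmμ hμM
        exact_mod_cast this
      have h1 := (hc m hmM).2 hmμ
      have hP : 0 ≤ 1 - satProb (j + 1) n m := by
        linarith [satProb_le_one hkn m]
      have hsq : x ^ 2 ≤ (μ - m) ^ 2 := by
        apply pow_le_pow_left₀ hx.le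
        linarith
      calc x ^ 2 * (1 - satProb (j + 1) n m) ≤ (μ - m) ^ 2 * (1 - satProb (j + 1) n m) :=
            mul_le_mul_of_nonneg_right hsq hP
        _ = (1 - satProb (j + 1) n m) * (μ - m) ^ 2 := by ring
        _ ≤ K₀ * n := h1
        _ ≤ max K₀ 1 * n := hK1
  · -- upper side
    set m : ℕ := ⌈μ + x⌉₊ with hm
    have hmle : μ + x ≤ (m : ℝ) := Nat.le_ceil _
    have hmμ : μ < (m : ℝ) := by linarith
    by_cases hmM : m < M
    · have h1 := (hc m hmM).1 hmμ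
      have hP : 0 ≤ satProb (j + 1) n m := satProb_nonneg _ _ _
      have hsq : x ^ 2 ≤ ((m : ℝ) - μ) ^ 2 := by
        apply pow_le_pow_left₀ hx.le
        linarith
      calc x ^ 2 * satProb (j + 1) n m ≤ ((m : ℝ) - μ) ^ 2 * satProb (j + 1) n m :=
            mul_le_mul_of_nonneg_right hsq hP
        _ = satProb (j + 1) n m * ((m : ℝ) - μ) ^ 2 := by ring
        _ ≤ K₀ * n := h1
        _ ≤ max K₀ 1 * n := hK1
    · push Not at hmM
      have hMge : 2 ^ (j + 1 + 1) * n ≤ M := by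
        apply Nat.le_floor
        push_cast
        unfold Chor
        nlinarith
      have h1 := satProb_very_large hkn (hMge.trans hmM)
      have hn2 : (n : ℝ) * (1 / 2 : ℝ) ^ n ≤ 1 := by
        have h2 : (n : ℝ) ≤ 2 ^ n := by
          exact_mod_cast (Nat.lt_two_pow_self (n := n)).le
        have h3 : (2 : ℝ) ^ n * (1 / 2 : ℝ) ^ n = 1 := by
          rw [← mul_pow]; norm_num
        have h4 : (0 : ℝ) ≤ (1 / 2 : ℝ) ^ n := by positivity
        nlinarith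
      have hxsq : x ^ 2 ≤ (n : ℝ) ^ 2 := pow_le_pow_left₀ hx.le hxn 2
      calc x ^ 2 * satProb (j + 1) n m ≤ (n : ℝ) ^ 2 * (1 / 2 : ℝ) ^ n :=
            mul_le_mul hxsq h1 (satProb_nonneg _ _ _) (by positivity)
        _ = n * ((n : ℝ) * (1 / 2 : ℝ) ^ n) := by ring
        _ ≤ n * 1 := mul_le_mul_of_nonneg_left hn2 hnR.le
        _ = (n : ℝ) := by ring
        _ ≤ max K₀ 1 * n := hK2

/-- Almost superadditivity of the mean density. -/
theorem aN_super {j : ℕ} (hj : 2 ≤ j) :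
    ∃ (K : ℝ) (N : ℕ), 0 < K ∧ ∀ n₁ n₂, N ≤ n₁ → N ≤ n₂ →
      min (aN (j + 1) n₁) (aN (j + 1) n₂) - K / Real.sqrt (min n₁ n₂ : ℕ) ≤ aN (j + 1) (n₁ + n₂) := by
  obtain ⟨Kc, Nc, hKc, hcheb⟩ := aN_cheb hj
  have hlow : ∀ n' : ℕ, Nc ≤ n' → 4 * Kc ≤ (n' : ℝ) → 0 < n' →
      (3 / 4 : ℝ) ≤ satProb (j + 1) n'
        ⌊aN (j + 1) n' * (n' : ℝ) - 2 * Real.sqrt (Kc * (n' : ℝ))⌋₊ := by
    intro n' hN' h4 hn0
    have hnR : (0 : ℝ) < n' := by exact_mod_cast hn0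
    have hpos : 0 < Kc * (n' : ℝ) := by positivity
    have hx0 : 0 < 2 * Real.sqrt (Kc * (n' : ℝ)) := by positivity
    have hxle : 2 * Real.sqrt (Kc * (n' : ℝ)) ≤ n' := by
      have : Real.sqrt (Kc * (n' : ℝ)) ≤ (n' : ℝ) / 2 := by
        rw [Real.sqrt_le_iff]
        constructor
        · positivity
        · nlinarith
      linarith
    have h1 := (hcheb n' hN' _ hx0 hxle).1
    have hsq : (2 * Real.sqrt (Kc * (n' : ℝ))) ^ 2 = 4 * (Kc * (n' : ℝ)) := by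
      rw [mul_pow, Real.sq_sqrt hpos.le]; norm_num
    rw [hsq] at h1
    generalize satProb (j + 1) n' ⌊aN (j + 1) n' * (n' : ℝ) - 2 * Real.sqrt (Kc * (n' : ℝ))⌋₊ = P at h1 ⊢
    have h2 : (Kc * (n' : ℝ)) * (4 * (1 - P)) ≤ (Kc * (n' : ℝ)) * 1 := by linarith
    have h3 := le_of_mul_le_mul_left h2 hpos
    linarith
  have hup : ∀ n' : ℕ, Nc ≤ n' → 4 * Kc ≤ (n' : ℝ) → 0 < n' →
      satProb (j + 1) n' ⌈aN (j + 1) n' * (n' : ℝ) + 2 * Real.sqrt (Kc * (n' : ℝ))⌉₊ ≤ (1 / 4 : ℝ) := by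
    intro n' hN' h4 hn0
    have hnR : (0 : ℝ) < n' := by exact_mod_cast hn0
    have hpos : 0 < Kc * (n' : ℝ) := by positivity
    have hx0 : 0 < 2 * Real.sqrt (Kc * (n' : ℝ)) := by positivity
    have hxle : 2 * Real.sqrt (Kc * (n' : ℝ)) ≤ n' := by
      have : Real.sqrt (Kc * (n' : ℝ)) ≤ (n' : ℝ) / 2 := by
        rw [Real.sqrt_le_iff]
        constructor
        · positivity
        · nlinarith
      linarith
    have h1 := (hcheb n' hN' _ hx0 hxle).2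
    have hsq : (2 * Real.sqrt (Kc * (n' : ℝ))) ^ 2 = 4 * (Kc * (n' : ℝ)) := by
      rw [mul_pow, Real.sq_sqrt hpos.le]; norm_num
    rw [hsq] at h1
    generalize satProb (j + 1) n' ⌈aN (j + 1) n' * (n' : ℝ) + 2 * Real.sqrt (Kc * (n' : ℝ))⌉₊ = P at h1 ⊢
    have h2 : (Kc * (n' : ℝ)) * (4 * P) ≤ (Kc * (n' : ℝ)) * 1 := by linarith
    have h3 := le_of_mul_le_mul_left h2 hpos
    linarith
  have hC : 1 ≤ Chor (j + 1) := by
    unfold Chor
    have : (0 : ℝ) < 2 ^ (j + 1 + 1) := by positivity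
    linarith
  exact SuperAN.super_of_cheb (k := j + 1) (by omega) (C := Chor (j + 1)) (aN (j + 1)) hKc hC
    hlow hup (fun n => aN_nonneg _ n) (fun n h1 h2 => aN_le h1 h2)

/-- Chebyshev arithmetic. -/
lemma cheb_small {K e m δ p : ℝ} (he : 0 < e) (hm : 0 < m) (hδ : 0 < δ)
    (h : K / (e ^ 2 * δ) ≤ m) (hp : (e * m) ^ 2 * p ≤ K * m) : p ≤ δ := by
  rw [div_le_iff₀ (by positivity)] at h
  by_contra hc
  push Not at hc
  have h1 : (e * m) ^ 2 * δ < (e * m) ^ 2 * p := mul_lt_mul_of_pos_left hc (by positivity)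
  have h2 : K * m ≤ m * (e ^ 2 * δ) * m := mul_le_mul_of_nonneg_right h hm.le
  have h3 : m * (e ^ 2 * δ) * m = (e * m) ^ 2 * δ := by ring
  linarith

lemma ceil_param_e {A : ℝ} {n : ℕ} (h : ⌈A⌉₊ + 1 ≤ n) : A + 1 ≤ n := by
  have h2 := Nat.le_ceil A
  have h3 : ((⌈A⌉₊ + 1 : ℕ) : ℝ) ≤ n := by exact_mod_cast h
  push_cast at h3
  linarith

/-- Gain of the potential `100 K / √x` from doubling. -/
lemma sqrt_gain {x y K : ℝ} (hx : 0 < x) (hxy : x ≤ y) (hyx : y ≤ 2 * x) (hK : 0 < K) :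
    K / Real.sqrt x + 100 * K / Real.sqrt (x + y) ≤ 100 * K / Real.sqrt y := by
  have hy : 0 < y := by linarith
  obtain ⟨s, hsd⟩ : ∃ s, s = Real.sqrt x := ⟨_, rfl⟩
  obtain ⟨t, htd⟩ : ∃ t, t = Real.sqrt y := ⟨_, rfl⟩
  obtain ⟨u, hud⟩ : ∃ u, u = Real.sqrt (x + y) := ⟨_, rfl⟩
  rw [← hsd, ← htd, ← hud]
  have hs : 0 < s := hsd ▸ Real.sqrt_pos.2 hx
  have ht : 0 < t := htd ▸ Real.sqrt_pos.2 hy
  have hu : 0 < u := hud ▸ Real.sqrt_pos.2 (by linarith)
  have hs2 : s ^ 2 = x := hsd ▸ Real.sq_sqrt hx.le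
  have ht2 : t ^ 2 = y := htd ▸ Real.sq_sqrt hy.le
  have hu2 : u ^ 2 = x + y := hud ▸ Real.sq_sqrt (by linarith)
  have h1 : t ≤ 3 / 2 * s := by
    by_contra h
    push Not at h
    nlinarith
  have h2 : 6 / 5 * t ≤ u := by
    by_contra h
    push Not at h
    nlinarith
  have h3 : K / s ≤ (3 / 2) * K / t := by
    rw [div_le_div_iff₀ hs ht]
    nlinarith
  have h4 : 100 * K / u ≤ (500 / 6) * K / t := by
    rw [div_le_div_iff₀ hu ht]
    nlinarith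
  have h5 : (3 / 2) * K / t + (500 / 6) * K / t ≤ 100 * K / t := by
    rw [← add_div]
    apply div_le_div_of_nonneg_right _ ht.le
    nlinarith
  linarith

/-- Pure real sequence lemma: almost superadditive with square-root error gives control of all
multiples. -/
theorem multiples_of_super {a : ℕ → ℝ} {K : ℝ} {N : ℕ} (hK : 0 < K)
    (h : ∀ n₁ n₂, N ≤ n₁ → N ≤ n₂ → min (a n₁) (a n₂) - K / Real.sqrt (min n₁ n₂ : ℕ) ≤ a (n₁ + n₂))
    (n₀ : ℕ) (hn₀ : N ≤ n₀) (hn₀' : 0 < n₀) (q : ℕ) (hq : 1 ≤ q) :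
    a n₀ - 100 * K / Real.sqrt n₀ ≤ a (q * n₀) := by
  have key : ∀ q : ℕ, 1 ≤ q →
      a n₀ - 100 * K / Real.sqrt n₀ + 100 * K / Real.sqrt ((q * n₀ : ℕ) : ℝ) ≤ a (q * n₀) := by
    intro q
    induction q using Nat.strong_induction_on with
    | _ q ih =>
      intro hq
      rcases Nat.eq_or_lt_of_le hq with rfl | hq2
      · simp
      · obtain ⟨q₁, hq₁⟩ : ∃ q₁, q₁ = q / 2 := ⟨_, rfl⟩
        obtain ⟨q₂, hq₂⟩ : ∃ q₂, q₂ = q - q₁ := ⟨_, rfl⟩
        have h1 : 1 ≤ q₁ := by omega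
        have h2 : q₁ ≤ q₂ := by omega
        have h3 : q₂ ≤ 2 * q₁ := by omega
        have h4 : q₁ < q := by omega
        have h5 : q₂ < q := by omega
        have e : q * n₀ = q₁ * n₀ + q₂ * n₀ := by
          rw [← add_mul]
          congr 1
          omega
        have i1 := ih q₁ h4 h1
        have i2 := ih q₂ h5 (by omega)
        have hN1 : N ≤ q₁ * n₀ := hn₀.trans (Nat.le_mul_of_pos_left n₀ (by omega))
        have hN2 : N ≤ q₂ * n₀ := hn₀.trans (Nat.le_mul_of_pos_left n₀ (by omega))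
        have hs := h _ _ hN1 hN2
        have hxy : q₁ * n₀ ≤ q₂ * n₀ := Nat.mul_le_mul_right _ h2
        rw [min_eq_left hxy, ← e] at hs
        have hxpos : (0 : ℝ) < ((q₁ * n₀ : ℕ) : ℝ) := by
          have : 0 < q₁ * n₀ := Nat.mul_pos (by omega) hn₀'
          exact_mod_cast this
        have hxyR : ((q₁ * n₀ : ℕ) : ℝ) ≤ ((q₂ * n₀ : ℕ) : ℝ) := by exact_mod_cast hxy
        have hyxR : ((q₂ * n₀ : ℕ) : ℝ) ≤ 2 * ((q₁ * n₀ : ℕ) : ℝ) := by
          have : q₂ * n₀ ≤ 2 * (q₁ * n₀) := by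
            rw [← mul_assoc]
            exact Nat.mul_le_mul_right _ h3
          exact_mod_cast this
        have hg := sqrt_gain hxpos hxyR hyxR hK
        have hsum : ((q₁ * n₀ : ℕ) : ℝ) + ((q₂ * n₀ : ℕ) : ℝ) = ((q * n₀ : ℕ) : ℝ) := by
          rw [e]
          push_cast
          ring
        rw [hsum] at hg
        have hD : 100 * K / Real.sqrt ((q₂ * n₀ : ℕ) : ℝ) ≤ 100 * K / Real.sqrt ((q₁ * n₀ : ℕ) : ℝ) := by
          apply div_le_div_of_nonneg_left (by positivity) (Real.sqrt_pos.2 hxpos)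
          exact Real.sqrt_le_sqrt hxyR
        have hmin : a n₀ - 100 * K / Real.sqrt n₀ + 100 * K / Real.sqrt ((q₂ * n₀ : ℕ) : ℝ) ≤
            min (a (q₁ * n₀)) (a (q₂ * n₀)) := by
          apply le_min
          · linarith
          · exact i2
        linarith
  have h1 := key q hq
  have h2 : 0 ≤ 100 * K / Real.sqrt ((q * n₀ : ℕ) : ℝ) := by positivity
  linarith

/-- Slow variation of the mean density: lower bound from a nearby multiple. -/
theorem aN_slow {j : ℕ} (hj : 2 ≤ j) {ε : ℝ} (hε : 0 < ε) (L₀ : ℕ) :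
    ∃ N : ℕ, ∀ n L, N ≤ n → L ≤ L₀ → aN (j + 1) n - ε ≤ aN (j + 1) (n + L) := by
  obtain ⟨K, N₁, hK, hcheb⟩ := aN_cheb hj
  obtain ⟨k, hk⟩ : ∃ k, k = j + 1 := ⟨_, rfl⟩
  rw [← hk] at hcheb ⊢
  have hk2 : 2 ≤ k := by omega
  obtain ⟨e, he0, he1, heε⟩ : ∃ e : ℝ, 0 < e ∧ e ≤ 1 ∧ 4 * e ≤ ε :=
    ⟨min 1 (ε / 4), lt_min one_pos (by positivity), min_le_left _ _, by
      have := min_le_right 1 (ε / 4)
      linarith⟩
  have hC : (0 : ℝ) < Chor k := by
    unfold Chor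
    positivity
  obtain ⟨θ, hθ, N₂, hslow⟩ := slowvar_lower (k := k) hk2 hC he0 (by norm_num : (0 : ℝ) < 1 / 10)
  refine ⟨max (max N₁ N₂) (max k (max (⌈K / (e ^ 2 * (1 / 10))⌉₊ + 1)
    (max (⌈(L₀ : ℝ) ^ k / θ⌉₊ + 1) (⌈1 / e⌉₊ + 1)))), ?_⟩
  intro n L hn hL
  have hB1 := (le_max_left _ _).trans hn
  have hB2 := (le_max_right _ _).trans hn
  have hN1 : N₁ ≤ n := (le_max_left _ _).trans hB1
  have hN2 : N₂ ≤ n := (le_max_right _ _).trans hB1
  have hkn : k ≤ n := (le_max_left _ _).trans hB2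
  have hB3 := (le_max_right _ _).trans hB2
  have hn10 : K / (e ^ 2 * (1 / 10)) + 1 ≤ n :=
    ceil_param_e ((le_max_left _ _).trans hB3)
  have hB4 := (le_max_right _ _).trans hB3
  have hnL : (L₀ : ℝ) ^ k / θ + 1 ≤ n := ceil_param_e ((le_max_left _ _).trans hB4)
  have hne : 1 / e + 1 ≤ n := ceil_param_e ((le_max_right _ _).trans hB4)
  have hnpos : 0 < n := by omega
  have hnR : (0 : ℝ) < n := by exact_mod_cast hnpos
  have hn1 : (1 : ℝ) ≤ n := by exact_mod_cast hnpos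
  have hLk : (L : ℝ) ^ k ≤ θ * (n : ℝ) ^ (k - 1) := by
    have h1 : (L : ℝ) ^ k ≤ (L₀ : ℝ) ^ k := by
      apply pow_le_pow_left₀ (by positivity)
      exact_mod_cast hL
    have h2 : (L₀ : ℝ) ^ k ≤ θ * n := by
      have : (L₀ : ℝ) ^ k / θ ≤ n := by linarith
      rw [div_le_iff₀ hθ] at this
      linarith
    have h3 : (n : ℝ) ≤ (n : ℝ) ^ (k - 1) := le_self_pow₀ hn1 (by omega)
    have h4 : θ * (n : ℝ) ≤ θ * (n : ℝ) ^ (k - 1) := mul_le_mul_of_nonneg_left h3 hθ.le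
    linarith
  by_contra hcon
  push Not at hcon
  obtain ⟨a, ha⟩ : ∃ a, a = aN k n := ⟨_, rfl⟩
  obtain ⟨b, hb⟩ : ∃ b, b = aN k (n + L) := ⟨_, rfl⟩
  rw [← ha, ← hb] at hcon
  have hb0 : 0 ≤ b := hb ▸ aN_nonneg k (n + L)
  have haC : a ≤ Chor k := ha ▸ aN_le hkn hnpos
  obtain ⟨c, hc⟩ : ∃ c, c = a - 2 * e := ⟨_, rfl⟩
  have hc0 : 0 ≤ c := by rw [hc]; linarith
  have hcC : c ≤ Chor k := by rw [hc]; linarith
  have h1 := hslow c hc0 hcC n L hN2 hLk
  have hlow := (hcheb n hN1 (e * n) (by positivity) (by nlinarith)).1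
  rw [← ha] at hlow
  have hfl : (c + e) * (n : ℝ) = a * n - e * n := by rw [hc]; ring
  rw [hfl] at h1
  have hp1 := cheb_small (K := K) he0 hnR (by norm_num : (0 : ℝ) < 1 / 10) (by linarith) hlow
  have hmR : ((n + L : ℕ) : ℝ) = (n : ℝ) + L := by push_cast; ring
  have hm1 : (n : ℝ) ≤ ((n + L : ℕ) : ℝ) := by rw [hmR]; nlinarith [(Nat.cast_nonneg L : (0 : ℝ) ≤ L)]
  obtain ⟨m, hmd⟩ : ∃ m : ℝ, m = ((n + L : ℕ) : ℝ) := ⟨_, rfl⟩
  rw [← hmd] at hm1 h1
  have hmpos : 0 < m := by linarith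
  have hup := (hcheb (n + L) (by omega) (e * m) (by positivity)
    (by rw [← hmd]; rw [hmd] at hmpos; nlinarith)).2
  rw [← hb, ← hmd] at hup
  have hp2 := cheb_small (K := K) he0 hmpos (by norm_num : (0 : ℝ) < 1 / 10) (by linarith) hup
  have hem : 1 ≤ e * m := by
    have h2 : 1 / e ≤ m := by linarith
    rw [div_le_iff₀ he0] at h2
    linarith
  have hceil : ⌈b * m + e * m⌉₊ ≤ ⌊c * m⌋₊ := by
    apply Nat.le_floor
    have h2 := Nat.ceil_lt_add_one (a := b * m + e * m) (by positivity)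
    have h3 : b + e ≤ c - e := by rw [hc]; linarith
    nlinarith
  have hknL : k ≤ n + L := by omega
  have h3 := satProb_anti hknL hceil
  linarith

/-- Convergence of the mean density. -/
theorem aN_tendsto {j : ℕ} (hj : 2 ≤ j) :
    ∃ α : ℝ, Filter.Tendsto (fun n => aN (j + 1) n) Filter.atTop (nhds α) := by
  obtain ⟨u, hu⟩ : ∃ u : ℕ → ℝ, u = fun n => aN (j + 1) n := ⟨_, rfl⟩
  rw [← hu]
  have hle : ∀ᶠ n in Filter.atTop, u n ≤ Chor (j + 1) := by
    filter_upwards [Filter.eventually_ge_atTop (j + 1)] with n hn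
    rw [hu]
    exact aN_le hn (by omega)
  have hge : ∀ᶠ n in Filter.atTop, 0 ≤ u n :=
    Filter.Eventually.of_forall (fun n => by rw [hu]; exact aN_nonneg _ n)
  have hB : Filter.IsBoundedUnder (· ≤ ·) Filter.atTop u := Filter.isBoundedUnder_of_eventually_le hle
  have hB' : Filter.IsBoundedUnder (· ≥ ·) Filter.atTop u := Filter.isBoundedUnder_of_eventually_ge hge
  refine ⟨Filter.limsup u Filter.atTop,
    tendsto_of_le_liminf_of_limsup_le ?_ le_rfl hB hB'⟩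
  apply le_of_forall_pos_le_add
  intro ε hε
  obtain ⟨η, hη⟩ : ∃ η, η = ε / 3 := ⟨_, rfl⟩
  have hη0 : 0 < η := by rw [hη]; positivity
  have heps : ε = 3 * η := by rw [hη]; ring
  obtain ⟨K, N, hK, hsup⟩ := aN_super hj
  have hfreq : ∃ᶠ n in Filter.atTop, Filter.limsup u Filter.atTop - η < u n :=
    Filter.frequently_lt_of_lt_limsup hB'.isCoboundedUnder_le (by linarith)
  obtain ⟨n₀, hn₀u, hn₀ge⟩ := (hfreq.and_eventually
    (Filter.eventually_ge_atTop (max N (⌈(100 * K / η) ^ 2⌉₊ + 1)))).exists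
  have hn₀N : N ≤ n₀ := (le_max_left _ _).trans hn₀ge
  have hn₀big : (100 * K / η) ^ 2 + 1 ≤ n₀ := ceil_param_e ((le_max_right _ _).trans hn₀ge)
  have hn₀pos : (0 : ℝ) < n₀ := by nlinarith [sq_nonneg (100 * K / η)]
  have hn₀pos' : 0 < n₀ := by exact_mod_cast hn₀pos
  have hsq : 100 * K / Real.sqrt n₀ ≤ η := by
    have h1 : 100 * K / η ≤ Real.sqrt n₀ := by
      apply Real.le_sqrt_of_sq_le
      linarith
    have hs : 0 < Real.sqrt n₀ := Real.sqrt_pos.2 hn₀pos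
    rw [div_le_iff₀ hs]
    rw [div_le_iff₀ hη0] at h1
    linarith
  obtain ⟨Ns, hNs⟩ := aN_slow hj hη0 n₀
  have hev : ∀ᶠ n in Filter.atTop, Filter.limsup u Filter.atTop - ε ≤ u n := by
    filter_upwards [Filter.eventually_ge_atTop (Ns + n₀)] with n hn
    have hq : 1 ≤ n / n₀ := by
      apply (Nat.one_le_div_iff hn₀pos').2
      omega
    have hdec : n / n₀ * n₀ + n % n₀ = n := Nat.div_add_mod' n n₀
    have hmod : n % n₀ ≤ n₀ := (Nat.mod_lt n hn₀pos').le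
    have h1 := multiples_of_super (a := u) hK
      (fun n₁ n₂ h₁ h₂ => by rw [hu]; exact hsup n₁ n₂ h₁ h₂) n₀ hn₀N hn₀pos' (n / n₀) hq
    have hNq : Ns ≤ n / n₀ * n₀ := by omega
    have h2 := hNs (n / n₀ * n₀) (n % n₀) hNq hmod
    rw [hdec] at h2
    have h3 : u (n / n₀ * n₀) = aN (j + 1) (n / n₀ * n₀) := by rw [hu]
    have h4 : u n = aN (j + 1) n := by rw [hu]
    rw [h3] at h1
    rw [h4]
    linarith
  have hlim : Filter.limsup u Filter.atTop - ε ≤ Filter.liminf u Filter.atTop :=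
    Filter.le_liminf_of_le hB.isCoboundedUnder_ge hev
  linarith

/-- Positivity of the limit. -/
theorem aN_liminf_pos {j : ℕ} (hj : 2 ≤ j) :
    ∃ (c₀ : ℝ) (N : ℕ), 0 < c₀ ∧ ∀ n, N ≤ n → c₀ ≤ aN (j + 1) n := by
  obtain ⟨c, N₀, hc, hd⟩ := death_small hj
  obtain ⟨K, N₁, hK, hcheb⟩ := aN_cheb hj
  obtain ⟨e, he0, he1, hec⟩ : ∃ e : ℝ, 0 < e ∧ e ≤ 1 ∧ 4 * e ≤ c :=
    ⟨min 1 (c / 4), lt_min one_pos (by positivity), min_le_left _ _, by
      have := min_le_right 1 (c / 4)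
      linarith⟩
  refine ⟨e, max N₀ (max N₁ (max (j + 1) (max (⌈K / (e ^ 2 * (1 / 10))⌉₊ + 1) (⌈1 / e⌉₊ + 1)))),
    he0, ?_⟩
  intro n hn
  have hN0 : N₀ ≤ n := (le_max_left _ _).trans hn
  have hB1 := (le_max_right _ _).trans hn
  have hN1 : N₁ ≤ n := (le_max_left _ _).trans hB1
  have hB2 := (le_max_right _ _).trans hB1
  have hkn : j + 1 ≤ n := (le_max_left _ _).trans hB2
  have hB3 := (le_max_right _ _).trans hB2
  have hn10 : K / (e ^ 2 * (1 / 10)) + 1 ≤ n := ceil_param_e ((le_max_left _ _).trans hB3)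
  have hne : 1 / e + 1 ≤ n := ceil_param_e ((le_max_right _ _).trans hB3)
  have hnpos : 0 < n := by omega
  have hnR : (0 : ℝ) < n := by exact_mod_cast hnpos
  by_contra hlt
  push Not at hlt
  have hup := (hcheb n hN1 (e * n) (by positivity) (by nlinarith)).2
  have hp := cheb_small (K := K) he0 hnR (by norm_num : (0 : ℝ) < 1 / 10) (by linarith) hup
  have hem : 1 ≤ e * n := by
    have h2 : 1 / e ≤ n := by linarith
    rw [div_le_iff₀ he0] at h2
    linarith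
  have ha0 := aN_nonneg (j + 1) n
  have hceil : ⌈aN (j + 1) n * n + e * n⌉₊ ≤ ⌊c * (n : ℝ)⌋₊ := by
    apply Nat.le_floor
    have h2 := Nat.ceil_lt_add_one (a := aN (j + 1) n * n + e * n) (by positivity)
    nlinarith
  have h3 := satProb_anti hkn hceil
  have h4 := hd n hN0
  linarith

/-- **The satisfiability threshold conjecture** for proper random `k`-SAT, `k ≥ 3`. -/
theorem threshold_exists {k : ℕ} (hk : 3 ≤ k) :
    ∃ α : ℝ, 0 < α ∧
      (∀ c : ℝ, 0 ≤ c → c < α →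
        Filter.Tendsto (fun n : ℕ => satProb k n ⌊c * (n : ℝ)⌋₊) Filter.atTop (nhds 1)) ∧
      (∀ c : ℝ, α < c →
        Filter.Tendsto (fun n : ℕ => satProb k n ⌊c * (n : ℝ)⌋₊) Filter.atTop (nhds 0)) := by
  obtain ⟨j, rfl⟩ : ∃ j, k = j + 1 := ⟨k - 1, by omega⟩
  have hj : 2 ≤ j := by omega
  obtain ⟨α, hα⟩ := aN_tendsto hj
  obtain ⟨c₀, N₀, hc₀, hpos⟩ := aN_liminf_pos hj
  obtain ⟨K, N₁, hK, hcheb⟩ := aN_cheb hj
  have hα0 : 0 < α := by
    have : c₀ ≤ α := ge_of_tendsto hα (by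
      filter_upwards [Filter.eventually_ge_atTop N₀] with n hn
      exact hpos n hn)
    linarith
  refine ⟨α, hα0, ?_, ?_⟩
  · intro c hc0 hcα
    obtain ⟨e, he0, he1, hec⟩ : ∃ e : ℝ, 0 < e ∧ e ≤ 1 ∧ e ≤ (α - c) / 2 :=
      ⟨min 1 ((α - c) / 2), lt_min one_pos (by linarith), min_le_left _ _, min_le_right _ _⟩
    have hev : ∀ᶠ n in Filter.atTop, α - (α - c) / 2 < aN (j + 1) n :=
      hα.eventually (lt_mem_nhds (by linarith))
    obtain ⟨N₂, hN₂⟩ := Filter.eventually_atTop.1 hev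
    rw [Metric.tendsto_atTop]
    intro δ hδ
    refine ⟨max N₁ (max N₂ (max (j + 1) (⌈K / (e ^ 2 * (δ / 2))⌉₊ + 1))), ?_⟩
    intro n hn
    have hN1 : N₁ ≤ n := (le_max_left _ _).trans hn
    have hB1 := (le_max_right _ _).trans hn
    have hN2 : N₂ ≤ n := (le_max_left _ _).trans hB1
    have hB2 := (le_max_right _ _).trans hB1
    have hkn : j + 1 ≤ n := (le_max_left _ _).trans hB2
    have hnK : K / (e ^ 2 * (δ / 2)) + 1 ≤ n := ceil_param_e ((le_max_right _ _).trans hB2)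
    have hnpos : 0 < n := by omega
    have hnR : (0 : ℝ) < n := by exact_mod_cast hnpos
    have hlow := (hcheb n hN1 (e * n) (by positivity) (by nlinarith)).1
    have hp := cheb_small (K := K) he0 hnR (by positivity : (0 : ℝ) < δ / 2) (by linarith) hlow
    have hfloor : ⌊c * (n : ℝ)⌋₊ ≤ ⌊aN (j + 1) n * n - e * n⌋₊ := by
      apply Nat.floor_le_floor
      have := hN₂ n hN2
      nlinarith
    have h1 := satProb_anti hkn hfloor
    have h2 := satProb_le_one hkn ⌊c * (n : ℝ)⌋₊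
    rw [Real.dist_eq, abs_lt]
    constructor <;> linarith
  · intro c hcα
    obtain ⟨g, hg⟩ : ∃ g, g = (c - α) / 3 := ⟨_, rfl⟩
    have hg0 : 0 < g := by rw [hg]; linarith
    obtain ⟨e, he0, he1, heg⟩ : ∃ e : ℝ, 0 < e ∧ e ≤ 1 ∧ e ≤ g :=
      ⟨min 1 g, lt_min one_pos hg0, min_le_left _ _, min_le_right _ _⟩
    have hev : ∀ᶠ n in Filter.atTop, aN (j + 1) n < α + g :=
      hα.eventually (gt_mem_nhds (by linarith))
    obtain ⟨N₂, hN₂⟩ := Filter.eventually_atTop.1 hev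
    rw [Metric.tendsto_atTop]
    intro δ hδ
    refine ⟨max N₁ (max N₂ (max (j + 1) (max (⌈K / (e ^ 2 * (δ / 2))⌉₊ + 1) (⌈1 / g⌉₊ + 1)))), ?_⟩
    intro n hn
    have hN1 : N₁ ≤ n := (le_max_left _ _).trans hn
    have hB1 := (le_max_right _ _).trans hn
    have hN2 : N₂ ≤ n := (le_max_left _ _).trans hB1
    have hB2 := (le_max_right _ _).trans hB1
    have hkn : j + 1 ≤ n := (le_max_left _ _).trans hB2
    have hB3 := (le_max_right _ _).trans hB2
    have hnK : K / (e ^ 2 * (δ / 2)) + 1 ≤ n := ceil_param_e ((le_max_left _ _).trans hB3)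
    have hng : 1 / g + 1 ≤ n := ceil_param_e ((le_max_right _ _).trans hB3)
    have hnpos : 0 < n := by omega
    have hnR : (0 : ℝ) < n := by exact_mod_cast hnpos
    have hup := (hcheb n hN1 (e * n) (by positivity) (by nlinarith)).2
    have hp := cheb_small (K := K) he0 hnR (by positivity : (0 : ℝ) < δ / 2) (by linarith) hup
    have hgn : 1 ≤ g * n := by
      have h2 : 1 / g ≤ n := by linarith
      rw [div_le_iff₀ hg0] at h2
      linarith
    have ha0 := aN_nonneg (j + 1) n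
    have hceil : ⌈aN (j + 1) n * n + e * n⌉₊ ≤ ⌊c * (n : ℝ)⌋₊ := by
      apply Nat.le_floor
      have h2 := Nat.ceil_lt_add_one (a := aN (j + 1) n * n + e * n) (by positivity)
      have h3 := hN₂ n hN2
      have hcg : c = α + 3 * g := by rw [hg]; ring
      rw [hcg]
      nlinarith
    have h1 := satProb_anti hkn hceil
    have h2 := satProb_nonneg (j + 1) n ⌊c * (n : ℝ)⌋₊
    rw [Real.dist_eq, sub_zero, abs_lt]
    constructor <;> linarith

end Vale.Agent.Lib.P170
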